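import Mathlib

/-!
# Row 120 (S0160): a counterexample to Naimark's problem in ZFC — definitions

`Mt k` = matrices of size `2^k`; a system `S : Sys A` in a C⋆-algebra `A` is a compatible family of unital
⋆-homomorphisms `ρ k : Mt k → A` (the UHF algebra of type `2^∞`), `S.C` the union of their images.
Paper proof: ideas, row 120.
-/

set_option autoImplicit false

namespace Crest.Agent.NM

open Filter Topology
open scoped InnerProductSpace

/-- matrices of size `2^k` -/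
abbrev Mt (k : ℕ) : Type := Matrix (Fin (2 ^ k)) (Fin (2 ^ k)) ℂ

/-- `i ↦ i / 2` -/
def hf {k : ℕ} (i : Fin (2 ^ (k + 1))) : Fin (2 ^ k) :=
  ⟨i.1 / 2, by have h := i.2; have e : 2 ^ (k + 1) = 2 ^ k * 2 := pow_succ 2 k; omega⟩

/-- the embedding `a ↦ a ⊗ 1_2` -/
def dbl {k : ℕ} (a : Mt k) : Mt (k + 1) := fun i j => if i.1 % 2 = j.1 % 2 then a (hf i) (hf j) else 0

/-- normalised trace -/
noncomputable def ntr {k : ℕ} (a : Mt k) : ℂ := ((2 : ℂ) ^ k)⁻¹ * a.trace

/-- projection onto the first `m` basis vectors -/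
def E (k m : ℕ) : Mt k := Matrix.diagonal (fun i => if i.1 < m then 1 else 0)

/-- a compatible system of matrix algebras in the C⋆-algebra `A` -/
structure Sys (A : Type) [CStarAlgebra A] where
  /-- the embeddings -/
  ρ : ∀ k, Mt k →⋆ₐ[ℂ] A
  compat : ∀ k (a : Mt k), ρ (k + 1) (dbl a) = ρ k a

namespace Sys

variable {A : Type} [CStarAlgebra A] (S : Sys A)

theorem lift {k m : ℕ} (h : k ≤ m) (a : Mt k) : ∃ b : Mt m, S.ρ m b = S.ρ k a := by
  induction m, h using Nat.le_induction with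
  | base => exact ⟨a, rfl⟩
  | succ m _ ih =>
    obtain ⟨b, hb⟩ := ih
    exact ⟨dbl b, by rw [S.compat, hb]⟩

/-- the algebraic UHF algebra -/
def C : StarSubalgebra ℂ A where
  carrier := {c | ∃ k, ∃ a : Mt k, S.ρ k a = c}
  mul_mem' := by
    rintro x y ⟨k, a, rfl⟩ ⟨l, b, rfl⟩
    obtain ⟨a', ha⟩ := S.lift (le_max_left k l) a
    obtain ⟨b', hb⟩ := S.lift (le_max_right k l) b
    exact ⟨max k l, a' * b', by rw [map_mul, ha, hb]⟩
  one_mem' := ⟨0, 1, map_one _⟩
  add_mem' := by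
    rintro x y ⟨k, a, rfl⟩ ⟨l, b, rfl⟩
    obtain ⟨a', ha⟩ := S.lift (le_max_left k l) a
    obtain ⟨b', hb⟩ := S.lift (le_max_right k l) b
    exact ⟨max k l, a' + b', by rw [map_add, ha, hb]⟩
  zero_mem' := ⟨0, 0, map_zero _⟩
  algebraMap_mem' := fun r => ⟨0, algebraMap ℂ _ r, by rw [AlgHomClass.commutes]⟩
  star_mem' := by
    rintro x ⟨k, a, rfl⟩
    exact ⟨k, star a, map_star _ _⟩

theorem mem_C {c : A} : c ∈ S.C ↔ ∃ k, ∃ a : Mt k, S.ρ k a = c := Iff.rfl

theorem ρ_mem (k : ℕ) (a : Mt k) : S.ρ k a ∈ S.C := ⟨k, a, rfl⟩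

/-- a finite family of elements of `S.C` lies in one matrix algebra -/
theorem common {n : ℕ} (c : Fin n → A) (hc : ∀ i, c i ∈ S.C) (k₀ : ℕ) :
    ∃ k, k₀ ≤ k ∧ ∃ a : Fin n → Mt k, ∀ i, S.ρ k (a i) = c i := by
  choose l b hb using hc
  refine ⟨max k₀ (Finset.univ.sup l), le_max_left _ _, ?_⟩
  have h : ∀ i, l i ≤ max k₀ (Finset.univ.sup l) := fun i =>
    (Finset.le_sup (Finset.mem_univ i)).trans (le_max_right _ _)
  choose a ha using fun i => S.lift (h i) (b i)
  exact ⟨a, fun i => by rw [ha, hb]⟩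

/-- the base sequence: `f n` = first minimal projection of `Mt n` -/
noncomputable def f (n : ℕ) : A := S.ρ n (E n 1)

end Sys

/-- asymptotically scalar decreasing sequence of nonzero projections of `S.C` -/
structure Good {A : Type} [CStarAlgebra A] (S : Sys A) (g : ℕ → A) : Prop where
  mem : ∀ n, g n ∈ S.C
  proj : ∀ n, IsStarProjection (g n)
  anti : ∀ n, g n * g (n + 1) = g (n + 1)
  zero : g 0 = 1
  ne : ∀ n, g n ≠ 0
  scal : ∀ c ∈ S.C, ∃ l : ℂ, Tendsto (fun n => g n * c * g n - l • g n) atTop (𝓝 0)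

/-- orthogonality of two sequences -/
def Perp {A : Type} [CStarAlgebra A] (S : Sys A) (g g' : ℕ → A) : Prop :=
  ∀ c ∈ S.C, Tendsto (fun n => g n * c * g' n) atTop (𝓝 0)

/-- the abstract properties of the algebra `A` used in the analysis of its representations -/
structure ND (A : Type) [CStarAlgebra A] where
  S : Sys A
  /-- index set of the glued pure states -/
  I : Type
  g : I → ℕ → A
  q : I → ℕ → A
  U : I → A
  good : ∀ i, Good S (g i)
  perp : ∀ i j, i ≠ j → Perp S (g i) (g j)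
  perp0 : ∀ i, Perp S S.f (g i)
  max : ∀ g', Good S g' → (∀ i, Perp S (g i) g') → ¬ Perp S S.f g'
  qmem : ∀ i n, q i n ∈ S.C
  qproj : ∀ i n, IsStarProjection (q i n)
  q0 : ∀ i n, ∃ N, ∀ M, N ≤ M → S.f n * q i M = q i M
  q1 : ∀ i N, ∃ n, q i N * S.f n = S.f n
  u1 : ∀ i, star (U i) * U i = 1
  u2 : ∀ i, U i * star (U i) = 1
  um : ∀ i N, U i * (1 - g i N) ∈ S.C
  um' : ∀ i N, star (U i) * (1 - q i N) ∈ S.C
  inter : ∀ i N, U i * g i N = q i N * U i
  gen : (StarAlgebra.adjoin ℂ ((S.C : Set A) ∪ Set.range U)).topologicalClosure = ⊤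

/-- a tracial representation of the UHF algebra: `Ω` = trace vector, `R` = operators commuting with the algebra
for which `Ω` is cyclic -/
structure UHF (H : Type) [NormedAddCommGroup H] [InnerProductSpace ℂ H] [CompleteSpace H] where
  S : Sys (H →L[ℂ] H)
  Ω : H
  tr : ∀ k (a : Mt k), ⟪Ω, S.ρ k a Ω⟫_ℂ = ntr a
  R : Set (H →L[ℂ] H)
  comm : ∀ r ∈ R, ∀ c ∈ S.C, Commute r c
  dense : (Submodule.span ℂ {ζ : H | ∃ r ∈ R, r Ω = ζ}).topologicalClosure = ⊤

/-- a representation of `A` restricted to a set `C` has no nontrivial closed invariant subspace -/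
def Irr {A H : Type} [CStarAlgebra A] [NormedAddCommGroup H] [InnerProductSpace ℂ H] [CompleteSpace H]
    (π : A →⋆ₙₐ[ℂ] (H →L[ℂ] H)) (C : Set A) : Prop :=
  ∀ V : Submodule ℂ H, IsClosed (V : Set H) → (∀ a ∈ C, ∀ v ∈ V, π a v ∈ V) → V = ⊥ ∨ V = ⊤

/-- average over the matrix units of `Mt k`: `2^{-k} Σ e_ij x e_ji` -/
noncomputable def Sys.avg {A : Type} [CStarAlgebra A] (S : Sys A) (k : ℕ) (x : A) : A :=
  ((2 : ℂ) ^ k)⁻¹ • ∑ i, ∑ j, S.ρ k (Matrix.single i j 1) * x * S.ρ k (Matrix.single j i 1)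

end Crest.Agent.NM
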