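import Crest.Agent.NM.Defs

/-!
# Row 120, SS: strong sums of partial isometries
-/

set_option autoImplicit false

namespace Crest.Agent.NM

open Filter Topology
open scoped InnerProductSpace

variable {H : Type} [NormedAddCommGroup H] [InnerProductSpace ℂ H] [CompleteSpace H]

section alg

theorem SS_anti {A : Type} [CStarAlgebra A] {p : ℕ → A} (pa : ∀ n, p n * p (n + 1) = p (n + 1)) (N M : ℕ) (h : N ≤ M)
    (hp : ∀ n, IsStarProjection (p n)) : p N * p M = p M := by
  induction M, h using Nat.le_induction with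
  | base => exact (hp N).isIdempotentElem
  | succ M _ ih => rw [← pa M, ← mul_assoc, ih]

theorem SS_anti' {A : Type} [CStarAlgebra A] {p : ℕ → A} (pa : ∀ n, p n * p (n + 1) = p (n + 1)) (N M : ℕ) (h : N ≤ M)
    (hp : ∀ n, IsStarProjection (p n)) : p M * p N = p M := by
  have := congrArg star (SS_anti pa N M h hp)
  rwa [star_mul, (hp N).isSelfAdjoint.star_eq, (hp M).isSelfAdjoint.star_eq] at this

/-- partial isometry: initial space -/
theorem SS_init {A : Type} [CStarAlgebra A] {x e : A} (hx : star x * x = e) (he : e * e = e) : x * e = x := by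
  have hs : star e = e := by rw [← hx, star_mul, star_star]
  have h : star (x - x * e) * (x - x * e) = 0 := by
    have : star (x - x * e) = star x - e * star x := by rw [star_sub, star_mul, hs]
    rw [this]
    have : (star x - e * star x) * (x - x * e) = star x * x - star x * x * e - e * (star x * x) + e * (star x * x) * e := by
      noncomm_ring
    rw [this, hx, he, he]
    simp
  rw [CStarRing.star_mul_self_eq_zero_iff, sub_eq_zero] at h
  exact h.symm

variable {A : Type} [CStarAlgebra A] {p q w : ℕ → A} (hp : ∀ n, IsStarProjection (p n))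
    (hq : ∀ n, IsStarProjection (q n)) (pa : ∀ n, p n * p (n + 1) = p (n + 1))
    (qa : ∀ n, q n * q (n + 1) = q (n + 1)) (p0 : p 0 = 1)
    (hw : ∀ n, star (w n) * w n = p n - p (n + 1)) (hw' : ∀ n, w n * star (w n) = q n - q (n + 1))

include hp pa hw in
theorem SS_w_init (n : ℕ) : w n * (p n - p (n + 1)) = w n := by
  apply SS_init (hw n)
  have h1 := SS_anti pa n (n+1) (Nat.le_succ n) hp
  have h2 := SS_anti' pa n (n+1) (Nat.le_succ n) hp
  have h3 := (hp n).isIdempotentElem.eq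
  have h4 := (hp (n+1)).isIdempotentElem.eq
  rw [sub_mul, mul_sub, mul_sub, h1, h2, h3, h4]
  simp

include hp pa hw in
theorem SS_w_mul_p (n : ℕ) : w n * p n = w n := by
  have h := SS_w_init hp pa hw n
  have h2 := SS_anti' pa n (n+1) (Nat.le_succ n) hp
  have h3 := (hp n).isIdempotentElem.eq
  calc w n * p n = w n * (p n - p (n+1)) * p n := by rw [h]
    _ = w n * (p n * p n - p (n+1) * p n) := by noncomm_ring
    _ = w n * (p n - p (n+1)) := by rw [h2, h3]
    _ = w n := h

include hp pa hw in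
theorem SS_w_mul_p' (n N : ℕ) (h : n < N) : w n * p N = 0 := by
  have h0 := SS_w_init hp pa hw n
  have h2 := SS_anti pa n N h.le hp
  have h3 := SS_anti pa (n+1) N h hp
  calc w n * p N = w n * (p n - p (n+1)) * p N := by rw [h0]
    _ = w n * (p n * p N - p (n+1) * p N) := by noncomm_ring
    _ = 0 := by rw [h2, h3]; simp

include hp pa hw in
theorem SS_w_mul_p'' (n N : ℕ) (h : N ≤ n) : w n * p N = w n := by
  have h0 := SS_w_mul_p hp pa hw n
  calc w n * p N = w n * p n * p N := by rw [h0]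
    _ = w n * (p n * p N) := by rw [mul_assoc]
    _ = w n := by rw [SS_anti' pa N n h hp, h0]

include hp pa hw in
theorem SS_V_mul_p (N : ℕ) : (∑ n ∈ Finset.range N, w n) * p N = 0 := by
  rw [Finset.sum_mul]
  refine Finset.sum_eq_zero fun n hn => SS_w_mul_p' hp pa hw n N (Finset.mem_range.mp hn)

include hp pa hw in
theorem SS_V_mul (N M : ℕ) (h : N ≤ M) : (∑ n ∈ Finset.range M, w n) * (1 - p N) = ∑ n ∈ Finset.range N, w n := by
  induction M, h using Nat.le_induction with
  | base => rw [mul_sub, SS_V_mul_p hp pa hw N]; simp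
  | succ M hM ih =>
    rw [Finset.sum_range_succ, add_mul, ih, mul_sub, SS_w_mul_p'' hp pa hw M N hM]; simp

include hp hq pa qa p0 hw hw' in
theorem SS_VV (N : ℕ) : star (∑ n ∈ Finset.range N, w n) * (∑ n ∈ Finset.range N, w n) = 1 - p N := by
  have hw2 : ∀ n, star (star (w n)) * star (w n) = q n - q (n + 1) := fun n => by rw [star_star]; exact hw' n
  induction N with
  | zero => simp [p0]
  | succ N ih =>
    have h1 : star (∑ n ∈ Finset.range N, w n) * w N = 0 := by
      have h2 : star (∑ n ∈ Finset.range N, w n) * q N = 0 := by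
        rw [star_sum]; exact SS_V_mul_p (w := fun n => star (w n)) hq qa hw2 N
      have h3 : q N * w N = w N := by
        have := congrArg star (SS_w_mul_p (w := fun n => star (w n)) hq qa hw2 N)
        rwa [star_mul, star_star, (hq N).isSelfAdjoint.star_eq] at this
      rw [← h3, ← mul_assoc, h2, zero_mul]
    have h4 : star (w N) * (∑ n ∈ Finset.range N, w n) = 0 := by
      have := congrArg star h1
      rwa [star_mul, star_star, star_zero] at this
    rw [Finset.sum_range_succ, star_add, add_mul, mul_add, mul_add, ih, h1, h4, hw]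
    abel

end alg

theorem SS_half (p q w : ℕ → (H →L[ℂ] H)) (hp : ∀ n, IsStarProjection (p n))
    (hq : ∀ n, IsStarProjection (q n)) (pa : ∀ n, p n * p (n + 1) = p (n + 1))
    (qa : ∀ n, q n * q (n + 1) = q (n + 1)) (p0 : p 0 = 1)
    (pt : ∀ ζ : H, Tendsto (fun n => p n ζ) atTop (𝓝 0))
    (hw : ∀ n, star (w n) * w n = p n - p (n + 1)) (hw' : ∀ n, w n * star (w n) = q n - q (n + 1)) :
    ∃ U : H →L[ℂ] H, (∀ ζ, Tendsto (fun N => (∑ n ∈ Finset.range N, w n) ζ) atTop (𝓝 (U ζ))) ∧
      star U * U = 1 ∧ (∀ N, U * (1 - p N) = ∑ n ∈ Finset.range N, w n) := by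
  set V : ℕ → (H →L[ℂ] H) := fun N => ∑ n ∈ Finset.range N, w n with hV
  have hVV : ∀ N, star (V N) * V N = 1 - p N := SS_VV hp hq pa qa p0 hw hw'
  have hVn : ∀ N, ‖V N‖ ≤ 1 := by
    intro N
    have h1 : ‖V N‖ * ‖V N‖ = ‖(1 : H →L[ℂ] H) - p N‖ := by
      rw [← hVV, CStarRing.norm_star_mul_self]
    have h2 : ‖(1 : H →L[ℂ] H) - p N‖ ≤ 1 := (hp N).one_sub.norm_le
    nlinarith [norm_nonneg (V N)]
  have hVM : ∀ N M, N ≤ M → V M * (1 - p N) = V N := fun N M h => SS_V_mul hp pa hw N M h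
  have hdiff : ∀ N M, N ≤ M → ∀ ζ, V M ζ - V N ζ = V M (p N ζ) := by
    intro N M h ζ
    have := hVM N M h
    rw [mul_sub, mul_one] at this
    have h2 := congrArg (fun T : H →L[ℂ] H => T ζ) this
    simp only [ContinuousLinearMap.sub_apply, ContinuousLinearMap.mul_apply] at h2
    rw [← h2]; abel
  have hconv : ∀ ζ, ∃ y, Tendsto (fun N => V N ζ) atTop (𝓝 y) := by
    intro ζ
    apply cauchySeq_tendsto_of_complete
    rw [Metric.cauchySeq_iff']
    intro ε hε
    have := (pt ζ)
    rw [Metric.tendsto_atTop] at this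
    obtain ⟨N, hN⟩ := this ε hε
    refine ⟨N, fun n hn => ?_⟩
    rw [dist_eq_norm, hdiff N n hn]
    calc ‖V n (p N ζ)‖ ≤ ‖V n‖ * ‖p N ζ‖ := (V n).le_opNorm _
      _ ≤ 1 * ‖p N ζ‖ := by gcongr; exact hVn n
      _ = dist (p N ζ) 0 := by rw [one_mul, dist_zero_right]
      _ < ε := hN N le_rfl
  choose f hf using hconv
  let U : H →L[ℂ] H := continuousLinearMapOfTendsto V (tendsto_pi_nhds.mpr hf)
  have hU : ∀ ζ, Tendsto (fun N => V N ζ) atTop (𝓝 (U ζ)) := hf
  refine ⟨U, hU, ?_, ?_⟩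
  · apply ContinuousLinearMap.ext
    intro x
    apply ext_inner_left ℂ
    intro y
    rw [ContinuousLinearMap.mul_apply, ContinuousLinearMap.star_eq_adjoint, ContinuousLinearMap.adjoint_inner_right]
    have h1 : Tendsto (fun N => ⟪V N y, V N x⟫_ℂ) atTop (𝓝 ⟪U y, U x⟫_ℂ) := (hU y).inner (hU x)
    have h2 : Tendsto (fun N => ⟪V N y, V N x⟫_ℂ) atTop (𝓝 ⟪y, x⟫_ℂ) := by
      have h3 : ∀ N, ⟪V N y, V N x⟫_ℂ = ⟪y, x - p N x⟫_ℂ := by
        intro N
        have := congrArg (fun T : H →L[ℂ] H => T x) (hVV N)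
        simp only [ContinuousLinearMap.sub_apply, ContinuousLinearMap.mul_apply, ContinuousLinearMap.one_apply] at this
        rw [← this, ContinuousLinearMap.star_eq_adjoint, ContinuousLinearMap.adjoint_inner_right]
      simp only [h3]
      have h4 : Tendsto (fun N => x - p N x) atTop (𝓝 (x - 0)) := tendsto_const_nhds.sub (pt x)
      rw [sub_zero] at h4
      exact (tendsto_const_nhds).inner h4
    rw [tendsto_nhds_unique h1 h2, ContinuousLinearMap.one_apply]
  · intro N
    apply ContinuousLinearMap.ext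
    intro x
    rw [ContinuousLinearMap.mul_apply]
    have h1 := hU ((1 - p N) x)
    have h2 : Tendsto (fun M => V M ((1 - p N) x)) atTop (𝓝 (V N x)) := by
      apply tendsto_const_nhds.congr'
      filter_upwards [eventually_ge_atTop N] with M hM
      rw [← hVM N M hM, ContinuousLinearMap.mul_apply]
    exact tendsto_nhds_unique h1 h2

/-- The gluing unitary. PROOF. `p N p M = p M` for `M ≥ N` (induction). `w n = w n (p n - p (n+1)) = (q n - q (n+1)) w n`
(partial isometry: `‖w n - w n (p n - p(n+1))‖² = ‖(1-e) w*w (1-e)‖ = 0`), so `star (w m) * w n = 0` and `w m * star (w n) = 0` for `m ≠ n`.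
`V N = Σ_{n<N} w n` satisfies `V N* V N = 1 - p N`, `V N V N* = 1 - q N` and for `M ≥ N`: `V M (1 - p N) = V N`,
`V M* (1 - q N) = V N*`. `‖V M ζ - V N ζ‖² = ⟪ζ, (p N - p M) ζ⟫ ≤ ‖p N ζ‖ ‖ζ‖`: Cauchy, so `V N ζ` converges; `U` =
limit (`continuousLinearMapOfTendsto`), in the same way `V N* ζ → U' ζ`; `U' = U*` by limits of inner products;
`⟪Uζ, Uζ'⟫ = lim ⟪V N ζ, V N ζ'⟫ = lim ⟪ζ, (1-p N)ζ'⟫ = ⟪ζ,ζ'⟫`, so `U*U = 1`, likewise `U U* = 1`.
`U (1-p N) = lim_M V M (1 - p N) = V N`. `U p N = U - V N`, `q N U = lim q N V M = lim (V M - V N) = U - V N`. -/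
theorem strong_sum (p q w : ℕ → (H →L[ℂ] H)) (hp : ∀ n, IsStarProjection (p n))
    (hq : ∀ n, IsStarProjection (q n)) (pa : ∀ n, p n * p (n + 1) = p (n + 1))
    (qa : ∀ n, q n * q (n + 1) = q (n + 1)) (p0 : p 0 = 1) (q0 : q 0 = 1)
    (pt : ∀ ζ : H, Tendsto (fun n => p n ζ) atTop (𝓝 0)) (qt : ∀ ζ : H, Tendsto (fun n => q n ζ) atTop (𝓝 0))
    (hw : ∀ n, star (w n) * w n = p n - p (n + 1)) (hw' : ∀ n, w n * star (w n) = q n - q (n + 1)) :
    ∃ U : H →L[ℂ] H, star U * U = 1 ∧ U * star U = 1 ∧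
      (∀ N, U * (1 - p N) = ∑ n ∈ Finset.range N, w n) ∧
      (∀ N, star U * (1 - q N) = ∑ n ∈ Finset.range N, star (w n)) ∧
      (∀ N, U * p N = q N * U) := by
  obtain ⟨U, hU, hUU, hUp⟩ := SS_half p q w hp hq pa qa p0 pt hw hw'
  obtain ⟨W, hW, hWW, hWq⟩ := SS_half q p (fun n => star (w n)) hq hp qa pa q0 qt
    (fun n => by rw [star_star]; exact hw' n) (fun n => by rw [star_star]; exact hw n)
  have hWU : W = star U := by
    rw [ContinuousLinearMap.star_eq_adjoint, ContinuousLinearMap.eq_adjoint_iff]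
    intro x y
    have h1 : Tendsto (fun N => ⟪(∑ n ∈ Finset.range N, star (w n)) x, y⟫_ℂ) atTop (𝓝 ⟪W x, y⟫_ℂ) :=
      (hW x).inner tendsto_const_nhds
    have h2 : Tendsto (fun N => ⟪x, (∑ n ∈ Finset.range N, w n) y⟫_ℂ) atTop (𝓝 ⟪x, U y⟫_ℂ) :=
      tendsto_const_nhds.inner (hU y)
    have h3 : ∀ N, ⟪(∑ n ∈ Finset.range N, star (w n)) x, y⟫_ℂ = ⟪x, (∑ n ∈ Finset.range N, w n) y⟫_ℂ := by
      intro N
      rw [← star_sum, ContinuousLinearMap.star_eq_adjoint, ContinuousLinearMap.adjoint_inner_left]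
    simp only [h3] at h1
    exact tendsto_nhds_unique h1 h2
  subst hWU
  rw [star_star] at hWW
  refine ⟨U, hUU, hWW, hUp, hWq, fun N => ?_⟩
  have h1 : U * p N = U - ∑ n ∈ Finset.range N, w n := by
    rw [← hUp N]; noncomm_ring
  have h2 : q N * U = U - ∑ n ∈ Finset.range N, w n := by
    have h3 := congrArg star (hWq N)
    rw [star_mul, star_star, star_sum, star_sub, star_one, (hq N).isSelfAdjoint.star_eq] at h3
    simp only [star_star] at h3
    rw [← h3]; noncomm_ring
  rw [h1, h2]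

end Crest.Agent.NM
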