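import Crest.Agent.NM.T1

/-!
# Row 120, T2b
-/

set_option autoImplicit false

namespace Crest.Agent.NM

open Filter Topology
open scoped InnerProductSpace

variable {H : Type} [NormedAddCommGroup H] [InnerProductSpace ℂ H] [CompleteSpace H]

/-- matrix units -/
private noncomputable def T2b_e (S : Sys (H →L[ℂ] H)) (k : ℕ) (i j : Fin (2 ^ k)) : H →L[ℂ] H :=
  S.ρ k (Matrix.single i j 1)

private theorem T2b_e_mul (S : Sys (H →L[ℂ] H)) (k : ℕ) (i j l : Fin (2 ^ k)) :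
    T2b_e S k i j * T2b_e S k j l = T2b_e S k i l := by
  unfold T2b_e
  rw [← map_mul, Matrix.single_mul_single_same, one_mul]

private theorem T2b_e_mul0 (S : Sys (H →L[ℂ] H)) (k : ℕ) {i j m l : Fin (2 ^ k)} (h : j ≠ m) :
    T2b_e S k i j * T2b_e S k m l = 0 := by
  unfold T2b_e
  rw [← map_mul, Matrix.single_mul_single_of_ne (c := (1 : ℂ)) i j m h (1 : ℂ), map_zero]

private theorem T2b_e_star (S : Sys (H →L[ℂ] H)) (k : ℕ) (i j : Fin (2 ^ k)) :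
    star (T2b_e S k i j) = T2b_e S k j i := by
  unfold T2b_e
  rw [← map_star, Matrix.star_eq_conjTranspose, Matrix.conjTranspose_single, star_one]

private theorem T2b_e_sum (S : Sys (H →L[ℂ] H)) (k : ℕ) :
    ∑ j, T2b_e S k j j = 1 := by
  unfold T2b_e
  rw [← map_sum, Matrix.sum_single_one, map_one]

private theorem T2b_e_mem (S : Sys (H →L[ℂ] H)) (k : ℕ) (i j : Fin (2 ^ k)) :
    T2b_e S k i j ∈ S.C := S.ρ_mem k _

private theorem T2b_avg (S : Sys (H →L[ℂ] H)) (k : ℕ) (g : H →L[ℂ] H) :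
    S.avg k g = ((2 : ℂ) ^ k)⁻¹ • ∑ i, ∑ j, T2b_e S k i j * g * T2b_e S k j i := rfl

private theorem T2b_avg_mem (S : Sys (H →L[ℂ] H)) (k : ℕ) {g : H →L[ℂ] H} (hg : g ∈ S.C) :
    S.avg k g ∈ S.C := by
  rw [T2b_avg]
  refine S.C.smul_mem (sum_mem fun i _ => sum_mem fun j _ => ?_) _
  exact mul_mem (mul_mem (T2b_e_mem S k i j) hg) (T2b_e_mem S k j i)

private theorem T2b_avg_comm (S : Sys (H →L[ℂ] H)) (k : ℕ) (g : H →L[ℂ] H) (a b : Fin (2 ^ k)) :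
    Commute (S.avg k g) (T2b_e S k a b) := by
  rw [T2b_avg]
  refine Commute.smul_left ?_ _
  rw [Commute, SemiconjBy, Finset.sum_mul, Finset.mul_sum]
  have h1 : ∀ i, (∑ j, T2b_e S k i j * g * T2b_e S k j i) * T2b_e S k a b =
      if i = a then ∑ j, T2b_e S k a j * g * T2b_e S k j b else 0 := by
    intro i
    split_ifs with h
    · subst h
      rw [Finset.sum_mul]
      refine Finset.sum_congr rfl fun j _ => ?_
      rw [mul_assoc, T2b_e_mul]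
    · rw [Finset.sum_mul]
      refine Finset.sum_eq_zero fun j _ => ?_
      rw [mul_assoc, T2b_e_mul0 S k h, mul_zero]
  have h2 : ∀ i, T2b_e S k a b * (∑ j, T2b_e S k i j * g * T2b_e S k j i) =
      if i = b then ∑ j, T2b_e S k a j * g * T2b_e S k j b else 0 := by
    intro i
    split_ifs with h
    · subst h
      rw [Finset.mul_sum]
      refine Finset.sum_congr rfl fun j _ => ?_
      rw [← mul_assoc, ← mul_assoc, T2b_e_mul]
    · rw [Finset.mul_sum]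
      refine Finset.sum_eq_zero fun j _ => ?_
      rw [← mul_assoc, ← mul_assoc, T2b_e_mul0 S k (Ne.symm h), zero_mul, zero_mul]
  simp only [h1, h2, Finset.sum_ite_eq', Finset.mem_univ, if_true]

private theorem T2b_avg_sa (S : Sys (H →L[ℂ] H)) (k : ℕ) {g : H →L[ℂ] H} (hg : star g = g) :
    star (S.avg k g) = S.avg k g := by
  rw [T2b_avg, star_smul, star_sum]
  congr 1
  · simp
  · refine Finset.sum_congr rfl fun i _ => ?_
    rw [star_sum]
    refine Finset.sum_congr rfl fun j _ => ?_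
    rw [star_mul, star_mul, T2b_e_star, T2b_e_star, hg, mul_assoc]

/-- the vector functional -/
private noncomputable def T2b_tau (Ω : H) : (H →L[ℂ] H) →ₗ[ℂ] ℂ where
  toFun x := ⟪Ω, x Ω⟫_ℂ
  map_add' x y := by rw [add_apply, inner_add_right]
  map_smul' c x := by
    rw [smul_apply, inner_smul_right, RingHom.id_apply, smul_eq_mul]

private theorem T2b_key (u : UHF H) (k : ℕ) {g y : H →L[ℂ] H} (hg : g ∈ u.S.C) (hy : y ∈ u.S.C)
    (hc : ∀ a b, Commute y (T2b_e u.S k a b)) :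
    T2b_tau u.Ω (u.S.avg k g * y) = T2b_tau u.Ω (g * y) := by
  have hcomm : ∀ {x z : H →L[ℂ] H}, x ∈ u.S.C → z ∈ u.S.C →
      T2b_tau u.Ω (x * z) = T2b_tau u.Ω (z * x) := fun hx hz => tr_comm_C u hx hz
  have h1 : ∀ i j, T2b_tau u.Ω (T2b_e u.S k i j * g * T2b_e u.S k j i * y) =
      T2b_tau u.Ω (T2b_e u.S k j j * (g * y)) := by
    intro i j
    have e1 : T2b_e u.S k i j * g * T2b_e u.S k j i * y =
        (T2b_e u.S k i j * (g * y)) * T2b_e u.S k j i := by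
      rw [mul_assoc _ _ y, ← (hc j i).eq]
      simp only [mul_assoc]
    rw [e1, hcomm (mul_mem (T2b_e_mem _ _ _ _) (mul_mem hg hy)) (T2b_e_mem _ _ _ _), ← mul_assoc,
      T2b_e_mul]
  rw [T2b_avg, smul_mul_assoc, map_smul, Finset.sum_mul, map_sum]
  simp only [Finset.sum_mul, map_sum, h1]
  have h2 : ∑ j, T2b_tau u.Ω (T2b_e u.S k j j * (g * y)) = T2b_tau u.Ω (g * y) := by
    rw [← map_sum, ← Finset.sum_mul, T2b_e_sum, one_mul]
  simp only [h2, Finset.sum_const, Finset.card_univ, Fintype.card_fin, smul_eq_mul, nsmul_eq_mul]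
  push_cast
  field_simp

/-- `τ(g)² ≤ τ(g E(g))` where `E = S.avg k`. PROOF at a common level: `E(g)` commutes with `ρ k`, `E(g)² = E(g E(g))`, `τ(E(x)) = τ(x)`
(trace property `tr_comm_C`, `Σ_i e_ji e_ij = 2^k e_jj`), so `τ(g E(g)) = τ(E(g E(g))) = τ(E(g)²) = ‖E(g)Ω‖² ≥ |⟪Ω, E(g)Ω⟫|² = τ(g)²`. -/
theorem sq_le_avg (u : UHF H) {g : H →L[ℂ] H} (hg : g ∈ u.S.C) (hp : IsStarProjection g) (k : ℕ) :
    ‖g u.Ω‖ ^ 4 ≤ ‖⟪u.Ω, (g * u.S.avg k g) u.Ω⟫_ℂ‖ := by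
  have hsa : star g = g := hp.isSelfAdjoint
  have hid : g * g = g := hp.isIdempotentElem
  set E := u.S.avg k g with hE
  have hEm : E ∈ u.S.C := T2b_avg_mem u.S k hg
  have hEsa : star E = E := T2b_avg_sa u.S k hsa
  have hin : ∀ x : H →L[ℂ] H, star x = x → ⟪u.Ω, (x * x) u.Ω⟫_ℂ = (‖x u.Ω‖ : ℂ) ^ 2 := by
    intro x hx
    have h1 : ⟪x u.Ω, x u.Ω⟫_ℂ = (‖x u.Ω‖ : ℂ) ^ 2 := inner_self_eq_norm_sq_to_K _
    rw [← h1]
    change ⟪u.Ω, x (x u.Ω)⟫_ℂ = _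
    rw [← ContinuousLinearMap.adjoint_inner_left, ← ContinuousLinearMap.star_eq_adjoint, hx]
  -- τ(E E) = τ(g E)
  have e1 : ⟪u.Ω, (g * E) u.Ω⟫_ℂ = (‖E u.Ω‖ : ℂ) ^ 2 := by
    rw [← hin E hEsa]
    exact (T2b_key u k hg hEm (T2b_avg_comm u.S k g)).symm
  -- τ(E) = τ(g)
  have e2 : ⟪u.Ω, E u.Ω⟫_ℂ = (‖g u.Ω‖ : ℂ) ^ 2 := by
    rw [← hin g hsa, hid]
    have h := T2b_key u k hg (one_mem u.S.C) (fun a b => Commute.one_left _)
    rw [mul_one, mul_one] at h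
    exact h
  have e3 : ‖⟪u.Ω, E u.Ω⟫_ℂ‖ ≤ ‖E u.Ω‖ := by
    have := norm_inner_le_norm (𝕜 := ℂ) u.Ω (E u.Ω)
    rwa [norm_Ω, one_mul] at this
  rw [e2, norm_pow, Complex.norm_real, norm_norm] at e3
  rw [e1, norm_pow, Complex.norm_real, norm_norm]
  calc ‖g u.Ω‖ ^ 4 = (‖g u.Ω‖ ^ 2) ^ 2 := by ring
    _ ≤ ‖E u.Ω‖ ^ 2 := pow_le_pow_left₀ (by positivity) e3 2

end Crest.Agent.NM
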