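import Crest.Agent.NM.T2a
import Crest.Agent.NM.T2b

/-!
# Row 120, T2: the traces of an asymptotically scalar sequence tend to zero
-/

set_option autoImplicit false

namespace Crest.Agent.NM

open Filter Topology
open scoped InnerProductSpace

variable {H : Type} [NormedAddCommGroup H] [InnerProductSpace ℂ H] [CompleteSpace H]

/-- the norm of a projection -/
private theorem T2_norm_le {g : H →L[ℂ] H} (hg : IsStarProjection g) : ‖g‖ ≤ 1 := by
  have h1 : ‖g‖ * ‖g‖ = ‖g‖ := by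
    rw [← CStarRing.norm_star_mul_self, hg.isSelfAdjoint.star_eq, hg.isIdempotentElem.eq]
  by_contra h
  push Not at h
  nlinarith

private theorem T2_tau_le (u : UHF H) (x : H →L[ℂ] H) : ‖⟪u.Ω, x u.Ω⟫_ℂ‖ ≤ ‖x‖ := by
  refine (norm_inner_le_norm _ _).trans ?_
  rw [norm_Ω, one_mul]
  refine (x.le_opNorm _).trans ?_
  rw [norm_Ω, mul_one]

/-- the product of two compressions -/
private theorem T2_prod {S : Sys (H →L[ℂ] H)} {g : ℕ → (H →L[ℂ] H)} (hg : Good S g)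
    (a b : H →L[ℂ] H) {l l' : ℂ} (h : Tendsto (fun n => g n * a * g n - l • g n) atTop (𝓝 0))
    (h' : Tendsto (fun n => g n * b * g n - l' • g n) atTop (𝓝 0)) :
    Tendsto (fun n => (g n * a * g n) * (g n * b * g n) - (l * l') • g n) atTop (𝓝 0) := by
  have h1 := h.norm
  have h1' := h'.norm
  rw [norm_zero] at h1 h1'
  have h2 : Tendsto (fun n => ‖l‖ * ‖g n * b * g n - l' • g n‖ +
      ‖g n * a * g n - l • g n‖ * ‖b‖) atTop (𝓝 0) := by
    simpa using (h1'.const_mul ‖l‖).add (h1.mul_const ‖b‖)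
  refine squeeze_zero_norm (fun n => ?_) h2
  have gg : g n * g n = g n := (hg.proj n).isIdempotentElem.eq
  have hn := T2_norm_le (hg.proj n)
  have hb : ‖g n * b * g n‖ ≤ ‖b‖ := by
    calc ‖g n * b * g n‖ ≤ ‖g n‖ * ‖b‖ * ‖g n‖ :=
          (norm_mul_le _ _).trans (mul_le_mul_of_nonneg_right (norm_mul_le _ _) (norm_nonneg _))
      _ ≤ 1 * ‖b‖ * 1 := by gcongr
      _ = ‖b‖ := by ring
  have e : (g n * a * g n) * (g n * b * g n) - (l * l') • g n =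
      l • (g n * (g n * b * g n - l' • g n)) + (g n * a * g n - l • g n) * (g n * b * g n) := by
    have e1 : g n * (g n * b * g n) = g n * b * g n := by
      rw [← mul_assoc, ← mul_assoc, gg]
    rw [mul_sub, e1, mul_smul_comm, gg, sub_mul, smul_mul_assoc, e1, smul_sub, smul_smul]
    abel
  rw [e]
  refine (norm_add_le _ _).trans (add_le_add ?_ ?_)
  · rw [norm_smul]
    refine mul_le_mul_of_nonneg_left ?_ (norm_nonneg _)
    calc _ ≤ ‖g n‖ * ‖g n * b * g n - l' • g n‖ := norm_mul_le _ _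
      _ ≤ 1 * ‖g n * b * g n - l' • g n‖ := by gcongr
      _ = _ := one_mul _
  · exact (norm_mul_le _ _).trans (mul_le_mul_of_nonneg_left hb (norm_nonneg _))

private theorem T2_main (u : UHF H) {g : ℕ → (H →L[ℂ] H)} (hg : Good u.S g) (k : ℕ) :
    ∀ᶠ n in atTop, ‖g n u.Ω‖ ^ 4 ≤ 2 * ((2 : ℝ) ^ k)⁻¹ := by
  choose l hl using fun (i j : Fin (2 ^ k)) =>
    hg.scal (u.S.ρ k (Matrix.single i j 1)) (u.S.ρ_mem k _)
  have hsum := sum_sq_le u.S hg k l hl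
  set D : Fin (2 ^ k) → Fin (2 ^ k) → ℕ → (H →L[ℂ] H) := fun i j n =>
    (g n * u.S.ρ k (Matrix.single i j 1) * g n) * (g n * u.S.ρ k (Matrix.single j i 1) * g n) -
      (l i j * l j i) • g n with hD
  have hD0 : ∀ i j, Tendsto (D i j) atTop (𝓝 0) := fun i j => T2_prod hg _ _ (hl i j) (hl j i)
  have hD1 : Tendsto (fun n => ∑ i, ∑ j, ‖D i j n‖) atTop (𝓝 0) := by
    have : Tendsto (fun n => ∑ i, ∑ j, ‖D i j n‖) atTop
        (𝓝 (∑ i : Fin (2 ^ k), ∑ j : Fin (2 ^ k), (0 : ℝ))) := by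
      refine tendsto_finsetSum _ fun i _ => tendsto_finsetSum _ fun j _ => ?_
      have := (hD0 i j).norm
      rwa [norm_zero] at this
    simpa using this
  have hsum2 : ∑ i, ∑ j, ‖l i j‖ * ‖l j i‖ ≤ 1 := by
    have h1 : ∀ i j, ‖l i j‖ * ‖l j i‖ ≤ (‖l i j‖ ^ 2 + ‖l j i‖ ^ 2) / 2 := by
      intro i j
      nlinarith [sq_nonneg (‖l i j‖ - ‖l j i‖)]
    have h2 : ∑ i, ∑ j, ‖l i j‖ * ‖l j i‖ ≤ ∑ i, ∑ j, (‖l i j‖ ^ 2 + ‖l j i‖ ^ 2) / 2 :=
      Finset.sum_le_sum fun i _ => Finset.sum_le_sum fun j _ => h1 i j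
    have h3 : ∑ i, ∑ j, (‖l i j‖ ^ 2 + ‖l j i‖ ^ 2) / 2 = ∑ i, ∑ j, ‖l i j‖ ^ 2 := by
      have h4 : ∑ i, ∑ j, ‖l j i‖ ^ 2 = ∑ i, ∑ j, ‖l i j‖ ^ 2 := Finset.sum_comm
      have h5 : ∑ i, ∑ j, (‖l i j‖ ^ 2 + ‖l j i‖ ^ 2) / 2 =
          (∑ i, ∑ j, ‖l i j‖ ^ 2 + ∑ i, ∑ j, ‖l j i‖ ^ 2) / 2 := by
        rw [← Finset.sum_add_distrib, Finset.sum_div]
        refine Finset.sum_congr rfl fun i _ => ?_
        rw [← Finset.sum_add_distrib, Finset.sum_div]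
      rw [h5, h4]
      ring
    linarith
  filter_upwards [hD1.eventually (gt_mem_nhds (zero_lt_one' ℝ))] with n hn
  have h1 := sq_le_avg u (hg.mem n) (hg.proj n) k
  refine h1.trans ?_
  have gg : g n * g n = g n := (hg.proj n).isIdempotentElem.eq
  -- put a `g` on the right
  have havg : u.S.avg k (g n) ∈ u.S.C := by
    unfold Sys.avg
    refine u.S.C.smul_mem ?_ _
    refine sum_mem fun i _ => sum_mem fun j _ => ?_
    exact mul_mem (mul_mem (u.S.ρ_mem k _) (hg.mem n)) (u.S.ρ_mem k _)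
  have e1 : ⟪u.Ω, (g n * u.S.avg k (g n)) u.Ω⟫_ℂ =
      ⟪u.Ω, (g n * u.S.avg k (g n) * g n) u.Ω⟫_ℂ := by
    have h2 := tr_comm_C u (hg.mem n) (mul_mem (hg.mem n) havg)
    rw [← mul_assoc, gg] at h2
    exact h2
  have e2 : g n * u.S.avg k (g n) * g n = ((2 : ℂ) ^ k)⁻¹ • ∑ i, ∑ j,
      ((l i j * l j i) • g n + D i j n) := by
    unfold Sys.avg
    rw [mul_smul_comm, smul_mul_assoc]
    congr 1
    rw [Finset.mul_sum, Finset.sum_mul]
    refine Finset.sum_congr rfl fun i _ => ?_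
    rw [Finset.mul_sum, Finset.sum_mul]
    refine Finset.sum_congr rfl fun j _ => ?_
    rw [hD]
    simp only [add_sub_cancel]
    calc g n * (u.S.ρ k (Matrix.single i j 1) * g n * u.S.ρ k (Matrix.single j i 1)) * g n
        = g n * u.S.ρ k (Matrix.single i j 1) * g n * (u.S.ρ k (Matrix.single j i 1) * g n) := by
          simp only [mul_assoc]
      _ = g n * u.S.ρ k (Matrix.single i j 1) * (g n * g n) *
          (u.S.ρ k (Matrix.single j i 1) * g n) := by rw [gg]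
      _ = _ := by simp only [mul_assoc]
  have hΩ : ‖⟪u.Ω, g n u.Ω⟫_ℂ‖ ≤ 1 := (T2_tau_le u _).trans (T2_norm_le (hg.proj n))
  have e3 : ⟪u.Ω, (g n * u.S.avg k (g n) * g n) u.Ω⟫_ℂ =
      ((2 : ℂ) ^ k)⁻¹ * ∑ i, ∑ j, ((l i j * l j i) * ⟪u.Ω, g n u.Ω⟫_ℂ +
        ⟪u.Ω, D i j n u.Ω⟫_ℂ) := by
    rw [e2, ContinuousLinearMap.smul_apply, inner_smul_right, ContinuousLinearMap.sum_apply,
      inner_sum]
    congr 1
    refine Finset.sum_congr rfl fun i _ => ?_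
    rw [ContinuousLinearMap.sum_apply, inner_sum]
    refine Finset.sum_congr rfl fun j _ => ?_
    rw [ContinuousLinearMap.add_apply, inner_add_right, ContinuousLinearMap.smul_apply,
      inner_smul_right]
  rw [e1, e3, norm_mul, norm_inv, norm_pow]
  have h2n : ‖(2 : ℂ)‖ = 2 := by simp
  rw [h2n, mul_comm]
  refine mul_le_mul_of_nonneg_right ?_ (by positivity)
  calc ‖∑ i, ∑ j, ((l i j * l j i) * ⟪u.Ω, g n u.Ω⟫_ℂ + ⟪u.Ω, D i j n u.Ω⟫_ℂ)‖
      ≤ ∑ i, ∑ j, (‖l i j‖ * ‖l j i‖ + ‖D i j n‖) := by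
        refine (norm_sum_le _ _).trans (Finset.sum_le_sum fun i _ => ?_)
        refine (norm_sum_le _ _).trans (Finset.sum_le_sum fun j _ => ?_)
        refine (norm_add_le _ _).trans (add_le_add ?_ (T2_tau_le u _))
        rw [norm_mul, norm_mul]
        exact mul_le_of_le_one_right (by positivity) hΩ
    _ = ∑ i, ∑ j, ‖l i j‖ * ‖l j i‖ + ∑ i, ∑ j, ‖D i j n‖ := by
        rw [← Finset.sum_add_distrib]
        exact Finset.sum_congr rfl fun i _ => Finset.sum_add_distrib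
    _ ≤ 2 := by linarith

/-- PROOF. `‖g n Ω‖² = τ(g n)` is decreasing; fix `k`, `N = 2^k`. `τ(g E(g)) = τ(g E(g) g) = N^{-1} Σ_ij τ(g e_ij g e_ji g)`, and
`g_n e_ij g_n = l_ij g_n + o(1)`, `l_ji = conj l_ij`, so `|τ(g_n E(g_n))| ≤ N^{-1} Σ |l_ij|² τ(g_n) + o(1) ≤ 1/N + o(1)` (`sum_sq_le`).
With `sq_le_avg`: `limsup τ(g_n)² ≤ 1/N` for every `k`. -/
theorem tr_good (u : UHF H) {g : ℕ → (H →L[ℂ] H)} (hg : Good u.S g) :
    Tendsto (fun n => g n u.Ω) atTop (𝓝 0) := by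
  rw [NormedAddCommGroup.tendsto_nhds_zero]
  intro ε hε
  have h4 : 0 < ε ^ 4 := by positivity
  obtain ⟨k, hk⟩ := exists_pow_lt_of_lt_one (show 0 < ε ^ 4 / 2 by positivity)
    (show ((2 : ℝ)⁻¹) < 1 by norm_num)
  filter_upwards [T2_main u hg k] with n hn
  rw [inv_pow] at hk
  by_contra hc
  push Not at hc
  have : ε ^ 4 ≤ ‖g n u.Ω‖ ^ 4 := pow_le_pow_left₀ hε.le hc 4
  linarith

end Crest.Agent.NM
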