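import Crest.Agent.NM.MA3

/-!
# Row 120, ZO: the maximal family of good sequences
-/

set_option autoImplicit false

namespace Crest.Agent.NM

open Filter Topology

variable {A : Type} [CStarAlgebra A]

/-- take stars: `star (g n * star c * g' n) = g' n * c * g n` -/
theorem perp_symm (S : Sys A) {g g' : ℕ → A} (hg : ∀ n, IsStarProjection (g n))
    (hg' : ∀ n, IsStarProjection (g' n)) (h : Perp S g g') : Perp S g' g := by
  intro c hc
  have h1 := (h (star c) (star_mem hc)).star
  rw [star_zero] at h1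
  refine h1.congr fun n => ?_
  rw [star_mul, star_mul, star_star, (hg n).isSelfAdjoint.star_eq, (hg' n).isSelfAdjoint.star_eq,
    mul_assoc]

/-- a nonzero projection has norm `1`, so `g` is not orthogonal to itself (`c = 1`). -/
theorem not_perp_self (S : Sys A) {g : ℕ → A} (hg : Good S g) : ¬ Perp S g g := by
  intro h
  have h1 := (h 1 (one_mem _)).norm
  have h2 : ∀ n, ‖g n * 1 * g n‖ = 1 := by
    intro n
    have hp := hg.proj n
    have hne : ‖g n‖ ≠ 0 := norm_ne_zero_iff.mpr (hg.ne n)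
    have h3 : g n * g n = g n := hp.isIdempotentElem
    have h4 := CStarRing.norm_star_mul_self (x := g n)
    rw [hp.isSelfAdjoint.star_eq, h3] at h4
    rw [mul_one, h3]
    have h5 : ‖g n‖ * 1 = ‖g n‖ * ‖g n‖ := by rw [mul_one]; exact h4
    exact (mul_left_cancel₀ hne h5).symm
  simp_rw [h2] at h1
  rw [norm_zero] at h1
  exact one_ne_zero (tendsto_nhds_unique tendsto_const_nhds h1)

/-- Zorn (`zorn_subset`) for the sets `I` satisfying the first three properties; if `g'` is good and orthogonal to all of `I` and to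
`S.f` then `insert g' I` satisfies them (`perp_symm`), so `g' ∈ I` by maximality and `Perp S g' g'`: contradiction. -/
theorem exists_max (S : Sys A) :
    ∃ I : Set (ℕ → A), (∀ g ∈ I, Good S g) ∧ (∀ g ∈ I, ∀ g' ∈ I, g ≠ g' → Perp S g g') ∧
      (∀ g ∈ I, Perp S S.f g) ∧
      ∀ g', Good S g' → (∀ g ∈ I, Perp S g g') → ¬ Perp S S.f g' := by
  obtain ⟨I, hI⟩ := zorn_subset {I : Set (ℕ → A) | (∀ g ∈ I, Good S g) ∧
      (∀ g ∈ I, ∀ g' ∈ I, g ≠ g' → Perp S g g') ∧ (∀ g ∈ I, Perp S S.f g)} (by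
    intro c hc hchain
    refine ⟨⋃₀ c, ⟨?_, ?_, ?_⟩, fun s hs => Set.subset_sUnion_of_mem hs⟩
    · rintro g ⟨s, hs, hgs⟩
      exact (hc hs).1 g hgs
    · rintro g ⟨s, hs, hgs⟩ g' ⟨t, ht, hgt⟩ hne
      rcases hchain.total hs ht with hst | hts
      · exact (hc ht).2.1 g (hst hgs) g' hgt hne
      · exact (hc hs).2.1 g hgs g' (hts hgt) hne
    · rintro g ⟨s, hs, hgs⟩
      exact (hc hs).2.2 g hgs)
  obtain ⟨h1, h2, h3⟩ := hI.prop
  refine ⟨I, h1, h2, h3, ?_⟩
  intro g' hg' hperp hf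
  have hins : insert g' I ∈ {I : Set (ℕ → A) | (∀ g ∈ I, Good S g) ∧
      (∀ g ∈ I, ∀ g' ∈ I, g ≠ g' → Perp S g g') ∧ (∀ g ∈ I, Perp S S.f g)} := by
    refine ⟨?_, ?_, ?_⟩
    · rintro g (rfl | hg)
      · exact hg'
      · exact h1 g hg
    · rintro g (rfl | hg) g'' (rfl | hg'') hne
      · exact absurd rfl hne
      · exact perp_symm S (h1 g'' hg'').proj hg'.proj (hperp g'' hg'')
      · exact hperp g hg
      · exact h2 g hg g'' hg'' hne
    · rintro g (rfl | hg)
      · exact hf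
      · exact h3 g hg
  have hmem : g' ∈ I := hI.le_of_ge hins (Set.subset_insert _ _) (Set.mem_insert _ _)
  exact not_perp_self S hg' (hperp g' hmem)

end Crest.Agent.NM
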