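import Crest.Agent.NM.QW
import Crest.Agent.NM.SS
import Crest.Agent.NM.T2
import Crest.Agent.NM.ZO

/-!
# Row 120, F1: the gluing unitary of a good sequence
-/

set_option autoImplicit false

namespace Crest.Agent.NM

open Filter Topology
open scoped InnerProductSpace

variable {H : Type} [NormedAddCommGroup H] [InnerProductSpace ℂ H] [CompleteSpace H]

/-- everything about the gluing unitary `U` of `g` -/
structure Glue (u : UHF H) (g q : ℕ → (H →L[ℂ] H)) (U : H →L[ℂ] H) : Prop where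
  qmem : ∀ n, q n ∈ u.S.C
  qproj : ∀ n, IsStarProjection (q n)
  q0 : ∀ n, ∃ N, ∀ M, N ≤ M → u.S.f n * q M = q M
  q1 : ∀ N, ∃ n, q N * u.S.f n = u.S.f n
  gt : ∀ ζ : H, Tendsto (fun n => g n ζ) atTop (𝓝 0)
  qt : ∀ ζ : H, Tendsto (fun n => q n ζ) atTop (𝓝 0)
  u1 : star U * U = 1
  u2 : U * star U = 1
  um : ∀ N, U * (1 - g N) ∈ u.S.C
  um' : ∀ N, star U * (1 - q N) ∈ u.S.C
  inter : ∀ N, U * g N = q N * U

/-- `‖p ζ‖² = ⟪ζ, p ζ⟫` for a projection. -/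
private theorem F1_norm_sq {p : H →L[ℂ] H} (hp : IsStarProjection p) (ζ : H) :
    ‖p ζ‖ ^ 2 = ‖⟪ζ, p ζ⟫_ℂ‖ := by
  have h1 : ⟪p ζ, p ζ⟫_ℂ = ⟪ζ, p ζ⟫_ℂ := by
    have h2 : p (p ζ) = p ζ := by
      have := congrArg (fun T : H →L[ℂ] H => T ζ) hp.isIdempotentElem.eq
      simpa using this
    have h3 : ⟪p ζ, p ζ⟫_ℂ = ⟪ζ, (star p) (p ζ)⟫_ℂ := by
      rw [ContinuousLinearMap.star_eq_adjoint, ContinuousLinearMap.adjoint_inner_right]
    rw [h3, hp.isSelfAdjoint.star_eq, h2]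
  rw [← h1, inner_self_eq_norm_sq_to_K, norm_pow]
  simp

/-- `f n ζ → 0`: `‖f n Ω‖² = ntr (E n 1) = 2^{-n}` and `strong_of_tr`. -/
theorem f_tendsto (u : UHF H) (ζ : H) : Tendsto (fun n => u.S.f n ζ) atTop (𝓝 0) := by
  refine strong_of_tr u (fun n => u.S.f n) (fun n => u.S.f_mem n) 1 (fun n => (u.S.f_proj n).norm_le) ?_ ζ
  have h1 : ∀ n, ‖u.S.f n u.Ω‖ ^ 2 = ((1 : ℝ) / 2) ^ n := by
    intro n
    rw [F1_norm_sq (u.S.f_proj n)]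
    have h2 : ⟪u.Ω, u.S.f n u.Ω⟫_ℂ = ntr (E n 1) := u.tr n (E n 1)
    rw [h2]
    unfold ntr
    rw [E_trace Nat.one_le_two_pow]
    simp
  have h3 : Tendsto (fun n => ‖u.S.f n u.Ω‖ ^ 2) atTop (𝓝 0) := by
    simp only [h1]
    exact tendsto_pow_atTop_nhds_zero_of_lt_one (by norm_num) (by norm_num)
  have h4 : Tendsto (fun n => Real.sqrt (‖u.S.f n u.Ω‖ ^ 2)) atTop (𝓝 (Real.sqrt 0)) :=
    (Real.continuous_sqrt.tendsto 0).comp h3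
  rw [Real.sqrt_zero] at h4
  simp only [Real.sqrt_sq (norm_nonneg _)] at h4
  exact tendsto_zero_iff_norm_tendsto_zero.mpr h4

/-- PROOF. `tr_good` gives `g n Ω → 0`; hypothesis `htr` of `exists_qw`: `‖ntr a‖ = |⟪Ω, g M Ω⟫| ≤ ‖g M Ω‖`. `g n ζ → 0` by `strong_of_tr` (`B = 1`);
`q M ζ → 0`: `q M = q M f n` for large `M` (star of `q0`), so `‖q M ζ‖ ≤ ‖f n ζ‖`, `f_tendsto`. `strong_sum`; the finite sums of `w n` are in `S.C`. -/
theorem exists_glue (u : UHF H) {g : ℕ → (H →L[ℂ] H)} (hg : Good u.S g) :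
    ∃ (q : ℕ → (H →L[ℂ] H)) (U : H →L[ℂ] H), Glue u g q U := by
  have hgΩ := tr_good u hg
  have hΩ := norm_Ω u
  obtain ⟨q, w, hqC, hwC, hqp, hqa, hq0, hqf, hqN, hw1, hw2⟩ := exists_qw u.S hg (by
    intro ε hε
    rw [Metric.tendsto_atTop] at hgΩ
    obtain ⟨N, hN⟩ := hgΩ ε hε
    refine ⟨N, fun M hM k a ha => ?_⟩
    rw [← u.tr k a, ha]
    calc ‖⟪u.Ω, g M u.Ω⟫_ℂ‖ ≤ ‖u.Ω‖ * ‖g M u.Ω‖ := norm_inner_le_norm _ _
      _ = dist (g M u.Ω) 0 := by rw [hΩ, one_mul, dist_zero_right]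
      _ < ε := hN M hM)
  have hgt : ∀ ζ : H, Tendsto (fun n => g n ζ) atTop (𝓝 0) := fun ζ =>
    strong_of_tr u g hg.mem 1 (fun n => (hg.proj n).norm_le) hgΩ ζ
  have hqt : ∀ ζ : H, Tendsto (fun n => q n ζ) atTop (𝓝 0) := by
    intro ζ
    rw [Metric.tendsto_atTop]
    intro ε hε
    have hf := f_tendsto u ζ
    rw [Metric.tendsto_atTop] at hf
    obtain ⟨n, hn⟩ := hf ε hε
    obtain ⟨N, hN⟩ := hqf n
    refine ⟨N, fun M hM => ?_⟩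
    have h1 : q M * u.S.f n = q M := by
      have := congrArg star (hN M hM)
      rwa [star_mul, (u.S.f_proj n).isSelfAdjoint.star_eq, (hqp M).isSelfAdjoint.star_eq] at this
    rw [dist_zero_right]
    calc ‖q M ζ‖ = ‖q M (u.S.f n ζ)‖ := by
          have h2 := congrArg (fun T : H →L[ℂ] H => T ζ) h1
          simp only [mul_apply_eq_comp] at h2
          rw [h2]
      _ ≤ ‖q M‖ * ‖u.S.f n ζ‖ := (q M).le_opNorm _
      _ ≤ 1 * ‖u.S.f n ζ‖ := by gcongr; exact (hqp M).norm_le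
      _ = dist (u.S.f n ζ) 0 := by rw [one_mul, dist_zero_right]
      _ < ε := hn n le_rfl
  obtain ⟨U, hU1, hU2, hU3, hU4, hU5⟩ := strong_sum g q w hg.proj hqp hg.anti hqa hg.zero hq0 hgt hqt hw1 hw2
  refine ⟨q, U, ⟨hqC, hqp, hqf, hqN, hgt, hqt, hU1, hU2, ?_, ?_, hU5⟩⟩
  · intro N
    rw [hU3]
    exact sum_mem fun n _ => hwC n
  · intro N
    rw [hU4]
    exact sum_mem fun n _ => star_mem (hwC n)

/-- the hypothesis of `avg_tendsto` for `U`: `U c = U (1 - g N) c + U (g N c)`, `y = g N c`, `c' = U (1 - g N) c`, `g N c Ω → 0`. -/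
theorem Glue.split (u : UHF H) {g q : ℕ → (H →L[ℂ] H)} {U : H →L[ℂ] H} (hg : Good u.S g) (h : Glue u g q U)
    {c : H →L[ℂ] H} (hc : c ∈ u.S.C) {ε : ℝ} (hε : 0 < ε) :
    ∃ c' ∈ u.S.C, ∃ y ∈ u.S.C, U * c = c' + U * y ∧ ‖y u.Ω‖ ≤ ε := by
  have h1 := h.gt (c u.Ω)
  rw [Metric.tendsto_atTop] at h1
  obtain ⟨N, hN⟩ := h1 ε hε
  refine ⟨U * (1 - g N) * c, mul_mem (h.um N) hc, g N * c, mul_mem (hg.mem N) hc, by noncomm_ring, ?_⟩
  have h2 := hN N le_rfl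
  rw [dist_zero_right] at h2
  exact h2.le

theorem Glue.split' (u : UHF H) {g q : ℕ → (H →L[ℂ] H)} {U : H →L[ℂ] H} (h : Glue u g q U)
    {c : H →L[ℂ] H} (hc : c ∈ u.S.C) {ε : ℝ} (hε : 0 < ε) :
    ∃ c' ∈ u.S.C, ∃ y ∈ u.S.C, star U * c = c' + star U * y ∧ ‖y u.Ω‖ ≤ ε := by
  have h1 := h.qt (c u.Ω)
  rw [Metric.tendsto_atTop] at h1
  obtain ⟨N, hN⟩ := h1 ε hε
  refine ⟨star U * (1 - q N) * c, mul_mem (h.um' N) hc, q N * c, mul_mem (h.qmem N) hc, by noncomm_ring, ?_⟩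
  have h2 := hN N le_rfl
  rw [dist_zero_right] at h2
  exact h2.le

end Crest.Agent.NM
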