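import Crest.Agent.NM.T1

/-!
# Row 120, T3: approximable operators; the trace
-/

set_option autoImplicit false

namespace Crest.Agent.NM

open Filter Topology
open scoped InnerProductSpace

variable {H : Type} [NormedAddCommGroup H] [InnerProductSpace ℂ H] [CompleteSpace H]

/-- `x` is a ⋆-strong limit of a bounded sequence of `S.C` -/
def App (u : UHF H) (x : H →L[ℂ] H) : Prop :=
  ∃ c : ℕ → (H →L[ℂ] H), (∀ n, c n ∈ u.S.C) ∧ (∃ B : ℝ, ∀ n, ‖c n‖ ≤ B) ∧
    (∀ ζ : H, Tendsto (fun n => c n ζ) atTop (𝓝 (x ζ))) ∧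
    (∀ ζ : H, Tendsto (fun n => star (c n) ζ) atTop (𝓝 (star x ζ)))

/-- products of bounded strongly convergent sequences -/
private theorem tendsto_mul {c d : ℕ → (H →L[ℂ] H)} {x y : H →L[ℂ] H} {B : ℝ}
    (hB : ∀ n, ‖c n‖ ≤ B)
    (hc : ∀ ζ : H, Tendsto (fun n => c n ζ) atTop (𝓝 (x ζ)))
    (hd : ∀ ζ : H, Tendsto (fun n => d n ζ) atTop (𝓝 (y ζ))) (ζ : H) :
    Tendsto (fun n => (c n * d n) ζ) atTop (𝓝 ((x * y) ζ)) := by
  have h1 : Tendsto (fun n => c n (d n ζ - y ζ)) atTop (𝓝 0) := by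
    have h2 : Tendsto (fun n => B * ‖d n ζ - y ζ‖) atTop (𝓝 0) := by
      have h3 : Tendsto (fun n => d n ζ - y ζ) atTop (𝓝 0) := by
        have := (hd ζ).sub_const (y ζ)
        rwa [sub_self] at this
      have h4 := h3.norm.const_mul B
      rwa [norm_zero, mul_zero] at h4
    refine squeeze_zero_norm (fun n => ?_) h2
    exact ((c n).le_opNorm _).trans (mul_le_mul_of_nonneg_right (hB n) (norm_nonneg _))
  have h5 := h1.add (hc (y ζ))
  rw [zero_add] at h5
  refine h5.congr (fun n => ?_)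
  rw [map_sub, sub_add_cancel]
  rfl

private theorem App.ofC (u : UHF H) {x : H →L[ℂ] H} (hx : x ∈ u.S.C) : App u x :=
  ⟨fun _ => x, fun _ => hx, ⟨‖x‖, fun _ => le_rfl⟩, fun _ => tendsto_const_nhds,
    fun _ => tendsto_const_nhds⟩

private theorem App.star' (u : UHF H) {x : H →L[ℂ] H} (hx : App u x) : App u (star x) := by
  obtain ⟨c, hc, ⟨B, hB⟩, h1, h2⟩ := hx
  refine ⟨fun n => star (c n), fun n => star_mem (hc n), ⟨B, fun n => ?_⟩, h2, ?_⟩
  · rw [norm_star]; exact hB n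
  · simpa only [star_star] using h1

private theorem App.mul' (u : UHF H) {x y : H →L[ℂ] H} (hx : App u x) (hy : App u y) :
    App u (x * y) := by
  obtain ⟨c, hc, ⟨B, hB⟩, h1, h2⟩ := hx
  obtain ⟨d, hd, ⟨B', hB'⟩, h1', h2'⟩ := hy
  have hB0 : 0 ≤ B := (norm_nonneg _).trans (hB 0)
  refine ⟨fun n => c n * d n, fun n => mul_mem (hc n) (hd n), ⟨B * B', fun n => ?_⟩, ?_, ?_⟩
  · exact (norm_mul_le _ _).trans (mul_le_mul (hB n) (hB' n) (norm_nonneg _) hB0)
  · exact tendsto_mul hB h1 h1'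
  · intro ζ
    rw [star_mul]
    simp only [star_mul]
    exact tendsto_mul (B := B') (fun n => by rw [norm_star]; exact hB' n) h2' h2 ζ

private theorem App.add' (u : UHF H) {x y : H →L[ℂ] H} (hx : App u x) (hy : App u y) :
    App u (x + y) := by
  obtain ⟨c, hc, ⟨B, hB⟩, h1, h2⟩ := hx
  obtain ⟨d, hd, ⟨B', hB'⟩, h1', h2'⟩ := hy
  refine ⟨fun n => c n + d n, fun n => add_mem (hc n) (hd n), ⟨B + B', fun n => ?_⟩, ?_, ?_⟩
  · exact (norm_add_le _ _).trans (add_le_add (hB n) (hB' n))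
  · intro ζ
    exact (h1 ζ).add (h1' ζ)
  · intro ζ
    rw [star_add]
    simp only [star_add]
    exact (h2 ζ).add (h2' ζ)

/-- the approximable operators form a ⋆-subalgebra containing `S.C` (products: `c n d n ζ - x y ζ = c n (d n ζ - yζ) + (c n - x) y ζ`,
bounded). -/
theorem App.adjoin (u : UHF H) {s : Set (H →L[ℂ] H)} (hs : ∀ x ∈ s, App u x) :
    ∀ x ∈ StarAlgebra.adjoin ℂ ((u.S.C : Set (H →L[ℂ] H)) ∪ s), App u x := by
  intro x hx
  induction hx using StarAlgebra.adjoin_induction with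
  | mem x hx =>
    rcases hx with hx | hx
    · exact App.ofC u hx
    · exact hs x hx
  | algebraMap r => exact App.ofC u (u.S.C.algebraMap_mem r)
  | add x y _ _ hx hy => exact App.add' u hx hy
  | mul x y _ _ hx hy => exact App.mul' u hx hy
  | star x _ hx => exact App.star' u hx

/-- `τ(xy) = lim τ(c n d n) = lim τ(d n c n) = τ(yx)` (`tr_comm_C`; the product sequences converge strongly). -/
theorem App.tr_comm (u : UHF H) {x y : H →L[ℂ] H} (hx : App u x) (hy : App u y) :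
    ⟪u.Ω, (x * y) u.Ω⟫_ℂ = ⟪u.Ω, (y * x) u.Ω⟫_ℂ := by
  obtain ⟨c, hc, ⟨B, hB⟩, h1, h2⟩ := hx
  obtain ⟨d, hd, ⟨B', hB'⟩, h1', h2'⟩ := hy
  have e1 : Tendsto (fun n => ⟪u.Ω, (c n * d n) u.Ω⟫_ℂ) atTop (𝓝 ⟪u.Ω, (x * y) u.Ω⟫_ℂ) :=
    tendsto_const_nhds.inner (tendsto_mul hB h1 h1' u.Ω)
  have e2 : Tendsto (fun n => ⟪u.Ω, (d n * c n) u.Ω⟫_ℂ) atTop (𝓝 ⟪u.Ω, (y * x) u.Ω⟫_ℂ) :=
    tendsto_const_nhds.inner (tendsto_mul hB' h1' h1 u.Ω)
  refine tendsto_nhds_unique e1 (e2.congr (fun n => ?_))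
  exact (tr_comm_C u (hc n) (hd n)).symm

/-- by norm density -/
theorem tr_comm_closure (u : UHF H) {s : Set (H →L[ℂ] H)} (hs : ∀ x ∈ s, App u x)
    {x y : H →L[ℂ] H}
    (hx : x ∈ (StarAlgebra.adjoin ℂ ((u.S.C : Set (H →L[ℂ] H)) ∪ s)).topologicalClosure)
    (hy : y ∈ (StarAlgebra.adjoin ℂ ((u.S.C : Set (H →L[ℂ] H)) ∪ s)).topologicalClosure) :
    ⟪u.Ω, (x * y) u.Ω⟫_ℂ = ⟪u.Ω, (y * x) u.Ω⟫_ℂ := by
  have hA := App.adjoin u hs
  set T := StarAlgebra.adjoin ℂ ((u.S.C : Set (H →L[ℂ] H)) ∪ s) with hT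
  have hx' : x ∈ closure (T : Set (H →L[ℂ] H)) := by
    rw [← StarSubalgebra.topologicalClosure_coe]; exact hx
  have hy' : y ∈ closure (T : Set (H →L[ℂ] H)) := by
    rw [← StarSubalgebra.topologicalClosure_coe]; exact hy
  have happ : Continuous (fun z : H →L[ℂ] H => z u.Ω) :=
    (ContinuousLinearMap.apply ℂ H u.Ω).continuous
  -- first variable
  have step1 : ∀ y ∈ T, ∀ x ∈ closure (T : Set (H →L[ℂ] H)),
      ⟪u.Ω, (x * y) u.Ω⟫_ℂ = ⟪u.Ω, (y * x) u.Ω⟫_ℂ := by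
    intro y hy
    have hcl : IsClosed {x : H →L[ℂ] H | ⟪u.Ω, (x * y) u.Ω⟫_ℂ = ⟪u.Ω, (y * x) u.Ω⟫_ℂ} := by
      refine isClosed_eq ?_ ?_
      · exact continuous_const.inner (happ.comp (continuous_id.mul continuous_const))
      · exact continuous_const.inner (happ.comp (continuous_const.mul continuous_id))
    exact closure_minimal (fun x hx => App.tr_comm u (hA x hx) (hA y hy)) hcl
  have hcl : IsClosed {y : H →L[ℂ] H | ⟪u.Ω, (x * y) u.Ω⟫_ℂ = ⟪u.Ω, (y * x) u.Ω⟫_ℂ} := by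
    refine isClosed_eq ?_ ?_
    · exact continuous_const.inner (happ.comp (continuous_const.mul continuous_id))
    · exact continuous_const.inner (happ.comp (continuous_id.mul continuous_const))
  exact closure_minimal (fun y hy => step1 y hy x hx') hcl hy'

/-- approximable operators commute with every `r ∈ R` such that ... PROOF: `r c n ζ = c n r ζ`, limits; then closure (the
commutant of `r` is closed; it is a subalgebra; the set is generated by a star-closed set, use that each `x ∈ adjoin` is `App`). -/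
theorem comm_closure (u : UHF H) {s : Set (H →L[ℂ] H)} (hs : ∀ x ∈ s, App u x) {x : H →L[ℂ] H}
    (hx : x ∈ (StarAlgebra.adjoin ℂ ((u.S.C : Set (H →L[ℂ] H)) ∪ s)).topologicalClosure) :
    ∀ r ∈ u.R, Commute r x := by
  intro r hr
  have hA := App.adjoin u hs
  set T := StarAlgebra.adjoin ℂ ((u.S.C : Set (H →L[ℂ] H)) ∪ s) with hT
  have hx' : x ∈ closure (T : Set (H →L[ℂ] H)) := by
    rw [← StarSubalgebra.topologicalClosure_coe]; exact hx
  have hcl : IsClosed {x : H →L[ℂ] H | r * x = x * r} :=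
    isClosed_eq (continuous_const.mul continuous_id) (continuous_id.mul continuous_const)
  refine closure_minimal (fun x hx => ?_) hcl hx'
  obtain ⟨c, hc, -, h1, -⟩ := hA x hx
  refine ContinuousLinearMap.ext fun ζ => ?_
  have e1 : Tendsto (fun n => r (c n ζ)) atTop (𝓝 (r (x ζ))) :=
    (r.continuous.tendsto _).comp (h1 ζ)
  have e2 : Tendsto (fun n => c n (r ζ)) atTop (𝓝 (x (r ζ))) := h1 (r ζ)
  refine tendsto_nhds_unique e1 (e2.congr (fun n => ?_))
  have h3 : r * c n = c n * r := u.comm r hr (c n) (hc n)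
  exact (congrArg (fun z : H →L[ℂ] H => z ζ) h3).symm

end Crest.Agent.NM
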