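import Crest.Agent.NM.F1
import Crest.Agent.NM.T3

/-!
# Row 120, F2: `U` is approximable
-/

set_option autoImplicit false

namespace Crest.Agent.NM

open Filter Topology
open scoped InnerProductSpace

variable {H : Type} [NormedAddCommGroup H] [InnerProductSpace ℂ H] [CompleteSpace H]

/-- `c N = U (1 - g N)`, `‖c N‖ ≤ 2`, `c N ζ = U ζ - U (g N ζ) → U ζ`, `star (c N) ζ = (1 - g N) U* ζ → U* ζ`. -/
theorem Glue.app (u : UHF H) {g q : ℕ → (H →L[ℂ] H)} {U : H →L[ℂ] H} (hg : Good u.S g) (h : Glue u g q U) :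
    App u U := by
  have hU : ‖U‖ ≤ 1 := by
    have h1 := h.u1
    have h2 : ‖star U * U‖ = ‖U‖ * ‖U‖ := CStarRing.norm_star_mul_self
    have h3 : ‖star U * U‖ ≤ 1 := by
      rw [h1]
      exact ContinuousLinearMap.norm_id_le
    nlinarith [norm_nonneg U]
  have hgn : ∀ N, ‖(1 : H →L[ℂ] H) - g N‖ ≤ 1 := fun N => (hg.proj N).one_sub.norm_le
  refine ⟨fun N => U * (1 - g N), h.um, ⟨1, fun N => ?_⟩, fun ζ => ?_, fun ζ => ?_⟩
  · calc ‖U * (1 - g N)‖ ≤ ‖U‖ * ‖(1 : H →L[ℂ] H) - g N‖ := norm_mul_le _ _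
      _ ≤ 1 * 1 := mul_le_mul hU (hgn N) (norm_nonneg _) zero_le_one
      _ = 1 := one_mul 1
  · have h1 : Tendsto (fun N => U (ζ - g N ζ)) atTop (𝓝 (U (ζ - 0))) :=
      (U.continuous.tendsto _).comp (tendsto_const_nhds.sub (h.gt ζ))
    rw [sub_zero] at h1
    exact h1
  · have h1 : Tendsto (fun N => star U ζ - g N (star U ζ)) atTop (𝓝 (star U ζ - 0)) :=
      tendsto_const_nhds.sub (h.gt (star U ζ))
    rw [sub_zero] at h1
    refine h1.congr fun N => ?_
    have e : star (U * (1 - g N)) = (1 - g N) * star U := by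
      rw [star_mul, star_sub, star_one, (hg.proj N).isSelfAdjoint.star_eq]
    rw [e]
    rfl

end Crest.Agent.NM
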