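import Crest.Agent.NM.MA3

/-!
# Row 120, F3: the C⋆-algebra `A` and the transfer of the structure to it
-/

set_option autoImplicit false

namespace Crest.Agent.NM

open Filter Topology
open scoped InnerProductSpace

variable {B : Type} [CStarAlgebra B]

/-- a system with values in a closed ⋆-subalgebra `A₀` containing `S.C` -/
theorem exists_sub (S : Sys B) (A₀ : StarSubalgebra ℂ B) [IsClosed (A₀ : Set B)] (hC : S.C ≤ A₀) :
    ∃ S' : Sys A₀, ∀ k a, ((S'.ρ k a : A₀) : B) = S.ρ k a := by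
  have hm : ∀ k a, S.ρ k a ∈ A₀ := fun k a => hC (S.ρ_mem k a)
  refine ⟨{ ρ := fun k => (S.ρ k).codRestrict A₀ (hm k), compat := fun k a => Subtype.ext ?_ }, fun k a => rfl⟩
  exact S.compat k a

section
variable (S : Sys B) (A₀ : StarSubalgebra ℂ B) [IsClosed (A₀ : Set B)] (S' : Sys A₀)
  (h : ∀ k a, ((S'.ρ k a : A₀) : B) = S.ρ k a)

include h

theorem sub_mem_iff (c : A₀) : c ∈ S'.C ↔ (c : B) ∈ S.C := by
  constructor
  · rintro ⟨k, a, rfl⟩
    exact ⟨k, a, (h k a).symm⟩
  · rintro ⟨k, a, ha⟩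
    exact ⟨k, a, Subtype.ext ((h k a).trans ha)⟩

theorem sub_f (n : ℕ) : ((S'.f n : A₀) : B) = S.f n := by
  exact h n _

/-- the norm of `A₀` is the restriction of the norm of `B` -/
theorem sub_good (g : ℕ → A₀) : Good S' g ↔ Good S (fun n => (g n : B)) := by
  constructor
  · intro hg
    refine ⟨fun n => (sub_mem_iff S A₀ S' h _).1 (hg.mem n), fun n => ⟨?_, ?_⟩, fun n => ?_, ?_, fun n hn => ?_, ?_⟩
    · exact congrArg Subtype.val (hg.proj n).isIdempotentElem
    · exact congrArg Subtype.val (hg.proj n).isSelfAdjoint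
    · exact congrArg Subtype.val (hg.anti n)
    · exact congrArg Subtype.val hg.zero
    · exact hg.ne n (Subtype.ext hn)
    · intro c hc
      obtain ⟨k, a, rfl⟩ := hc
      obtain ⟨l, hl⟩ := hg.scal (S'.ρ k a) (S'.ρ_mem k a)
      refine ⟨l, ?_⟩
      have := (continuous_subtype_val.tendsto (0 : A₀)).comp hl
      simpa [Function.comp_def, h] using this
  · intro hg
    refine ⟨fun n => (sub_mem_iff S A₀ S' h _).2 (hg.mem n), fun n => ⟨?_, ?_⟩, fun n => ?_, ?_, fun n hn => ?_, ?_⟩
    · exact Subtype.ext (hg.proj n).isIdempotentElem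
    · exact Subtype.ext (hg.proj n).isSelfAdjoint
    · exact Subtype.ext (hg.anti n)
    · exact Subtype.ext hg.zero
    · exact hg.ne n (congrArg Subtype.val hn)
    · intro c hc
      obtain ⟨l, hl⟩ := hg.scal (c : B) ((sub_mem_iff S A₀ S' h _).1 hc)
      refine ⟨l, ?_⟩
      rw [tendsto_subtype_rng]
      exact hl

theorem sub_perp (g g' : ℕ → A₀) : Perp S' g g' ↔ Perp S (fun n => (g n : B)) (fun n => (g' n : B)) := by
  constructor
  · intro hp c hc
    obtain ⟨k, a, rfl⟩ := hc
    have := (continuous_subtype_val.tendsto (0 : A₀)).comp (hp (S'.ρ k a) (S'.ρ_mem k a))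
    simpa [Function.comp_def, h] using this
  · intro hp c hc
    rw [tendsto_subtype_rng]
    exact hp (c : B) ((sub_mem_iff S A₀ S' h _).1 hc)

theorem sub_avg (k : ℕ) (x : A₀) : ((S'.avg k x : A₀) : B) = S.avg k (x : B) := by
  unfold Sys.avg
  simp [h]

end

end Crest.Agent.NM
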