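import Crest.Agent.NM.Defs

/-!
# Row 120, F3b: the C⋆-algebra `A` and the transfer of the structure to it
-/

set_option autoImplicit false

namespace Crest.Agent.NM

open Filter Topology
open scoped InnerProductSpace

variable {B : Type} [CStarAlgebra B]

/-- the closed ⋆-subalgebra generated by a set, inside itself: `⊤`. For `A₀ = (adjoin s).topologicalClosure` and the preimage `s'` of `s` in `A₀`,
`(adjoin s').topologicalClosure = ⊤`. PROOF: `StarSubalgebra.map`/`StarAlgebra.adjoin` commute with the subtype embedding, which is a closed embedding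
(isometry); or directly: every `x ∈ A₀` is a limit of elements of `adjoin s ⊆ A₀`, each of which is the image of an element of `adjoin s'`
(`StarAlgebra.adjoin_induction`). -/
theorem gen_top (s : Set B) :
    (StarAlgebra.adjoin ℂ {x : (StarAlgebra.adjoin ℂ s).topologicalClosure | (x : B) ∈ s}).topologicalClosure = ⊤ := by
  set A₀ := (StarAlgebra.adjoin ℂ s).topologicalClosure with hA₀
  have hle : StarAlgebra.adjoin ℂ s ≤ A₀ := StarSubalgebra.le_topologicalClosure _
  have key : ∀ y ∈ StarAlgebra.adjoin ℂ s, ∀ h : y ∈ A₀, (⟨y, h⟩ : A₀) ∈ StarAlgebra.adjoin ℂ {x : A₀ | (x : B) ∈ s} := by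
    intro y hy
    induction hy using StarAlgebra.adjoin_induction with
    | mem x hx => intro h; exact StarAlgebra.subset_adjoin ℂ _ hx
    | algebraMap r => intro h; exact StarSubalgebra.algebraMap_mem _ r
    | add x y hx hy ihx ihy => intro h; exact add_mem (ihx (hle hx)) (ihy (hle hy))
    | mul x y hx hy ihx ihy => intro h; exact mul_mem (ihx (hle hx)) (ihy (hle hy))
    | star x hx ihx => intro h; exact star_mem (ihx (hle hx))
  rw [eq_top_iff]
  intro x _
  show x ∈ closure _
  rw [Metric.mem_closure_iff]
  intro ε hε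
  have hx : (x : B) ∈ closure ((StarAlgebra.adjoin ℂ s : StarSubalgebra ℂ B) : Set B) := x.2
  rw [Metric.mem_closure_iff] at hx
  obtain ⟨y, hy, hxy⟩ := hx ε hε
  exact ⟨⟨y, hle hy⟩, key y hy _, hxy⟩

end Crest.Agent.NM
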