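import Crest.Agent.NM.F4a
import Crest.Agent.NM.F2
import Crest.Prelude.Def_CStarRep

/-!
# Row 120, F4c: trace
-/

set_option autoImplicit false

namespace Crest.Agent.NM

open Filter Topology
open scoped InnerProductSpace

variable {H : Type} [NormedAddCommGroup H] [InnerProductSpace ℂ H] [CompleteSpace H]

/-- faithful tracial state: `τ x = ⟪Ω, x Ω⟫` (`tr_comm_closure`, `eq_zero_of_Ω`, `comm_closure`). -/
theorem exists_trace (u : UHF H) {I : Type} (g q : I → ℕ → (H →L[ℂ] H)) (U : I → (H →L[ℂ] H))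
    (h1 : ∀ i, Good u.S (g i)) (h5 : ∀ i, Glue u (g i) (q i) (U i)) :
    ∃ τ : AA u U →ₗ[ℂ] ℂ, Crest.OpAlg.IsFaithfulTracialState τ ∧ ∀ x, τ x = ⟪u.Ω, (x : H →L[ℂ] H) u.Ω⟫_ℂ := by
  have hs : ∀ x ∈ Set.range U, App u x := by
    rintro _ ⟨i, rfl⟩
    exact Glue.app u (h1 i) (h5 i)
  have key : ∀ x : AA u U, ⟪u.Ω, ((star x * x : AA u U) : H →L[ℂ] H) u.Ω⟫_ℂ
      = ((‖(x : H →L[ℂ] H) u.Ω‖ ^ 2 : ℝ) : ℂ) := by
    intro x
    change ⟪u.Ω, (star (x : H →L[ℂ] H)) ((x : H →L[ℂ] H) u.Ω)⟫_ℂ = _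
    rw [ContinuousLinearMap.star_eq_adjoint, ContinuousLinearMap.adjoint_inner_right,
      inner_self_eq_norm_sq_to_K]
    norm_cast
  refine ⟨{ toFun := fun x => ⟪u.Ω, (x : H →L[ℂ] H) u.Ω⟫_ℂ
            map_add' := fun x y => ?_
            map_smul' := fun c x => ?_ }, ⟨?_, ?_, ?_, ?_⟩, fun x => rfl⟩
  · change ⟪u.Ω, (x : H →L[ℂ] H) u.Ω + (y : H →L[ℂ] H) u.Ω⟫_ℂ = _
    rw [inner_add_right]
  · change ⟪u.Ω, c • (x : H →L[ℂ] H) u.Ω⟫_ℂ = c • _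
    rw [inner_smul_right]
    rfl
  · change ⟪u.Ω, u.Ω⟫_ℂ = 1
    rw [inner_self_eq_norm_sq_to_K, norm_Ω u]
    norm_num
  · intro a
    change (⟪u.Ω, ((star a * a : AA u U) : H →L[ℂ] H) u.Ω⟫_ℂ).im = 0 ∧
      0 ≤ (⟪u.Ω, ((star a * a : AA u U) : H →L[ℂ] H) u.Ω⟫_ℂ).re
    rw [key]
    exact ⟨Complex.ofReal_im _, by rw [Complex.ofReal_re]; positivity⟩
  · intro a ha
    change ⟪u.Ω, ((star a * a : AA u U) : H →L[ℂ] H) u.Ω⟫_ℂ = 0 at ha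
    rw [key] at ha
    have h3 : ‖(a : H →L[ℂ] H) u.Ω‖ ^ 2 = 0 := by exact_mod_cast ha
    have h4 : (a : H →L[ℂ] H) u.Ω = 0 := norm_eq_zero.mp (pow_eq_zero_iff (two_ne_zero) |>.mp h3)
    exact Subtype.ext (eq_zero_of_Ω u _ (comm_closure u hs a.2) h4)
  · intro a b
    exact tr_comm_closure u hs a.2 b.2

end Crest.Agent.NM
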