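import Crest.Agent.NM.T5a

/-!
# Row 120, T5: averages over matrix units converge to the trace (in norm)
-/

set_option autoImplicit false

namespace Crest.Agent.NM

open Filter Topology
open scoped InnerProductSpace

variable {H : Type} [NormedAddCommGroup H] [InnerProductSpace ℂ H] [CompleteSpace H]

/-- `x` is `ε`-negligible (uniformly with left factors) -/
def Neg (u : UHF H) (ε : ℝ) (x : H →L[ℂ] H) : Prop :=
  ∀ z : H →L[ℂ] H, ∀ᶠ k in atTop, ‖u.S.avg k (z * x)‖ ≤ ε * ‖z‖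

theorem t5_neg_add (u : UHF H) {ε δ : ℝ} {x y : H →L[ℂ] H} (hx : Neg u ε x) (hy : Neg u δ y) :
    Neg u (ε + δ) (x + y) := by
  intro z
  filter_upwards [hx z, hy z] with k h1 h2
  rw [mul_add, avg_add]
  refine (norm_add_le _ _).trans ?_
  rw [add_mul]
  exact add_le_add h1 h2

theorem t5_neg_mono (u : UHF H) {ε δ : ℝ} (h : ε ≤ δ) {x : H →L[ℂ] H} (hx : Neg u ε x) :
    Neg u δ x := by
  intro z
  filter_upwards [hx z] with k h1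
  exact h1.trans (mul_le_mul_of_nonneg_right h (norm_nonneg _))

theorem t5_neg_norm (u : UHF H) (x : H →L[ℂ] H) : Neg u ‖x‖ x := by
  intro z
  refine Eventually.of_forall fun k => ?_
  refine (norm_avg_le _ _ _).trans ?_
  rw [mul_comm ‖x‖]
  exact norm_mul_le _ _

theorem t5_neg_mul (u : UHF H) {ε : ℝ} (h0 : 0 ≤ ε) {x : H →L[ℂ] H} (hx : Neg u ε x)
    (w : H →L[ℂ] H) : Neg u (ε * ‖w‖) (w * x) := by
  intro z
  filter_upwards [hx (z * w)] with k h1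
  rw [← mul_assoc]
  refine h1.trans ?_
  rw [mul_assoc, mul_comm ‖w‖]
  exact mul_le_mul_of_nonneg_left (norm_mul_le _ _) h0

theorem t5_neg_smul (u : UHF H) {ε : ℝ} {x : H →L[ℂ] H} (hx : Neg u ε x)
    (a : ℂ) : Neg u (ε * ‖a‖) (a • x) := by
  intro z
  filter_upwards [hx (a • z)] with k h1
  rw [mul_smul_comm, ← smul_mul_assoc]
  refine h1.trans (le_of_eq ?_)
  rw [norm_smul]
  ring

theorem t5_neg_C (u : UHF H) {y : H →L[ℂ] H} (hy : y ∈ u.S.C) (w : H →L[ℂ] H) :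
    Neg u (‖w‖ * ‖y u.Ω‖) (w * y) := by
  intro z
  filter_upwards [norm_avg_mul_le u (z * w) hy] with k h1
  rw [← mul_assoc]
  refine h1.trans ?_
  have := mul_le_mul_of_nonneg_right (norm_mul_le z w) (norm_nonneg (y u.Ω))
  refine this.trans (le_of_eq ?_)
  ring

/-- approximable by `S.C` up to negligible elements -/
def T5Q (u : UHF H) (x : H →L[ℂ] H) : Prop := ∀ ε : ℝ, 0 < ε → ∃ c ∈ u.S.C, Neg u ε (x - c)

theorem t5_Q_C (u : UHF H) {x : H →L[ℂ] H} (hx : x ∈ u.S.C) : T5Q u x := by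
  intro ε hε
  refine ⟨x, hx, ?_⟩
  have := t5_neg_norm u (x - x)
  refine t5_neg_mono u ?_ this
  rw [sub_self, norm_zero]
  exact hε.le

theorem t5_Q_add (u : UHF H) {x y : H →L[ℂ] H} (hx : T5Q u x) (hy : T5Q u y) : T5Q u (x + y) := by
  intro ε hε
  obtain ⟨c, hc, h1⟩ := hx (ε / 2) (half_pos hε)
  obtain ⟨d, hd, h2⟩ := hy (ε / 2) (half_pos hε)
  refine ⟨c + d, add_mem hc hd, ?_⟩
  have := t5_neg_add u h1 h2
  rw [add_halves] at this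
  have e : x + y - (c + d) = (x - c) + (y - d) := by abel
  rw [e]
  exact this

theorem t5_Q_smul (u : UHF H) {x : H →L[ℂ] H} (hx : T5Q u x) (a : ℂ) : T5Q u (a • x) := by
  intro ε hε
  have hpos : 0 < ‖a‖ + 1 := by positivity
  obtain ⟨c, hc, h1⟩ := hx (ε / (‖a‖ + 1)) (div_pos hε hpos)
  refine ⟨a • c, SMulMemClass.smul_mem a hc, ?_⟩
  rw [← smul_sub]
  refine t5_neg_mono u ?_ (t5_neg_smul u h1 a)
  rw [div_mul_eq_mul_div, div_le_iff₀ hpos]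
  nlinarith [norm_nonneg a]

theorem t5_Q_lim (u : UHF H) {x : H →L[ℂ] H}
    (hx : ∀ δ : ℝ, 0 < δ → ∃ y, T5Q u y ∧ ‖x - y‖ ≤ δ) : T5Q u x := by
  intro ε hε
  obtain ⟨y, hy, h1⟩ := hx (ε / 2) (half_pos hε)
  obtain ⟨c, hc, h2⟩ := hy (ε / 2) (half_pos hε)
  refine ⟨c, hc, ?_⟩
  have h3 := t5_neg_add u (t5_neg_mono u h1 (t5_neg_norm u (x - y))) h2
  rw [add_halves, sub_add_sub_cancel] at h3
  exact h3

/-- left multiplication of `S.C` stays in `T5Q` -/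
def T5Z (u : UHF H) (z : H →L[ℂ] H) : Prop := ∀ c ∈ u.S.C, T5Q u (z * c)

theorem t5_Z_C (u : UHF H) {z : H →L[ℂ] H} (hz : z ∈ u.S.C) : T5Z u z :=
  fun _ hc => t5_Q_C u (mul_mem hz hc)

theorem t5_Z_gen (u : UHF H) {z : H →L[ℂ] H}
    (hz : ∀ c ∈ u.S.C, ∀ ε : ℝ, 0 < ε → ∃ c' ∈ u.S.C, ∃ y ∈ u.S.C, z * c = c' + z * y ∧ ‖y u.Ω‖ ≤ ε) :
    T5Z u z := by
  intro c hc ε hε
  have hpos : 0 < ‖z‖ + 1 := by positivity
  obtain ⟨c', hc', y, hy, h1, h2⟩ := hz c hc (ε / (‖z‖ + 1)) (div_pos hε hpos)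
  refine ⟨c', hc', ?_⟩
  rw [h1, add_sub_cancel_left]
  refine t5_neg_mono u ?_ (t5_neg_C u hy z)
  rw [le_div_iff₀ hpos] at h2
  nlinarith [norm_nonneg z, norm_nonneg (y u.Ω)]

theorem t5_Z_mul (u : UHF H) {z w : H →L[ℂ] H} (hz : T5Z u z) (hw : T5Z u w) : T5Z u (z * w) := by
  intro c hc ε hε
  have hpos : 0 < ‖z‖ + 1 := by positivity
  obtain ⟨c', hc', h1⟩ := hw c hc (ε / 2 / (‖z‖ + 1)) (div_pos (half_pos hε) hpos)
  obtain ⟨c'', hc'', h2⟩ := hz c' hc' (ε / 2) (half_pos hε)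
  refine ⟨c'', hc'', ?_⟩
  have h3 := t5_neg_add u h2 (t5_neg_mul u (div_pos (half_pos hε) hpos).le h1 z)
  have e : z * w * c - c'' = (z * c' - c'') + z * (w * c - c') := by
    rw [mul_sub, mul_assoc]; abel
  rw [e]
  refine t5_neg_mono u ?_ h3
  have : ε / 2 / (‖z‖ + 1) * ‖z‖ ≤ ε / 2 := by
    rw [div_mul_eq_mul_div, div_le_iff₀ hpos]
    nlinarith [norm_nonneg z]
  linarith

theorem t5_Z_add (u : UHF H) {z w : H →L[ℂ] H} (hz : T5Z u z) (hw : T5Z u w) : T5Z u (z + w) := by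
  intro c hc
  rw [add_mul]
  exact t5_Q_add u (hz c hc) (hw c hc)

theorem t5_Z_smul (u : UHF H) {z : H →L[ℂ] H} (hz : T5Z u z) (a : ℂ) : T5Z u (a • z) := by
  intro c hc
  rw [smul_mul_assoc]
  exact t5_Q_smul u (hz c hc) a

theorem t5_Z_lim (u : UHF H) {z : H →L[ℂ] H}
    (hz : ∀ δ : ℝ, 0 < δ → ∃ y, T5Z u y ∧ ‖z - y‖ ≤ δ) : T5Z u z := by
  intro c hc
  refine t5_Q_lim u fun δ hδ => ?_
  have hpos : 0 < ‖c‖ + 1 := by positivity
  obtain ⟨y, hy, h1⟩ := hz (δ / (‖c‖ + 1)) (div_pos hδ hpos)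
  refine ⟨y * c, hy c hc, ?_⟩
  rw [← sub_mul]
  refine (norm_mul_le _ _).trans ?_
  rw [le_div_iff₀ hpos] at h1
  nlinarith [norm_nonneg c, norm_nonneg (z - y)]

/-- the ⋆-subalgebra of elements in `T5Z` together with the adjoint -/
def t5Sub (u : UHF H) : StarSubalgebra ℂ (H →L[ℂ] H) where
  carrier := {z | T5Z u z ∧ T5Z u (star z)}
  mul_mem' := by
    rintro x y ⟨hx, hx'⟩ ⟨hy, hy'⟩
    refine ⟨t5_Z_mul u hx hy, ?_⟩
    rw [star_mul]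
    exact t5_Z_mul u hy' hx'
  add_mem' := by
    rintro x y ⟨hx, hx'⟩ ⟨hy, hy'⟩
    refine ⟨t5_Z_add u hx hy, ?_⟩
    rw [star_add]
    exact t5_Z_add u hx' hy'
  algebraMap_mem' := fun r => by
    have h1 : algebraMap ℂ (H →L[ℂ] H) r ∈ u.S.C := algebraMap_mem _ _
    exact ⟨t5_Z_C u h1, t5_Z_C u (star_mem h1)⟩
  star_mem' := by
    rintro x ⟨hx, hx'⟩
    refine ⟨hx', ?_⟩
    rw [star_star]
    exact hx

theorem t5Sub_closed (u : UHF H) : IsClosed (t5Sub u : Set (H →L[ℂ] H)) := by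
  rw [← isSeqClosed_iff_isClosed]
  intro x z hx hz
  rw [Metric.tendsto_atTop] at hz
  refine ⟨t5_Z_lim u fun δ hδ => ?_, t5_Z_lim u fun δ hδ => ?_⟩
  · obtain ⟨N, hN⟩ := hz δ hδ
    refine ⟨x N, (hx N).1, ?_⟩
    rw [← dist_eq_norm, dist_comm]
    exact (hN N le_rfl).le
  · obtain ⟨N, hN⟩ := hz δ hδ
    refine ⟨star (x N), (hx N).2, ?_⟩
    rw [← star_sub, norm_star, ← dist_eq_norm, dist_comm]
    exact (hN N le_rfl).le

/-- the average preserves a tracial functional -/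
theorem t5_tr_avg (u : UHF H) (k : ℕ) (y : H →L[ℂ] H)
    (h : ∀ i j : Fin (2 ^ k), ⟪u.Ω, (u.S.ρ k (Matrix.single i j 1) * y * u.S.ρ k (Matrix.single j i 1)) u.Ω⟫_ℂ =
      ⟪u.Ω, (u.S.ρ k (Matrix.single j i 1) * (u.S.ρ k (Matrix.single i j 1) * y)) u.Ω⟫_ℂ) :
    ⟪u.Ω, u.S.avg k y u.Ω⟫_ℂ = ⟪u.Ω, y u.Ω⟫_ℂ := by
  have h1 : ∀ i j : Fin (2 ^ k), (u.S.ρ k (Matrix.single j i 1) * (u.S.ρ k (Matrix.single i j 1) * y)) =
      u.S.ρ k (Matrix.single j j 1) * y := by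
    intro i j
    rw [← mul_assoc, ← map_mul, Matrix.single_mul_single_same, mul_one]
  unfold Sys.avg
  rw [ContinuousLinearMap.smul_apply, inner_smul_right, ContinuousLinearMap.sum_apply, inner_sum]
  simp only [ContinuousLinearMap.sum_apply, inner_sum]
  simp only [h, h1]
  rw [Finset.sum_const, Finset.card_univ, Fintype.card_fin, nsmul_eq_mul]
  rw [← inner_sum, ← ContinuousLinearMap.sum_apply, ← Finset.sum_mul, ← map_sum]
  have h2 : ∑ i : Fin (2 ^ k), Matrix.single i i (1 : ℂ) = 1 := by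
    ext a b
    rw [Matrix.sum_apply, Finset.sum_eq_single a]
    · by_cases hab : a = b
      · subst hab; simp
      · rw [Matrix.one_apply_ne hab, Matrix.single_apply]
        simp [hab]
    · intro c _ hc
      simp [Matrix.single_apply, hc]
    · simp
  rw [h2, map_one, one_mul, Nat.cast_pow, Nat.cast_ofNat, ← mul_assoc, inv_mul_cancel₀, one_mul]
  exact pow_ne_zero _ two_ne_zero

/-- MAIN STATEMENT. `hs`, `hs'`: for every generator `z ∈ s` (resp. its star) and `c ∈ S.C`, `ε > 0`: `z c = c' + z y` with `c', y ∈ S.C`,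
`‖yΩ‖ ≤ ε`.
PROOF. `Q = {x | ∀ ε > 0, ∃ c ∈ S.C, Neg ε (x - c)}` is closed under addition, scalars, norm limits (`norm_avg_le`) and contains
`S.C`. `Z = {z | ∀ c ∈ S.C, z c ∈ Q}` contains `S.C`, `s` and `star s` (`norm_avg_mul_le`: `‖avg k (z' z y)‖ ≤ ‖z'‖ ‖z‖ ‖yΩ‖`), is closed under
products (`z₁ z₂ c = z₁ c' + z₁ x`, `x = z₂c - c'` with `Neg ε x`, so `Neg (ε‖z₁‖) (z₁ x)`), sums, scalars and norm limits; `{z ∈ Z | star z ∈ Z}` is a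
closed ⋆-subalgebra containing the generators. With `c = 1`: every `x` in it is in `Q`: `‖avg k x - τ(c) 1‖ ≤ ε` eventually, and
`|τ(x) - τ(c)| ≤ ε` because `τ(avg k y) = τ(y)` for `y` in the algebra (trace property `htr`). -/
theorem avg_tendsto (u : UHF H) (s : Set (H →L[ℂ] H))
    (hs : ∀ z ∈ s, ∀ c ∈ u.S.C, ∀ ε : ℝ, 0 < ε → ∃ c' ∈ u.S.C, ∃ y ∈ u.S.C, z * c = c' + z * y ∧ ‖y u.Ω‖ ≤ ε)
    (hs' : ∀ z ∈ s, ∀ c ∈ u.S.C, ∀ ε : ℝ, 0 < ε →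
      ∃ c' ∈ u.S.C, ∃ y ∈ u.S.C, star z * c = c' + star z * y ∧ ‖y u.Ω‖ ≤ ε)
    (htr : ∀ x ∈ (StarAlgebra.adjoin ℂ ((u.S.C : Set (H →L[ℂ] H)) ∪ s)).topologicalClosure,
      ∀ y ∈ (StarAlgebra.adjoin ℂ ((u.S.C : Set (H →L[ℂ] H)) ∪ s)).topologicalClosure,
        ⟪u.Ω, (x * y) u.Ω⟫_ℂ = ⟪u.Ω, (y * x) u.Ω⟫_ℂ)
    {x : H →L[ℂ] H} (hx : x ∈ (StarAlgebra.adjoin ℂ ((u.S.C : Set (H →L[ℂ] H)) ∪ s)).topologicalClosure) :
    Tendsto (fun k => u.S.avg k x) atTop (𝓝 (⟪u.Ω, x u.Ω⟫_ℂ • (1 : H →L[ℂ] H))) := by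
  have hC : ∀ c ∈ u.S.C, c ∈ (StarAlgebra.adjoin ℂ ((u.S.C : Set (H →L[ℂ] H)) ∪ s)).topologicalClosure :=
    fun c hc => StarSubalgebra.le_topologicalClosure _
      (StarAlgebra.subset_adjoin ℂ _ (Set.mem_union_left _ hc))
  have hle : (StarAlgebra.adjoin ℂ ((u.S.C : Set (H →L[ℂ] H)) ∪ s)).topologicalClosure ≤ t5Sub u := by
    refine StarSubalgebra.topologicalClosure_minimal ?_ (t5Sub_closed u)
    refine StarAlgebra.adjoin_le ?_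
    rintro z (hz | hz)
    · exact ⟨t5_Z_C u hz, t5_Z_C u (star_mem hz)⟩
    · exact ⟨t5_Z_gen u (hs z hz), t5_Z_gen u (hs' z hz)⟩
  have hQ : T5Q u x := by
    have h1 := (hle hx).1 1 (one_mem _)
    rwa [mul_one] at h1
  have h1n : ‖(1 : H →L[ℂ] H)‖ ≤ 1 := ContinuousLinearMap.norm_id_le
  have hΩ := norm_Ω u
  rw [Metric.tendsto_atTop]
  intro ε hε
  obtain ⟨c, hc, h1⟩ := hQ (ε / 4) (by positivity)
  have h2 := ((h1 1).and (avg_C u hc)).and (eventually_ge_atTop 0)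
  obtain ⟨N, hN⟩ := eventually_atTop.1 h2
  have hxc : x - c ∈ (StarAlgebra.adjoin ℂ ((u.S.C : Set (H →L[ℂ] H)) ∪ s)).topologicalClosure :=
    sub_mem hx (hC c hc)
  have htau : ∀ k, N ≤ k → ‖u.S.avg k (x - c)‖ ≤ ε / 4 := by
    intro k hk
    have h3 := (hN k hk).1.1
    rw [one_mul] at h3
    refine h3.trans ?_
    have : (0 : ℝ) ≤ ε / 4 := by positivity
    nlinarith
  have hdiff : ‖⟪u.Ω, x u.Ω⟫_ℂ - ⟪u.Ω, c u.Ω⟫_ℂ‖ ≤ ε / 4 := by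
    rw [← inner_sub_right, ← ContinuousLinearMap.sub_apply, ← t5_tr_avg u N (x - c)]
    · refine (norm_inner_le_norm _ _).trans ?_
      rw [hΩ, one_mul]
      refine (ContinuousLinearMap.le_opNorm _ _).trans ?_
      rw [hΩ, mul_one]
      exact htau N le_rfl
    · intro i j
      exact htr _ (mul_mem (hC _ (u.S.ρ_mem _ _)) hxc) _ (hC _ (u.S.ρ_mem _ _))
  refine ⟨N, fun k hk => ?_⟩
  rw [dist_eq_norm]
  have h5 : u.S.avg k x = u.S.avg k (x - c) + ⟪u.Ω, c u.Ω⟫_ℂ • (1 : H →L[ℂ] H) := by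
    rw [← (hN k hk).1.2, ← avg_add, sub_add_cancel]
  have h6 : u.S.avg k x - ⟪u.Ω, x u.Ω⟫_ℂ • (1 : H →L[ℂ] H) =
      u.S.avg k (x - c) - (⟪u.Ω, x u.Ω⟫_ℂ - ⟪u.Ω, c u.Ω⟫_ℂ) • (1 : H →L[ℂ] H) := by
    rw [h5, sub_smul]; abel
  rw [h6]
  refine (norm_sub_le _ _).trans_lt ?_
  rw [norm_smul]
  have h7 := htau k hk
  have h8 : ‖⟪u.Ω, x u.Ω⟫_ℂ - ⟪u.Ω, c u.Ω⟫_ℂ‖ * ‖(1 : H →L[ℂ] H)‖ ≤ ε / 4 * 1 :=
    mul_le_mul hdiff h1n (norm_nonneg _) (by positivity)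
  linarith

end Crest.Agent.NM
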