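import Crest.Agent.NM.MA3

/-!
# Row 120, T6: simplicity and infinite dimension
-/

set_option autoImplicit false

namespace Crest.Agent.NM

open Filter Topology

variable {A : Type} [CStarAlgebra A]

private theorem T6_smul_mem (I : TwoSidedIdeal A) (r : ℂ) {x : A} (hx : x ∈ I) : r • x ∈ I := by
  have : r • x = (r • (1 : A)) * x := by rw [smul_mul_assoc, one_mul]
  rw [this]
  exact I.mul_mem_left _ _ hx

private theorem T6_avg_mem (S : Sys A) (I : TwoSidedIdeal A) (k : ℕ) {x : A} (hx : x ∈ I) :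
    S.avg k x ∈ I := by
  unfold Sys.avg
  apply T6_smul_mem
  refine sum_mem fun i _ => sum_mem fun j _ => ?_
  exact I.mul_mem_right _ _ (I.mul_mem_left _ _ hx)

/-- PROOF: a nonzero closed ideal `I` contains `z = y* y` with `τ z ≠ 0`, hence all `avg k z` (finite sums of products), hence the limit
`τ(z) • 1`, hence `1`. -/
theorem simple_of_avg (S : Sys A) (τ : A → ℂ) (h : ∀ x : A, Tendsto (fun k => S.avg k x) atTop (𝓝 (τ x • (1 : A))))
    (hτ : ∀ x : A, x ≠ 0 → τ (star x * x) ≠ 0) (I : TwoSidedIdeal A) (hI : IsClosed (I : Set A)) :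
    I = ⊥ ∨ I = ⊤ := by
  by_cases hb : ∀ y ∈ I, y = 0
  · left
    rw [eq_bot_iff]
    intro y hy
    rw [TwoSidedIdeal.mem_bot]
    exact hb y hy
  · right
    push Not at hb
    obtain ⟨y, hy, hy0⟩ := hb
    have hz : star y * y ∈ I := I.mul_mem_left _ _ hy
    have hlim : τ (star y * y) • (1 : A) ∈ (I : Set A) :=
      hI.mem_of_tendsto (h (star y * y)) (Eventually.of_forall fun k => T6_avg_mem S I k hz)
    have h1 : (1 : A) ∈ I := by
      have := T6_smul_mem I (τ (star y * y))⁻¹ (x := τ (star y * y) • (1 : A)) hlim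
      rwa [smul_smul, inv_mul_cancel₀ (hτ y hy0), one_smul] at this
    rw [eq_top_iff]
    intro x _
    have := I.mul_mem_left x 1 h1
    rwa [mul_one] at this

/-- `ρ k` is injective, so `4^k ≤ finrank A` for all `k`. -/
theorem infdim (S : Sys A) [Nontrivial A] : ¬ FiniteDimensional ℂ A := by
  intro hfd
  have h : ∀ k : ℕ, 2 ^ k * 2 ^ k ≤ Module.finrank ℂ A := by
    intro k
    have := LinearMap.finrank_le_finrank_of_injective (f := (S.ρ k).toAlgHom.toLinearMap)
      (S.inj k)
    rw [Module.finrank_matrix] at this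
    simpa using this
  have h1 := h (Module.finrank ℂ A)
  have h2 : Module.finrank ℂ A < 2 ^ (Module.finrank ℂ A) := Nat.lt_two_pow_self
  have h3 : 1 ≤ 2 ^ (Module.finrank ℂ A) := Nat.one_le_two_pow
  nlinarith

end Crest.Agent.NM
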