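import Crest.Agent.NM.F4a
import Crest.Agent.NM.F2
import Crest.Agent.NM.F3
import Crest.Agent.NM.T5
import Crest.Agent.NM.T6

/-!
# Row 120, F4d: simplicity
-/

set_option autoImplicit false

namespace Crest.Agent.NM

open Filter Topology
open scoped InnerProductSpace

variable {H : Type} [NormedAddCommGroup H] [InnerProductSpace ℂ H] [CompleteSpace H]

/-- simplicity: `avg_tendsto`, `simple_of_avg`, `sub_avg` -/
theorem simple (u : UHF H) {I : Type} (g q : I → ℕ → (H →L[ℂ] H)) (U : I → (H →L[ℂ] H))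
    (h1 : ∀ i, Good u.S (g i)) (h5 : ∀ i, Glue u (g i) (q i) (U i)) (J : TwoSidedIdeal (AA u U))
    (hJ : IsClosed (J : Set (AA u U))) : J = ⊥ ∨ J = ⊤ := by
  have hs : ∀ x ∈ Set.range U, App u x := by
    rintro _ ⟨i, rfl⟩
    exact Glue.app u (h1 i) (h5 i)
  have hle : u.S.C ≤ AA u U := by
    intro c hc
    exact StarSubalgebra.le_topologicalClosure _
      (StarAlgebra.subset_adjoin ℂ _ (Set.mem_union_left _ hc))
  obtain ⟨S', hS'⟩ := exists_sub u.S (AA u U) hle
  refine simple_of_avg S' (fun x => ⟪u.Ω, (x : H →L[ℂ] H) u.Ω⟫_ℂ) ?_ ?_ J hJ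
  · intro x
    have hx : (x : H →L[ℂ] H) ∈
        (StarAlgebra.adjoin ℂ ((u.S.C : Set (H →L[ℂ] H)) ∪ Set.range U)).topologicalClosure := x.2
    have h := avg_tendsto u (Set.range U)
      (by
        rintro _ ⟨i, rfl⟩ c hc ε hε
        exact Glue.split u (h1 i) (h5 i) hc hε)
      (by
        rintro _ ⟨i, rfl⟩ c hc ε hε
        exact Glue.split' u (h5 i) hc hε)
      (fun a ha b hb => tr_comm_closure u hs ha hb) hx
    rw [tendsto_subtype_rng]
    refine (h.congr fun k => (sub_avg u.S (AA u U) S' hS' k x).symm)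
  · intro x hx h
    apply hx
    have h2 : ((star x * x : AA u U) : H →L[ℂ] H) = star (x : H →L[ℂ] H) * (x : H →L[ℂ] H) := rfl
    have h3 : (x : H →L[ℂ] H) u.Ω = 0 := by
      have h4 : ⟪u.Ω, (star (x : H →L[ℂ] H) * (x : H →L[ℂ] H)) u.Ω⟫_ℂ = 0 := h
      rw [ContinuousLinearMap.star_eq_adjoint] at h4
      change ⟪u.Ω, (ContinuousLinearMap.adjoint (x : H →L[ℂ] H)) ((x : H →L[ℂ] H) u.Ω)⟫_ℂ = 0 at h4
      rw [ContinuousLinearMap.adjoint_inner_right] at h4
      exact inner_self_eq_zero.mp h4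
    have h5' : (x : H →L[ℂ] H) = 0 := eq_zero_of_Ω u _ (comm_closure u hs x.2) h3
    exact Subtype.ext h5'

end Crest.Agent.NM
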