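import Crest.Agent.NM.M3c

/-!
# Row 120, M3: from the Pauli system to the UHF system
-/

set_option autoImplicit false

namespace Crest.Agent.NM

open Filter Topology
open scoped InnerProductSpace

variable {H : Type} [NormedAddCommGroup H] [InnerProductSpace ℂ H] [CompleteSpace H]

/-- the index `0` of `Mt 0` -/
def m3z : Fin (2 ^ 0) := ⟨0, by norm_num⟩

theorem m3z_eq (i : Fin (2 ^ 0)) : i = m3z := by
  apply Fin.ext
  have := i.2
  have e : 2 ^ 0 = 1 := rfl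
  show i.1 = 0
  omega

theorem m3_sum (f : Fin (2 ^ 0) → ℂ) : ∑ i, f i = f m3z := by
  rw [Finset.sum_eq_single m3z]
  · intro b _ hb
    exact absurd (m3z_eq b) hb
  · intro h
    exact absurd (Finset.mem_univ _) h

/-- level `0` -/
noncomputable def m3Zero (H : Type) [NormedAddCommGroup H] [InnerProductSpace ℂ H] [CompleteSpace H] :
    Mt 0 →⋆ₐ[ℂ] (H →L[ℂ] H) where
  toFun a := algebraMap ℂ (H →L[ℂ] H) (a m3z m3z)
  map_one' := by simp
  map_mul' a b := by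
    rw [Matrix.mul_apply, m3_sum, map_mul]
  map_zero' := by simp
  map_add' a b := by rw [Matrix.add_apply, map_add]
  commutes' r := by
    rw [Matrix.algebraMap_matrix_apply, if_pos rfl]
    rfl
  map_star' a := by
    rw [Matrix.star_apply]
    exact algebraMap_star_comm _

theorem m3Zero_apply (a : Mt 0) : m3Zero H a = algebraMap ℂ (H →L[ℂ] H) (a m3z m3z) := rfl

/-- one level with its commutation property -/
structure Lv (P : Pauli H) (k : ℕ) where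
  r : Mt k →⋆ₐ[ℂ] (H →L[ℂ] H)
  prop : ∀ T : H →L[ℂ] H, (∀ n < k, Commute T (P.X n)) →
    (∀ n < k, Commute T (P.Z n)) → ∀ a, Commute (r a) T

theorem Lv.hX {P : Pauli H} {k : ℕ} (r : Lv P k) : ∀ a, Commute (r.r a) (P.X k) :=
  r.prop (P.X k) (fun n _ => P.cXX k n) (fun n hn => P.cXZ k n (by omega))

theorem Lv.hZ {P : Pauli H} {k : ℕ} (r : Lv P k) : ∀ a, Commute (r.r a) (P.Z k) :=
  r.prop (P.Z k) (fun n hn => (P.cXZ n k (by omega)).symm) (fun n _ => P.cZZ k n)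

theorem Pauli.e_commute (P : Pauli H) {k : ℕ} {T : H →L[ℂ] H} (h1 : Commute T (P.X k))
    (h2 : Commute T (P.Z k)) (a b : Fin 2) : Commute T (P.e k a b) := by
  unfold Pauli.e
  refine Commute.mul_right ?_ ?_
  · refine Commute.smul_right ?_ _
    exact (Commute.one_right T).add_right (h2.smul_right _)
  · split_ifs
    · exact Commute.one_right T
    · exact h1

theorem exists_lv_succ (P : Pauli H) (k : ℕ) (r : Lv P k) :
    ∃ r' : Lv P (k + 1), ∀ M, r'.r M = ∑ a, ∑ b, r.r (blk a b M) * P.e k a b := by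
  obtain ⟨r', hr'⟩ := exists_succ P k r.r r.hX r.hZ
  refine ⟨⟨r', ?_⟩, hr'⟩
  intro T h1 h2 M
  rw [hr']
  refine Commute.sum_left _ _ _ fun a _ => Commute.sum_left _ _ _ fun b _ => ?_
  refine Commute.mul_left ?_ ?_
  · exact r.prop T (fun n hn => h1 n (by omega)) (fun n hn => h2 n (by omega)) _
  · exact (P.e_commute (h1 k (by omega)) (h2 k (by omega)) a b).symm

/-- all levels -/
noncomputable def m3lv (P : Pauli H) : ∀ k, Lv P k
  | 0 => ⟨m3Zero H, fun T _ _ a => by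
      rw [m3Zero_apply]
      exact Algebra.commutes _ _⟩
  | k + 1 => (exists_lv_succ P k (m3lv P k)).choose

theorem m3lv_succ (P : Pauli H) (k : ℕ) (M : Mt (k + 1)) :
    (m3lv P (k + 1)).r M = ∑ a, ∑ b, (m3lv P k).r (blk a b M) * P.e k a b :=
  (exists_lv_succ P k (m3lv P k)).choose_spec M

theorem m3_inner_zero {Ω : H} {D c W : H →L[ℂ] H} (hD : IsSelfAdjoint D) (hΩ : D Ω = Ω)
    (hc : Commute c D) (hW : D * W = -(W * D)) : ⟪Ω, (c * W) Ω⟫_ℂ = 0 := by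
  have h1 : ⟪Ω, (c * W) Ω⟫_ℂ = -⟪Ω, (c * W) Ω⟫_ℂ := by
    calc ⟪Ω, (c * W) Ω⟫_ℂ = ⟪D Ω, (c * W) Ω⟫_ℂ := by rw [hΩ]
      _ = ⟪Ω, D ((c * W) Ω)⟫_ℂ := by
        rw [← ContinuousLinearMap.adjoint_inner_right, ← ContinuousLinearMap.star_eq_adjoint,
          hD.star_eq]
      _ = ⟪Ω, (D * (c * W)) Ω⟫_ℂ := rfl
      _ = ⟪Ω, (-(c * W) * D) Ω⟫_ℂ := by
        rw [← mul_assoc, ← hc.eq, mul_assoc, hW, mul_neg, ← mul_assoc, neg_mul]
      _ = ⟪Ω, (-(c * W)) (D Ω)⟫_ℂ := rfl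
      _ = -⟪Ω, (c * W) Ω⟫_ℂ := by rw [hΩ]; simp
  have h2 : (2 : ℂ) * ⟪Ω, (c * W) Ω⟫_ℂ = 0 := by
    rw [two_mul]
    nth_rewrite 1 [h1]
    ring
  exact (mul_eq_zero.1 h2).resolve_left two_ne_zero

theorem m3_tr_e (P : Pauli H) (k : ℕ) (r : Lv P k) (c : Mt k) (a b : Fin 2) :
    ⟪P.Ω, (r.r c * P.e k a b) P.Ω⟫_ℂ = if a = b then (1 / 2 : ℂ) * ⟪P.Ω, r.r c P.Ω⟫_ℂ else 0 := by
  have hD : Commute (r.r c) (P.D k) := r.prop (P.D k) (fun n _ => P.cDX k n)
    (fun n hn => P.cDZ k n (by omega)) c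
  have hD' : Commute (r.r c) (P.D' k) := r.prop (P.D' k) (fun n hn => P.cDX' k n (by omega))
    (fun n _ => P.cDZ' k n) c
  have hZ : ⟪P.Ω, (r.r c * P.Z k) P.Ω⟫_ℂ = 0 := m3_inner_zero (P.D_sa k) (P.D_Ω k) hD (P.DZ k)
  have hX : ⟪P.Ω, (r.r c * P.X k) P.Ω⟫_ℂ = 0 := m3_inner_zero (P.D'_sa k) (P.D'_Ω k) hD' (P.DX' k)
  have hZX : ⟪P.Ω, (r.r c * (P.Z k * P.X k)) P.Ω⟫_ℂ = 0 := by
    refine m3_inner_zero (P.D'_sa k) (P.D'_Ω k) hD' ?_
    rw [← mul_assoc, (P.cDZ' k k).eq, mul_assoc, P.DX' k, mul_neg, mul_assoc]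
  unfold Pauli.e
  split_ifs with hab
  all_goals
    simp only [mul_one, mul_smul_comm, smul_mul_assoc, mul_add, add_mul, one_mul,
      ContinuousLinearMap.smul_apply, ContinuousLinearMap.add_apply, inner_smul_right, inner_add_right,
      hZ, hX, hZX, mul_zero, add_zero]

/-- PROOF: recursion on `k` in the subtype `{r : Mt k →⋆ₐ B(H) // ∀ T, (∀ n < k, Commute T (X n)) → (∀ n < k, Commute T (Z n)) →
∀ a, Commute T (r a)}`; `ρ 0 a = a 0 0 • 1`. Compatibility: `blk_dbl`, `e_sum`. Trace, by induction (`ntr_blk`):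
`⟪Ω, r(b) e_00 Ω⟫ = ½ ⟪Ω, r(b) Ω⟫` as `⟪Ω, r(b) Z_k Ω⟫ = ⟪D_k Ω, r(b) Z_k Ω⟫ = ⟪Ω, r(b) D_k Z_k Ω⟫ = -⟪Ω, r(b) Z_k Ω⟫`, and in the same way with `D'_k`
`⟪Ω, r(b) X_k Ω⟫ = ⟪Ω, r(b) Z_k X_k Ω⟫ = 0`. `comm`: elements of `R` commute with all `X n, Z n`. -/
theorem exists_uhf_of_pauli (P : Pauli H) : Nonempty (UHF H) := by
  refine ⟨{ S := { ρ := fun k => (m3lv P k).r, compat := ?_ }
            Ω := P.Ω
            tr := ?_
            R := P.R
            comm := ?_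
            dense := P.dense }⟩
  · intro k a
    rw [m3lv_succ]
    simp only [blk_dbl, Fin.sum_univ_two]
    simp only [if_true, Fin.isValue, zero_ne_one, one_ne_zero, if_false, map_zero, zero_mul,
      add_zero, zero_add]
    rw [← mul_add, P.e_sum, mul_one]
  · intro k
    induction k with
    | zero =>
      intro a
      change ⟪P.Ω, (m3Zero H a) P.Ω⟫_ℂ = ntr a
      rw [m3Zero_apply, Algebra.algebraMap_eq_smul_one, ContinuousLinearMap.smul_apply,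
        ContinuousLinearMap.one_apply, inner_smul_right, inner_self_eq_norm_sq_to_K, P.norm_Ω]
      unfold ntr
      rw [Matrix.trace, m3_sum]
      simp
    | succ k ih =>
      intro M
      change ⟪P.Ω, ((m3lv P (k + 1)).r M) P.Ω⟫_ℂ = ntr M
      rw [m3lv_succ]
      simp only [Fin.sum_univ_two, ContinuousLinearMap.add_apply, inner_add_right, m3_tr_e]
      simp only [if_true, Fin.isValue, zero_ne_one, one_ne_zero, if_false, add_zero, zero_add]
      rw [ntr_blk]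
      have h0 := ih (blk 0 0 M)
      have h1 := ih (blk 1 1 M)
      change ⟪P.Ω, ((m3lv P k).r (blk 0 0 M)) P.Ω⟫_ℂ = _ at h0
      change ⟪P.Ω, ((m3lv P k).r (blk 1 1 M)) P.Ω⟫_ℂ = _ at h1
      rw [h0, h1]
      ring
  · intro r hr c hc
    obtain ⟨k, a, rfl⟩ := hc
    exact ((m3lv P k).prop r (fun n _ => P.RX r hr n) (fun n _ => P.RZ r hr n) a).symm

end Crest.Agent.NM
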