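import Crest.Agent.NM.P4

/-!
# Row 120, P5: Lemma P
-/

set_option autoImplicit false

namespace Crest.Agent.NM

open Filter Topology
open scoped InnerProductSpace

variable {A : Type} [CStarAlgebra A]
variable {H : Type} [NormedAddCommGroup H] [InnerProductSpace ℂ H] [CompleteSpace H]

private theorem P5_sum_hf {k : ℕ} (f : Fin (2 ^ k) → ℝ) :
    ∑ i : Fin (2 ^ (k + 1)), f (hf i) = 2 * ∑ i, f i := by
  let e : Fin (2 ^ k) × Fin 2 ≃ Fin (2 ^ (k + 1)) :=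
    (finProdFinEquiv (m := 2 ^ k) (n := 2)).trans (finCongr (pow_succ 2 k).symm)
  have he : ∀ x : Fin (2 ^ k) × Fin 2, hf (e x) = x.1 := by
    rintro ⟨a, b⟩
    apply Fin.ext
    have : (e (a, b)).1 = b.1 + 2 * a.1 := by
      simp [e, finProdFinEquiv]
    change (e (a, b)).1 / 2 = a.1
    rw [this]
    have := b.2
    omega
  rw [← e.sum_comp (fun i => f (hf i))]
  simp only [he]
  rw [Fintype.sum_prod_type, Finset.mul_sum]
  refine Finset.sum_congr rfl fun i _ => ?_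
  simp

private theorem P5_dbl_sum {k : ℕ} (a : Mt k) :
    ∑ i, ∑ j, ‖dbl a i j‖ ≤ 4 * ∑ i, ∑ j, ‖a i j‖ := by
  have h1 : ∀ i j, ‖dbl a i j‖ ≤ ‖a (hf i) (hf j)‖ := by
    intro i j
    unfold dbl
    split_ifs
    · exact le_rfl
    · simp
  calc ∑ i, ∑ j, ‖dbl a i j‖ ≤ ∑ i : Fin (2 ^ (k + 1)), ∑ j : Fin (2 ^ (k + 1)), ‖a (hf i) (hf j)‖ :=
        Finset.sum_le_sum fun i _ => Finset.sum_le_sum fun j _ => h1 i j
    _ = ∑ i : Fin (2 ^ (k + 1)), 2 * ∑ j, ‖a (hf i) j‖ := by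
        refine Finset.sum_congr rfl fun i _ => ?_
        exact P5_sum_hf (fun j => ‖a (hf i) j‖)
    _ = 2 * ∑ i, (2 * ∑ j, ‖a i j‖) := P5_sum_hf (fun i => 2 * ∑ j, ‖a i j‖)
    _ = 4 * ∑ i, ∑ j, ‖a i j‖ := by
        rw [← Finset.mul_sum]; ring

private theorem P5_lift (S : Sys A) {k n : ℕ} (h : k ≤ n) (a : Mt k) :
    ∃ b : Mt n, S.ρ n b = S.ρ k a ∧ ∑ i, ∑ j, ‖b i j‖ ≤ 4 ^ n * ∑ i, ∑ j, ‖a i j‖ := by
  have h0 : 0 ≤ ∑ i, ∑ j, ‖a i j‖ :=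
    Finset.sum_nonneg fun i _ => Finset.sum_nonneg fun j _ => norm_nonneg _
  induction n, h using Nat.le_induction with
  | base =>
    refine ⟨a, rfl, ?_⟩
    have : (1 : ℝ) ≤ 4 ^ k := one_le_pow₀ (by norm_num)
    nlinarith
  | succ m _ ih =>
    obtain ⟨b, hb, hs⟩ := ih
    refine ⟨dbl b, by rw [S.compat, hb], (P5_dbl_sum b).trans ?_⟩
    calc 4 * ∑ i, ∑ j, ‖b i j‖ ≤ 4 * (4 ^ m * ∑ i, ∑ j, ‖a i j‖) :=
          mul_le_mul_of_nonneg_left hs (by norm_num)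
      _ = 4 ^ (m + 1) * ∑ i, ∑ j, ‖a i j‖ := by ring

omit [CompleteSpace H] in
private theorem P5_unit [Nontrivial H] : ∃ ξ : H, ‖ξ‖ = 1 := by
  obtain ⟨x, hx⟩ := exists_ne (0 : H)
  refine ⟨((‖x‖⁻¹ : ℝ) : ℂ) • x, ?_⟩
  rw [norm_smul, Complex.norm_real, norm_inv, norm_norm, inv_mul_cancel₀ (norm_ne_zero_iff.2 hx)]

/-- LEMMA P. PROOF: recursion (dependent choice) with `step`, `k = n`, `ε_n = 8^{-n-1}`, starting from `g 0 = 1` and any unit vector `ξ 0`: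
`g n * g (n+1) = g (n+1)`, `π (g n) ξ_n = ξ_n`, `‖ξ_{n+1} - ξ_n‖ ≤ 8^{-n-1}`, and for `a : Mt n` there is `r` with
`‖g_{n+1} ρ(a) g_{n+1} - r g_{n+1}‖ ≤ 8^{-n-1} Σ_ij |a_ij|`.
`ξ_n → ζ`, `‖ζ - ξ_0‖ ≤ 1/2`, so `ζ ≠ 0`; `π (g n) ξ_m = ξ_m` for `m ≥ n`, so `π (g n) ζ = ζ`; in particular `g n ≠ 0`.
Asymptotically scalar: let `c = ρ k a`, `l = ⟪ζ, π c ζ⟫/‖ζ‖²`. For `n ≥ k` the lift `dbl^{n-k} a : Mt n` of `a` has entry sum `2^{n-k} Σ|a_ij|`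
(`Σ_ij |(dbl a)_ij| = 2 Σ_ij |a_ij|`), so there is `r_n` with `‖g_{n+1} c g_{n+1} - r_n g_{n+1}‖ ≤ 8^{-n-1} 2^{n-k} Σ|a| =: η_n → 0`. Apply the operator to `ζ`
and take the inner product with `ζ`: `(l - r_n)‖ζ‖² = ⟪ζ, π(g c g - r_n g) ζ⟫`, so `|l - r_n| ≤ η_n` and `‖g_{n+1} c g_{n+1} - l g_{n+1}‖ ≤ 2 η_n`. -/
theorem lemmaP [Nontrivial H] (S : Sys A) (π : A →⋆ₙₐ[ℂ] (H →L[ℂ] H)) (h1 : π 1 = 1)
    (hirr : Irr π (S.C : Set A)) :
    ∃ g : ℕ → A, Good S g ∧ ∃ ζ : H, ζ ≠ 0 ∧ ∀ n, π (g n) ζ = ζ := by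
  classical
  let St : Type := {x : A × H // x.1 ∈ S.C ∧ IsStarProjection x.1 ∧ ‖x.2‖ = 1 ∧ π x.1 x.2 = x.2}
  have hstep : ∀ (n : ℕ) (s : St), ∃ s' : St, s.1.1 * s'.1.1 = s'.1.1 ∧
      ‖s'.1.2 - s.1.2‖ ≤ (1 / 8 : ℝ) ^ (n + 1) ∧
      ∀ a : Mt n, ∃ r : ℂ, ‖s'.1.1 * S.ρ n a * s'.1.1 - r • s'.1.1‖ ≤
        (1 / 8 : ℝ) ^ (n + 1) * ∑ i, ∑ j, ‖a i j‖ := by
    rintro n ⟨⟨p, ξ⟩, hp, hpp, hξ, hpξ⟩
    obtain ⟨p', hp', hpp', hm, ⟨ξ', hξ', hpξ', hd⟩, hs⟩ :=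
      step S π h1 hirr hp hpp hξ hpξ n (ε := (1 / 8 : ℝ) ^ (n + 1)) (by positivity)
    exact ⟨⟨(p', ξ'), hp', hpp', hξ', hpξ'⟩, hm, hd, hs⟩
  choose F hF1 hF2 hF3 using hstep
  obtain ⟨ξ0, hξ0⟩ := P5_unit (H := H)
  let s0 : St := ⟨(1, ξ0), S.C.one_mem, IsStarProjection.one A, hξ0, by
    change π 1 ξ0 = ξ0
    rw [h1]; rfl⟩
  let seq : ℕ → St := fun n => Nat.rec s0 (fun n s => F n s) n
  have hseq : ∀ n, seq (n + 1) = F n (seq n) := fun n => rfl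
  let g : ℕ → A := fun n => (seq n).1.1
  let ξ : ℕ → H := fun n => (seq n).1.2
  have gmem : ∀ n, g n ∈ S.C := fun n => (seq n).2.1
  have gproj : ∀ n, IsStarProjection (g n) := fun n => (seq n).2.2.1
  have gξ : ∀ n, π (g n) (ξ n) = ξ n := fun n => (seq n).2.2.2.2
  have ganti : ∀ n, g n * g (n + 1) = g (n + 1) := fun n => hF1 n (seq n)
  have ξd : ∀ n, ‖ξ (n + 1) - ξ n‖ ≤ (1 / 8 : ℝ) ^ (n + 1) := fun n => hF2 n (seq n)
  have gsc : ∀ n (a : Mt n), ∃ r : ℂ, ‖g (n + 1) * S.ρ n a * g (n + 1) - r • g (n + 1)‖ ≤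
        (1 / 8 : ℝ) ^ (n + 1) * ∑ i, ∑ j, ‖a i j‖ := fun n => hF3 n (seq n)
  have ganti' : ∀ n m, n ≤ m → g n * g m = g m := by
    intro n m h
    induction m, h using Nat.le_induction with
    | base => exact (gproj n).isIdempotentElem
    | succ m _ ih => rw [← ganti m, ← mul_assoc, ih]
  have gξ' : ∀ n m, n ≤ m → π (g n) (ξ m) = ξ m := by
    intro n m h
    have e : π (g n * g m) (ξ m) = π (g m) (ξ m) := by rw [ganti' n m h]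
    rw [map_mul, mul_apply_eq_comp, gξ m] at e
    exact e
  have hdist : ∀ n, dist (ξ n) (ξ (n + 1)) ≤ (1 / 8 : ℝ) * (1 / 8 : ℝ) ^ n := by
    intro n
    rw [dist_comm, dist_eq_norm]
    refine (ξd n).trans (le_of_eq ?_)
    ring
  have hc := cauchySeq_of_le_geometric (1 / 8 : ℝ) (1 / 8 : ℝ) (by norm_num) hdist
  obtain ⟨ζ, hζ⟩ := cauchySeq_tendsto_of_complete hc
  have hd0 := dist_le_of_le_geometric_of_tendsto₀ (1 / 8 : ℝ) (1 / 8 : ℝ) (by norm_num) hdist hζ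
  have hζ0 : ζ ≠ 0 := by
    rintro rfl
    rw [dist_zero_right] at hd0
    have : ‖ξ 0‖ = 1 := hξ0
    rw [this] at hd0
    norm_num at hd0
  have hgζ : ∀ n, π (g n) ζ = ζ := by
    intro n
    have t1 : Tendsto (fun m => π (g n) (ξ m)) atTop (𝓝 (π (g n) ζ)) :=
      ((π (g n)).continuous.tendsto ζ).comp hζ
    have t2 : Tendsto (fun m => π (g n) (ξ m)) atTop (𝓝 ζ) := by
      refine hζ.congr' ?_
      filter_upwards [eventually_ge_atTop n] with m hm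
      exact (gξ' n m hm).symm
    exact tendsto_nhds_unique t1 t2
  refine ⟨g, ⟨gmem, gproj, ganti, rfl, ?_, ?_⟩, ζ, hζ0, hgζ⟩
  · intro n h
    have := hgζ n
    rw [h, map_zero] at this
    exact hζ0 this.symm
  · rintro c ⟨k, a, rfl⟩
    let c := S.ρ k a
    let l : ℂ := ⟪ζ, π c ζ⟫_ℂ / ((‖ζ‖ ^ 2 : ℝ) : ℂ)
    refine ⟨l, ?_⟩
    have hz2 : (0 : ℝ) < ‖ζ‖ ^ 2 := by
      have := norm_pos_iff.2 hζ0
      positivity
    rw [← tendsto_add_atTop_iff_nat 1]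
    set Sa := ∑ i, ∑ j, ‖a i j‖ with hSa
    have key : ∀ n, k ≤ n → ‖g (n + 1) * c * g (n + 1) - l • g (n + 1)‖ ≤
        (1 / 4 * Sa) * (1 / 2 : ℝ) ^ n := by
      intro n hn
      obtain ⟨b, hb, hbs⟩ := P5_lift S hn a
      obtain ⟨r, hr⟩ := gsc n b
      rw [hb] at hr
      have hη : ‖g (n + 1) * c * g (n + 1) - r • g (n + 1)‖ ≤ (1 / 8 * Sa) * (1 / 2 : ℝ) ^ n := by
        refine hr.trans ?_
        calc (1 / 8 : ℝ) ^ (n + 1) * ∑ i, ∑ j, ‖b i j‖ ≤ (1 / 8 : ℝ) ^ (n + 1) * (4 ^ n * Sa) :=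
              mul_le_mul_of_nonneg_left hbs (by positivity)
          _ = (1 / 8 * Sa) * ((1 / 8 : ℝ) * 4) ^ n := by rw [mul_pow]; ring
          _ = (1 / 8 * Sa) * (1 / 2 : ℝ) ^ n := by norm_num
      have hsa : star (g (n + 1)) = g (n + 1) := (gproj (n + 1)).isSelfAdjoint
      have hin : ⟪ζ, π (g (n + 1) * c * g (n + 1) - r • g (n + 1)) ζ⟫_ℂ =
          ⟪ζ, π c ζ⟫_ℂ - r * ((‖ζ‖ ^ 2 : ℝ) : ℂ) := by
        have e1 : π (g (n + 1) * c * g (n + 1) - r • g (n + 1)) ζ =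
            π (g (n + 1)) (π c ζ) - r • ζ := by
          rw [map_sub, map_mul, map_mul, map_smul, ContinuousLinearMap.sub_apply,
            mul_apply_eq_comp, mul_apply_eq_comp,
            ContinuousLinearMap.smul_apply, hgζ (n + 1)]
        have e2 : ⟪ζ, π (g (n + 1)) (π c ζ)⟫_ℂ = ⟪ζ, π c ζ⟫_ℂ := by
          have e3 : π (g (n + 1)) = ContinuousLinearMap.adjoint (π (g (n + 1))) := by
            rw [← ContinuousLinearMap.star_eq_adjoint, ← map_star, hsa]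
          rw [e3, ContinuousLinearMap.adjoint_inner_right, hgζ (n + 1)]
        rw [e1, inner_sub_right, e2, inner_smul_right, inner_self_eq_norm_sq_to_K]
        push_cast
        rfl
      have hlr : ‖r - l‖ ≤ (1 / 8 * Sa) * (1 / 2 : ℝ) ^ n := by
        have e4 : (l - r) * ((‖ζ‖ ^ 2 : ℝ) : ℂ) =
            ⟪ζ, π (g (n + 1) * c * g (n + 1) - r • g (n + 1)) ζ⟫_ℂ := by
          rw [hin, sub_mul]
          congr 1
          simp only [l]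
          rw [div_mul_cancel₀]
          exact_mod_cast hz2.ne'
        have e5 : ‖l - r‖ * ‖ζ‖ ^ 2 ≤ ((1 / 8 * Sa) * (1 / 2 : ℝ) ^ n) * ‖ζ‖ ^ 2 := by
          calc ‖l - r‖ * ‖ζ‖ ^ 2 = ‖(l - r) * ((‖ζ‖ ^ 2 : ℝ) : ℂ)‖ := by
                rw [norm_mul, Complex.norm_real, Real.norm_of_nonneg hz2.le]
            _ ≤ ‖ζ‖ * ‖π (g (n + 1) * c * g (n + 1) - r • g (n + 1)) ζ‖ := by
                rw [e4]; exact norm_inner_le_norm _ _
            _ ≤ ‖ζ‖ * (‖π (g (n + 1) * c * g (n + 1) - r • g (n + 1))‖ * ‖ζ‖) :=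
                mul_le_mul_of_nonneg_left (ContinuousLinearMap.le_opNorm _ _) (norm_nonneg _)
            _ ≤ ‖ζ‖ * (‖g (n + 1) * c * g (n + 1) - r • g (n + 1)‖ * ‖ζ‖) := by
                gcongr
                exact NonUnitalStarAlgHom.norm_apply_le π _
            _ ≤ ‖ζ‖ * (((1 / 8 * Sa) * (1 / 2 : ℝ) ^ n) * ‖ζ‖) := by gcongr
            _ = ((1 / 8 * Sa) * (1 / 2 : ℝ) ^ n) * ‖ζ‖ ^ 2 := by ring
        rw [norm_sub_rev]
        exact le_of_mul_le_mul_right e5 hz2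
      have hg1 : ‖g (n + 1)‖ ≤ 1 := (gproj (n + 1)).norm_le
      calc ‖g (n + 1) * c * g (n + 1) - l • g (n + 1)‖
          = ‖(g (n + 1) * c * g (n + 1) - r • g (n + 1)) + (r - l) • g (n + 1)‖ := by
            congr 1; rw [sub_smul]; abel
        _ ≤ ‖g (n + 1) * c * g (n + 1) - r • g (n + 1)‖ + ‖(r - l) • g (n + 1)‖ := norm_add_le _ _
        _ ≤ (1 / 8 * Sa) * (1 / 2 : ℝ) ^ n + (1 / 8 * Sa) * (1 / 2 : ℝ) ^ n := by
            refine add_le_add hη ?_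
            rw [norm_smul]
            calc ‖r - l‖ * ‖g (n + 1)‖ ≤ ‖r - l‖ * 1 :=
                  mul_le_mul_of_nonneg_left hg1 (norm_nonneg _)
              _ ≤ _ := by rw [mul_one]; exact hlr
        _ = (1 / 4 * Sa) * (1 / 2 : ℝ) ^ n := by ring
    have hlim : Tendsto (fun n : ℕ => (1 / 4 * Sa) * (1 / 2 : ℝ) ^ n) atTop (𝓝 0) := by
      have := (tendsto_pow_atTop_nhds_zero_of_lt_one (r := (1 / 2 : ℝ)) (by norm_num)
        (by norm_num)).const_mul (1 / 4 * Sa)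
      simpa using this
    refine squeeze_zero_norm' ?_ hlim
    filter_upwards [eventually_ge_atTop k] with n hn
    exact key n hn

end Crest.Agent.NM
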