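import Crest.Agent.NM.Defs
import Crest.Prelude.Def_CStarRep

/-!
# Row 120, R3: unitary equivalence from equal vector functionals
-/

set_option autoImplicit false

namespace Crest.Agent.NM

open Filter Topology
open scoped InnerProductSpace

variable {A : Type} [CStarAlgebra A]
variable {H₁ : Type} [NormedAddCommGroup H₁] [InnerProductSpace ℂ H₁] [CompleteSpace H₁]
variable {H₂ : Type} [NormedAddCommGroup H₂] [InnerProductSpace ℂ H₂] [CompleteSpace H₂]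

/-- irreducible representations are unital and the space is nontrivial. PROOF: `V = {v | π 1 v = v}` is closed and invariant
(`π a v = π (1 * a) v`); it is not `⊥`, otherwise `π a v = π 1 (π a v) ∈ V` is `0` for all `a, v`, `π = 0`. -/
theorem unital_of_irr (π : A →⋆ₙₐ[ℂ] (H₁ →L[ℂ] H₁)) (h : Crest.OpAlg.IsIrreducibleRep π) :
    π 1 = 1 ∧ Nontrivial H₁ := by
  obtain ⟨hne, hirr⟩ := h
  set V : Submodule ℂ H₁ := LinearMap.ker (((π 1 - 1 : H₁ →L[ℂ] H₁)) : H₁ →ₗ[ℂ] H₁) with hV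
  have hmem : ∀ v, v ∈ V ↔ π 1 v = v := by
    intro v
    rw [hV, LinearMap.mem_ker]
    simp [sub_eq_zero]
  have hcl : IsClosed (V : Set H₁) := (π 1 - 1 : H₁ →L[ℂ] H₁).isClosed_ker
  have hin : ∀ (a : A) (v : H₁), π a v ∈ V := by
    intro a v
    rw [hmem]
    have e : π 1 * π a = π a := by rw [← map_mul, one_mul]
    exact congrArg (fun T : H₁ →L[ℂ] H₁ => T v) e
  rcases hirr V hcl (fun a v _ => hin a v) with hb | ht
  · exfalso
    apply hne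
    ext a v
    have := hin a v
    rw [hb, Submodule.mem_bot] at this
    simpa using this
  · constructor
    · ext v
      have : v ∈ V := by rw [ht]; trivial
      simpa using (hmem v).1 this
    · by_contra hn
      rw [not_nontrivial_iff_subsingleton] at hn
      apply hne
      ext a v
      exact Subsingleton.elim _ _

/-- the orbit map -/
private noncomputable def R3_orb {H : Type} [NormedAddCommGroup H] [InnerProductSpace ℂ H] [CompleteSpace H]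
    (π : A →⋆ₙₐ[ℂ] (H →L[ℂ] H)) (ξ : H) : A →ₗ[ℂ] H where
  toFun y := π y ξ
  map_add' x y := by simp
  map_smul' c y := by simp

private theorem R3_dense {H : Type} [NormedAddCommGroup H] [InnerProductSpace ℂ H] [CompleteSpace H]
    (π : A →⋆ₙₐ[ℂ] (H →L[ℂ] H)) (i : Crest.OpAlg.IsIrreducibleRep π) (ξ : H) (n : ξ ≠ 0) :
    DenseRange (R3_orb π ξ) := by
  have h1 := (unital_of_irr π i).1
  set V : Submodule ℂ H := (LinearMap.range (R3_orb π ξ)).topologicalClosure with hV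
  have hinv : ∀ a : A, ∀ v ∈ V, π a v ∈ V := by
    intro a v hv
    have hc : Continuous (fun v => π a v) := (π a).continuous
    have hmaps : Set.MapsTo (fun v => π a v) (LinearMap.range (R3_orb π ξ) : Set H)
        (LinearMap.range (R3_orb π ξ) : Set H) := by
      rintro _ ⟨y, rfl⟩
      refine ⟨a * y, ?_⟩
      show π (a * y) ξ = π a (π y ξ)
      rw [map_mul]; rfl
    exact hmaps.closure hc hv
  rcases i.2 V (Submodule.isClosed_topologicalClosure _) hinv with hb | ht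
  · exfalso
    apply n
    have : ξ ∈ V := by
      apply Submodule.le_topologicalClosure
      refine ⟨1, ?_⟩
      show π 1 ξ = ξ
      rw [h1]; rfl
    rw [hb, Submodule.mem_bot] at this
    exact this
  · rw [DenseRange, ← LinearMap.coe_range]
    exact Submodule.dense_iff_topologicalClosure_eq_top.2 ht

/-- GNS uniqueness. PROOF: `V₁ = closure {π₁ y ξ₁}` is a closed invariant subspace containing `ξ₁ = π₁ 1 ξ₁ ≠ 0`, so `= ⊤`, likewise `V₂`.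
`‖π₁ y ξ₁‖² = ⟪ξ₁, π₁ (y* y) ξ₁⟫ = ‖π₂ y ξ₂‖²`, so `π₁ y ξ₁ ↦ π₂ y ξ₂` is a well defined isometry of dense subspaces; extend
(e.g. `LinearIsometry.extend`-style: `LinearMap.extend`/`Dense.extend`/`IsDenseInducing.extend`), surjective because the range is closed
and dense. Intertwines on the dense subspace, hence everywhere. -/
theorem equiv_of_inner (π₁ : A →⋆ₙₐ[ℂ] (H₁ →L[ℂ] H₁)) (π₂ : A →⋆ₙₐ[ℂ] (H₂ →L[ℂ] H₂))
    (i₁ : Crest.OpAlg.IsIrreducibleRep π₁) (i₂ : Crest.OpAlg.IsIrreducibleRep π₂) (ξ₁ : H₁) (ξ₂ : H₂)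
    (n₁ : ξ₁ ≠ 0) (n₂ : ξ₂ ≠ 0) (h : ∀ y : A, ⟪ξ₁, π₁ y ξ₁⟫_ℂ = ⟪ξ₂, π₂ y ξ₂⟫_ℂ) :
    Crest.OpAlg.AreUnitarilyEquivalent π₁ π₂ := by
  have d₁ := R3_dense π₁ i₁ ξ₁ n₁
  have d₂ := R3_dense π₂ i₂ ξ₂ n₂
  have hn : ∀ y : A, ‖R3_orb π₂ ξ₂ y‖ = ‖R3_orb π₁ ξ₁ y‖ := by
    intro y
    have hA : ∀ {H : Type} [NormedAddCommGroup H] [InnerProductSpace ℂ H] [CompleteSpace H]
        (π : A →⋆ₙₐ[ℂ] (H →L[ℂ] H)) (ξ : H), ⟪π y ξ, π y ξ⟫_ℂ = ⟪ξ, π (star y * y) ξ⟫_ℂ := by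
      intro H _ _ _ π ξ
      rw [map_mul, map_star, ContinuousLinearMap.star_eq_adjoint]
      exact (ContinuousLinearMap.adjoint_inner_right (π y) ξ (π y ξ)).symm
    have h1 : ⟪π₁ y ξ₁, π₁ y ξ₁⟫_ℂ = ⟪π₂ y ξ₂, π₂ y ξ₂⟫_ℂ := by
      rw [hA π₁ ξ₁, hA π₂ ξ₂, h]
    rw [inner_self_eq_norm_sq_to_K, inner_self_eq_norm_sq_to_K] at h1
    have h2 : ‖π₁ y ξ₁‖ ^ 2 = ‖π₂ y ξ₂‖ ^ 2 := by exact_mod_cast h1
    have h3 := (sq_eq_sq₀ (norm_nonneg _) (norm_nonneg _)).1 h2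
    exact h3.symm
  set U : H₁ ≃ₗᵢ[ℂ] H₂ :=
    LinearEquiv.extendOfIsometry (LinearEquiv.refl ℂ A) (R3_orb π₁ ξ₁) (R3_orb π₂ ξ₂) d₁ d₂ hn with hU
  have hUo : ∀ y : A, U (π₁ y ξ₁) = π₂ y ξ₂ := fun y =>
    LinearEquiv.extendOfIsometry_eq (LinearEquiv.refl ℂ A) (R3_orb π₁ ξ₁) (R3_orb π₂ ξ₂) d₁ d₂ hn y
  refine ⟨U, fun a v => ?_⟩
  refine isClosed_property (p := fun v => U (π₁ a v) = π₂ a (U v)) d₁
    (isClosed_eq (U.continuous.comp (π₁ a).continuous) ((π₂ a).continuous.comp U.continuous)) ?_ v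
  intro y
  show U (π₁ a (π₁ y ξ₁)) = π₂ a (U (π₁ y ξ₁))
  rw [hUo]
  have e1 : π₁ a (π₁ y ξ₁) = π₁ (a * y) ξ₁ := by rw [map_mul]; rfl
  have e2 : π₂ a (π₂ y ξ₂) = π₂ (a * y) ξ₂ := by rw [map_mul]; rfl
  rw [e1, e2, hUo]

end Crest.Agent.NM
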