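import Crest.Agent.NM.Defs
import Crest.Prelude.Def_CStarRep

/-!
# Row 120, R3a: direct sums
-/

set_option autoImplicit false

namespace Crest.Agent.NM

open Filter Topology
open scoped InnerProductSpace

variable {A : Type} [CStarAlgebra A]
variable {H₁ : Type} [NormedAddCommGroup H₁] [InnerProductSpace ℂ H₁] [CompleteSpace H₁]
variable {H₂ : Type} [NormedAddCommGroup H₂] [InnerProductSpace ℂ H₂] [CompleteSpace H₂]

/-- direct sum of two operators -/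
private noncomputable def R3a_op (S₁ : H₁ →L[ℂ] H₁) (S₂ : H₂ →L[ℂ] H₂) :
    WithLp 2 (H₁ × H₂) →L[ℂ] WithLp 2 (H₁ × H₂) :=
  ((WithLp.prodContinuousLinearEquiv 2 ℂ H₁ H₂).symm : (H₁ × H₂) →L[ℂ] WithLp 2 (H₁ × H₂)) ∘L
    (S₁.prodMap S₂) ∘L
    ((WithLp.prodContinuousLinearEquiv 2 ℂ H₁ H₂) : WithLp 2 (H₁ × H₂) →L[ℂ] (H₁ × H₂))

omit [CompleteSpace H₁] [CompleteSpace H₂] in
private theorem R3a_op_apply (S₁ : H₁ →L[ℂ] H₁) (S₂ : H₂ →L[ℂ] H₂) (x : WithLp 2 (H₁ × H₂)) :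
    R3a_op S₁ S₂ x = WithLp.toLp 2 (S₁ x.fst, S₂ x.snd) := rfl

/-- direct sum of two representations on `WithLp 2 (H₁ × H₂)`. PROOF: `π a = e⁻¹ ∘ (π₁ a × π₂ a) ∘ e` with
`e = WithLp.prodContinuousLinearEquiv`; star: `ContinuousLinearMap.eq_adjoint_iff`, `WithLp.prod_inner_apply`. -/
theorem exists_dsum (π₁ : A →⋆ₙₐ[ℂ] (H₁ →L[ℂ] H₁)) (π₂ : A →⋆ₙₐ[ℂ] (H₂ →L[ℂ] H₂)) :
    ∃ π : A →⋆ₙₐ[ℂ] (WithLp 2 (H₁ × H₂) →L[ℂ] WithLp 2 (H₁ × H₂)),
      ∀ a x, π a x = WithLp.toLp 2 (π₁ a x.fst, π₂ a x.snd) := by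
  refine ⟨{ toFun := fun a => R3a_op (π₁ a) (π₂ a), map_smul' := ?_, map_zero' := ?_,
            map_add' := ?_, map_mul' := ?_, map_star' := ?_ }, fun a x => rfl⟩
  · intro c a
    ext x
    simp only [R3a_op_apply, map_smul, smul_apply]
    rfl
  · ext x
    simp only [R3a_op_apply, map_zero, zero_apply]
    rfl
  · intro a b
    ext x
    simp only [R3a_op_apply, map_add, add_apply]
    rfl
  · intro a b
    ext x
    simp only [R3a_op_apply, map_mul]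
    rfl
  · intro a
    change R3a_op (π₁ (star a)) (π₂ (star a)) = star (R3a_op (π₁ a) (π₂ a))
    rw [ContinuousLinearMap.star_eq_adjoint, ContinuousLinearMap.eq_adjoint_iff]
    intro x y
    simp only [R3a_op_apply, WithLp.prod_inner_apply]
    rw [map_star, map_star, ContinuousLinearMap.star_eq_adjoint,
      ContinuousLinearMap.star_eq_adjoint]
    have h1 := ContinuousLinearMap.adjoint_inner_left (π₁ a) y.fst x.fst
    have h2 := ContinuousLinearMap.adjoint_inner_left (π₂ a) y.snd x.snd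
    exact congrArg₂ (· + ·) h1 h2

end Crest.Agent.NM
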