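import Crest.Agent.NM.R1

/-!
# Row 120, R5: if the base projections tend to zero, the representation restricted to `S.C` is irreducible
-/

set_option autoImplicit false

namespace Crest.Agent.NM

open Filter Topology
open scoped InnerProductSpace

variable {A : Type} [CStarAlgebra A]
variable {H : Type} [NormedAddCommGroup H] [InnerProductSpace ℂ H] [CompleteSpace H]

private theorem R5_mul (π : A →⋆ₙₐ[ℂ] (H →L[ℂ] H)) (a b : A) (v : H) : π (a * b) v = π a (π b v) := by
  rw [map_mul]; rfl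

/-- PROOF: by `fix_or_tendsto` otherwise there is `ζ ≠ 0` fixed by all `g i n`; then `U_i ζ` is fixed by all `q i n` (`inter`), hence by all
`f n` (`q0`: `f_n U_i ζ = f_n q_M U_i ζ = q_M U_i ζ = U_i ζ`), so `π(f n) U_iζ = U_iζ` does not tend to `0` (`U_iζ ≠ 0` by `u1`). -/
theorem g_tendsto (D : ND A) (π : A →⋆ₙₐ[ℂ] (H →L[ℂ] H)) (h1 : π 1 = 1)
    (h0 : ∀ ζ : H, Tendsto (fun n => π (D.S.f n) ζ) atTop (𝓝 0)) (i : D.I) (ζ : H) :
    Tendsto (fun n => π (D.g i n) ζ) atTop (𝓝 0) := by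
  rcases fix_or_tendsto π (D.good i).proj (D.good i).anti with ⟨ζ', hne, hfix⟩ | h
  · exfalso
    have hqη : ∀ N, π (D.q i N) (π (D.U i) ζ') = π (D.U i) ζ' := by
      intro N
      have e : π (D.q i N) (π (D.U i) ζ') = π (D.U i) (π (D.g i N) ζ') := by
        rw [← R5_mul, ← R5_mul, D.inter i N]
      rw [e, hfix]
    have hfη : ∀ n, π (D.S.f n) (π (D.U i) ζ') = π (D.U i) ζ' := by
      intro n
      obtain ⟨N, hN⟩ := D.q0 i n
      calc π (D.S.f n) (π (D.U i) ζ') = π (D.S.f n) (π (D.q i N) (π (D.U i) ζ')) := by rw [hqη]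
        _ = π (D.S.f n * D.q i N) (π (D.U i) ζ') := by rw [R5_mul]
        _ = π (D.U i) ζ' := by rw [hN N le_rfl, hqη]
    have h2 := h0 (π (D.U i) ζ')
    simp_rw [hfη] at h2
    have hη0 : π (D.U i) ζ' = 0 := tendsto_nhds_unique tendsto_const_nhds h2
    apply hne
    have e : π (star (D.U i) * D.U i) ζ' = ζ' := by rw [D.u1, h1]; rfl
    rw [← e, R5_mul, hη0, map_zero]
  · exact h ζ

/-- `q_N = U_i g_N U_i*`. -/
theorem q_tendsto (D : ND A) (π : A →⋆ₙₐ[ℂ] (H →L[ℂ] H)) (h1 : π 1 = 1)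
    (h0 : ∀ ζ : H, Tendsto (fun n => π (D.S.f n) ζ) atTop (𝓝 0)) (i : D.I) (ζ : H) :
    Tendsto (fun n => π (D.q i n) ζ) atTop (𝓝 0) := by
  have e : ∀ N, π (D.q i N) ζ = π (D.U i) (π (D.g i N) (π (star (D.U i)) ζ)) := by
    intro N
    rw [← R5_mul, ← R5_mul, D.inter i N]
    have : D.q i N * D.U i * star (D.U i) = D.q i N := by rw [mul_assoc, D.u2, mul_one]
    rw [this]
  simp_rw [e]
  have h := g_tendsto D π h1 h0 i (π (star (D.U i)) ζ)
  have h2 := ((π (D.U i)).continuous.tendsto 0).comp h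
  rw [map_zero] at h2
  exact h2

/-- PROOF: a closed `S.C`-invariant subspace `V` is invariant under `U_i`: `U_i ζ = lim U_i (1 - g_N) ζ ∈ V` (`um`), and under `U_i*`
(`um'`, `q_tendsto`), hence (closed ⋆-subalgebra of all `a` such that `π a`, `π (star a)` preserve `V`, `gen`) under `A`. -/
theorem irr_C (D : ND A) (π : A →⋆ₙₐ[ℂ] (H →L[ℂ] H)) (h1 : π 1 = 1) (hirr : Irr π Set.univ)
    (h0 : ∀ ζ : H, Tendsto (fun n => π (D.S.f n) ζ) atTop (𝓝 0)) : Irr π (D.S.C : Set A) := by
  intro V hV hinv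
  refine hirr V hV (fun a _ v hv => ?_)
  have hcont : Continuous π := by
    refine AddMonoidHomClass.continuous_of_bound π 1 (fun a => ?_)
    rw [one_mul]; exact norm_map_le π a
  -- the star subalgebra of elements preserving `V`
  set B : StarSubalgebra ℂ A :=
    { carrier := {a | (∀ v ∈ V, π a v ∈ V) ∧ (∀ v ∈ V, π (star a) v ∈ V)}
      mul_mem' := by
        rintro x y ⟨hx, hx'⟩ ⟨hy, hy'⟩
        refine ⟨fun v hv => ?_, fun v hv => ?_⟩
        · rw [R5_mul]; exact hx _ (hy _ hv)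
        · rw [star_mul, R5_mul]; exact hy' _ (hx' _ hv)
      one_mem' := by
        refine ⟨fun v hv => ?_, fun v hv => ?_⟩
        · rw [h1]; exact hv
        · rw [star_one, h1]; exact hv
      add_mem' := by
        rintro x y ⟨hx, hx'⟩ ⟨hy, hy'⟩
        refine ⟨fun v hv => ?_, fun v hv => ?_⟩
        · rw [map_add]; exact V.add_mem (hx _ hv) (hy _ hv)
        · rw [star_add, map_add]; exact V.add_mem (hx' _ hv) (hy' _ hv)
      zero_mem' := by
        refine ⟨fun v hv => ?_, fun v hv => ?_⟩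
        · rw [map_zero]; exact V.zero_mem
        · rw [star_zero, map_zero]; exact V.zero_mem
      algebraMap_mem' := by
        intro r
        have hr : ∀ r : ℂ, ∀ v ∈ V, π (algebraMap ℂ A r) v ∈ V := by
          intro r v hv
          rw [Algebra.algebraMap_eq_smul_one, map_smul, h1]
          exact V.smul_mem r hv
        refine ⟨hr r, fun v hv => ?_⟩
        rw [← algebraMap_star_comm]
        exact hr _ v hv
      star_mem' := by
        rintro x ⟨hx, hx'⟩
        refine ⟨hx', fun v hv => ?_⟩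
        rw [star_star]; exact hx v hv } with hB
  have hBmem : ∀ a, a ∈ B ↔ (∀ v ∈ V, π a v ∈ V) ∧ (∀ v ∈ V, π (star a) v ∈ V) := fun a => Iff.rfl
  have hBcl : IsClosed (B : Set A) := by
    have e : (B : Set A) = (⋂ v : V, {a : A | π a v ∈ (V : Set H)}) ∩
        (⋂ v : V, {a : A | π (star a) v ∈ (V : Set H)}) := by
      ext a
      simp only [SetLike.mem_coe, hBmem, Set.mem_inter_iff, Set.mem_iInter, Set.mem_ofPred_eq,
        Subtype.forall]
    rw [e]
    refine IsClosed.inter (isClosed_iInter fun v => ?_) (isClosed_iInter fun v => ?_)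
    · exact hV.preimage ((ContinuousLinearMap.apply ℂ H (v : H)).continuous.comp hcont)
    · exact hV.preimage ((ContinuousLinearMap.apply ℂ H (v : H)).continuous.comp
        (hcont.comp continuous_star))
  have hC : ∀ c ∈ D.S.C, c ∈ B := fun c hc =>
    (hBmem c).2 ⟨fun v hv => hinv c hc v hv, fun v hv => hinv (star c) (star_mem hc) v hv⟩
  have hlim : ∀ (u : A) (p : ℕ → A), (∀ N, u * (1 - p N) ∈ D.S.C) →
      (∀ ζ : H, Tendsto (fun n => π (p n) ζ) atTop (𝓝 0)) → ∀ v ∈ V, π u v ∈ V := by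
    intro u p hp ht v hv
    have e : ∀ N, π (u * (1 - p N)) v = π u v - π u (π (p N) v) := by
      intro N
      rw [mul_sub, mul_one, map_sub, ← R5_mul]; rfl
    have hl : Tendsto (fun N => π (u * (1 - p N)) v) atTop (𝓝 (π u v)) := by
      simp_rw [e]
      have h2 := ((π u).continuous.tendsto 0).comp (ht v)
      rw [map_zero] at h2
      have h3 := (tendsto_const_nhds (x := π u v) (f := (atTop : Filter ℕ))).sub h2
      rw [sub_zero] at h3
      exact h3
    exact hV.mem_of_tendsto hl (Eventually.of_forall fun N => hinv _ (hp N) v hv)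
  have hU : ∀ i, D.U i ∈ B := by
    intro i
    refine (hBmem _).2 ⟨?_, ?_⟩
    · exact hlim (D.U i) (D.g i) (D.um i) (g_tendsto D π h1 h0 i)
    · exact hlim (star (D.U i)) (D.q i) (D.um' i) (q_tendsto D π h1 h0 i)
  have hsub : StarAlgebra.adjoin ℂ ((D.S.C : Set A) ∪ Set.range D.U) ≤ B := by
    refine StarAlgebra.adjoin_le ?_
    rintro x (hx | ⟨i, rfl⟩)
    · exact hC x hx
    · exact hU i
  have htop : (⊤ : StarSubalgebra ℂ A) ≤ B := by
    rw [← D.gen]
    exact StarSubalgebra.topologicalClosure_minimal hsub hBcl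
  exact ((hBmem a).1 (htop trivial)).1 v hv

end Crest.Agent.NM
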