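import Crest.Agent.NM.R1

/-!
# Row 120, R5b: non-orthogonal sequences
-/

set_option autoImplicit false

namespace Crest.Agent.NM

open Filter Topology
open scoped InnerProductSpace

variable {A : Type} [CStarAlgebra A]
variable {H : Type} [NormedAddCommGroup H] [InnerProductSpace ℂ H] [CompleteSpace H]

private theorem R5b_norm_le {g : A} (hg : IsStarProjection g) : ‖g‖ ≤ 1 := by
  have h1 : ‖g‖ * ‖g‖ = ‖g‖ := by
    rw [← CStarRing.norm_star_mul_self, hg.isSelfAdjoint.star_eq, hg.isIdempotentElem.eq]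
  by_contra h
  push Not at h
  nlinarith

private theorem R5b_anti {g : ℕ → A} (hg : ∀ n, IsStarProjection (g n))
    (ha : ∀ n, g n * g (n + 1) = g (n + 1)) {n m : ℕ} (h : n ≤ m) : g n * g m = g m := by
  induction m, h using Nat.le_induction with
  | base => exact (hg n).isIdempotentElem.eq
  | succ m _ ih => rw [← ha m, ← mul_assoc, ih]

private theorem R5b_anti' {g : ℕ → A} (hg : ∀ n, IsStarProjection (g n))
    (ha : ∀ n, g n * g (n + 1) = g (n + 1)) {n m : ℕ} (h : n ≤ m) : g m * g n = g m := by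
  have := congrArg star (R5b_anti hg ha h)
  simpa [star_mul, (hg n).isSelfAdjoint.star_eq, (hg m).isSelfAdjoint.star_eq] using this

/-- if `g, g'` are not orthogonal and the representation has a vector fixed by `g'` then it has one fixed by `g`. PROOF: `¬ Perp`: there are
`c ∈ S.C`, `ε > 0` with `‖g n c g' n‖ ≥ ε` for infinitely many, hence (decreasing: `g_M c g'_M = g_M (g_n c g'_m) g'_M`) all `n`, and
`‖g n c g' m‖ ≥ ε` for all `n, m`. For fixed `n`, `x = c* g_n c ∈ S.C`, `g'_m x g'_m - l g'_m → 0` and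
`‖g'_m x g'_m‖ = ‖g_n c g'_m‖² ≥ ε²`, `‖g'_m‖ = 1`, so `|l| ≥ ε²`; and `⟪ζ, π x ζ⟫ = l ‖ζ‖²` (`tendsto_of_scal`), i.e.
`‖π(g_n) π(c) ζ‖² = |l| ‖ζ‖² ≥ ε² ‖ζ‖²` for all `n`. So `π(g_n) (π c ζ)` does not tend to `0`; `fix_or_tendsto`. -/
theorem fix_of_not_perp (S : Sys A) {g g' : ℕ → A} (hg : ∀ n, IsStarProjection (g n))
    (hmem : ∀ n, g n ∈ S.C) (ha : ∀ n, g n * g (n + 1) = g (n + 1)) (hg' : Good S g') (h : ¬ Perp S g g')
    (π : A →⋆ₙₐ[ℂ] (H →L[ℂ] H)) {ζ : H} (hζ : ζ ≠ 0) (hfix : ∀ n, π (g' n) ζ = ζ) :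
    ∃ ζ' : H, ζ' ≠ 0 ∧ ∀ n, π (g n) ζ' = ζ' := by
  unfold Perp at h
  push Not at h
  obtain ⟨c, hc, hnt⟩ := h
  -- lower bound
  have hmono : ∀ n m M : ℕ, n ≤ M → m ≤ M → ‖g M * c * g' M‖ ≤ ‖g n * c * g' m‖ := by
    intro n m M hn hm
    have e : g M * c * g' M = g M * (g n * c * g' m) * g' M := by
      calc g M * c * g' M = (g M * g n) * c * (g' m * g' M) := by
            rw [R5b_anti' hg ha hn, R5b_anti hg'.proj hg'.anti hm]
        _ = _ := by simp only [mul_assoc]
    rw [e]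
    calc _ ≤ ‖g M‖ * ‖g n * c * g' m‖ * ‖g' M‖ :=
          (norm_mul_le _ _).trans (mul_le_mul_of_nonneg_right (norm_mul_le _ _) (norm_nonneg _))
      _ ≤ 1 * ‖g n * c * g' m‖ * 1 := by
          have h1 := R5b_norm_le (hg M)
          have h2 := R5b_norm_le (hg'.proj M)
          gcongr
      _ = _ := by ring
  obtain ⟨ε, hε, hlow⟩ : ∃ ε : ℝ, 0 < ε ∧ ∀ M, ε ≤ ‖g M * c * g' M‖ := by
    by_contra hcon
    push Not at hcon
    refine hnt (NormedAddGroup.tendsto_nhds_zero.2 fun ε hε => ?_)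
    obtain ⟨M, hM⟩ := hcon ε hε
    filter_upwards [eventually_ge_atTop M] with n hn
    exact lt_of_le_of_lt (hmono M M n hn hn) hM
  have hlow' : ∀ n m, ε ≤ ‖g n * c * g' m‖ := fun n m =>
    (hlow (max n m)).trans (hmono n m _ (le_max_left _ _) (le_max_right _ _))
  -- lower bound for the vectors
  have key : ∀ n, ε ^ 2 * ‖ζ‖ ^ 2 ≤ ‖π (g n) (π c ζ)‖ ^ 2 := by
    intro n
    have gn := hg n
    have hx : star c * g n * c ∈ S.C := mul_mem (mul_mem (star_mem hc) (hmem n)) hc
    obtain ⟨l, hl⟩ := hg'.scal _ hx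
    have hnorm : ∀ m, ε ^ 2 ≤ ‖g' m * (star c * g n * c) * g' m‖ := by
      intro m
      have e : g' m * (star c * g n * c) * g' m = star (g n * c * g' m) * (g n * c * g' m) := by
        rw [star_mul, star_mul, gn.isSelfAdjoint.star_eq, (hg'.proj m).isSelfAdjoint.star_eq]
        calc g' m * (star c * g n * c) * g' m = g' m * (star c * (g n * g n) * c) * g' m := by
              rw [gn.isIdempotentElem.eq]
          _ = _ := by simp only [mul_assoc]
      rw [e, CStarRing.norm_star_mul_self, ← pow_two]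
      exact pow_le_pow_left₀ hε.le (hlow' n m) 2
    have hl1 : ε ^ 2 ≤ ‖l‖ := by
      have h1 := hl.norm
      rw [norm_zero] at h1
      have h2 : Tendsto (fun m => ‖l‖ + ‖g' m * (star c * g n * c) * g' m - l • g' m‖) atTop
          (𝓝 (‖l‖ + 0)) := h1.const_add _
      rw [add_zero] at h2
      refine ge_of_tendsto' h2 fun m => (hnorm m).trans ?_
      calc ‖g' m * (star c * g n * c) * g' m‖
          = ‖l • g' m + (g' m * (star c * g n * c) * g' m - l • g' m)‖ := by
            rw [add_sub_cancel]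
        _ ≤ ‖l • g' m‖ + ‖g' m * (star c * g n * c) * g' m - l • g' m‖ := norm_add_le _ _
        _ ≤ ‖l‖ + ‖g' m * (star c * g n * c) * g' m - l • g' m‖ := by
            refine add_le_add ?_ le_rfl
            rw [norm_smul]
            exact mul_le_of_le_one_right (norm_nonneg _) (R5b_norm_le (hg'.proj m))
    have ht := tendsto_of_scal hl π hfix
    have hin : ∀ m, ⟪ζ, π (g' m) (π (star c * g n * c) ζ)⟫_ℂ =
        ⟪ζ, π (star c * g n * c) ζ⟫_ℂ := by
      intro m
      have h1 : π (g' m) = star (π (g' m)) := by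
        rw [← map_star, (hg'.proj m).isSelfAdjoint.star_eq]
      rw [h1, ContinuousLinearMap.star_eq_adjoint, ContinuousLinearMap.adjoint_inner_right, hfix m]
    have h3 : ⟪ζ, π (star c * g n * c) ζ⟫_ℂ = l * ((‖ζ‖ : ℂ) ^ 2) := by
      have h4 : Tendsto (fun m => ⟪ζ, π (g' m) (π (star c * g n * c) ζ)⟫_ℂ) atTop
          (𝓝 ⟪ζ, l • ζ⟫_ℂ) := tendsto_const_nhds.inner ht
      simp only [hin] at h4
      have h5 := tendsto_nhds_unique tendsto_const_nhds h4
      rw [h5, inner_smul_right, inner_self_eq_norm_sq_to_K]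
      rfl
    have h6 : ⟪ζ, π (star c * g n * c) ζ⟫_ℂ = ((‖π (g n) (π c ζ)‖ : ℂ) ^ 2) := by
      have e : star c * g n * c = star (g n * c) * (g n * c) := by
        rw [star_mul, gn.isSelfAdjoint.star_eq]
        calc star c * g n * c = star c * (g n * g n) * c := by rw [gn.isIdempotentElem.eq]
          _ = _ := by simp only [mul_assoc]
      rw [e, map_mul, map_star, ContinuousLinearMap.mul_apply,
        ContinuousLinearMap.star_eq_adjoint, ContinuousLinearMap.adjoint_inner_right, map_mul,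
        ContinuousLinearMap.mul_apply, inner_self_eq_norm_sq_to_K]
      rfl
    have h7 : ‖π (g n) (π c ζ)‖ ^ 2 = ‖l‖ * ‖ζ‖ ^ 2 := by
      have h8 := congrArg norm (h6.symm.trans h3)
      simpa using h8
    rw [h7]
    exact mul_le_mul_of_nonneg_right hl1 (by positivity)
  rcases fix_or_tendsto π hg ha with h1 | h1
  · exact h1
  · exfalso
    have h2 := ((h1 (π c ζ)).norm).pow 2
    rw [norm_zero] at h2
    have h3 := ge_of_tendsto' h2 key
    have h4 : 0 < ‖ζ‖ := norm_pos_iff.2 hζ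
    have h5 : 0 < ε ^ 2 * ‖ζ‖ ^ 2 := by positivity
    norm_num at h3
    linarith

end Crest.Agent.NM
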