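import Crest.Agent.NM.R2
import Crest.Agent.NM.R3
import Crest.Agent.NM.R3a
import Crest.Agent.NM.R5
import Crest.Agent.NM.R5b
import Crest.Agent.NM.P5

/-!
# Row 120, R8: all irreducible representations are unitarily equivalent
-/

set_option autoImplicit false

namespace Crest.Agent.NM

open Filter Topology
open scoped InnerProductSpace

variable {A : Type} [CStarAlgebra A]
variable {H : Type} [NormedAddCommGroup H] [InnerProductSpace ℂ H] [CompleteSpace H]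

/-- every irreducible representation contains the base state. PROOF: otherwise `f_n ζ → 0` for all `ζ` (`fix_or_tendsto` with `f_proj`, `f_anti`), so `π|S.C` is
irreducible (`irr_C`) and `lemmaP` gives a good sequence `g'` with a fixed vector. For `i`: `Perp S (g i) g'`, otherwise `fix_of_not_perp` gives a vector
fixed by `g i`, contradicting `g_tendsto`; similarly `Perp S S.f g'`; contradiction to `D.max`. -/
theorem exists_fix (D : ND A) (π : A →⋆ₙₐ[ℂ] (H →L[ℂ] H)) (h : Crest.OpAlg.IsIrreducibleRep π) :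
    ∃ ζ : H, ζ ≠ 0 ∧ ∀ n, π (D.S.f n) ζ = ζ := by
  obtain ⟨h1, hn⟩ := unital_of_irr π h
  rcases fix_or_tendsto π (fun n => D.S.f_proj n) (fun n => D.S.f_anti n) with hf | h0
  · exact hf
  exfalso
  have hirr : Irr π Set.univ := fun V hV hinv =>
    h.2 V hV (fun a v hv => hinv a (Set.mem_univ a) v hv)
  have hC := irr_C D π h1 hirr h0
  obtain ⟨g', hg', ζ, hζ, hfix⟩ := lemmaP D.S π h1 hC
  refine D.max g' hg' ?_ ?_
  · intro i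
    by_contra hp
    obtain ⟨ζ', hζ', hfix'⟩ := fix_of_not_perp D.S (D.good i).proj (D.good i).mem (D.good i).anti
      hg' hp π hζ hfix
    have ht := g_tendsto D π h1 h0 i ζ'
    simp only [hfix'] at ht
    exact hζ' (tendsto_nhds_unique tendsto_const_nhds ht)
  · by_contra hp
    obtain ⟨ζ', hζ', hfix'⟩ := fix_of_not_perp D.S (fun n => D.S.f_proj n) (fun n => D.S.f_mem n)
      (fun n => D.S.f_anti n) hg' hp π hζ hfix
    have ht := h0 ζ'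
    simp only [hfix'] at ht
    exact hζ' (tendsto_nhds_unique tendsto_const_nhds ht)

/-- normalised version of `exists_fix` -/
private theorem R8_unit (D : ND A) (π : A →⋆ₙₐ[ℂ] (H →L[ℂ] H))
    (h : Crest.OpAlg.IsIrreducibleRep π) :
    ∃ ζ : H, ‖ζ‖ = 1 ∧ ∀ n, π (D.S.f n) ζ = ζ := by
  obtain ⟨ζ, hζ, hfix⟩ := exists_fix D π h
  refine ⟨((‖ζ‖⁻¹ : ℝ) : ℂ) • ζ, ?_, fun n => ?_⟩
  · rw [norm_smul, Complex.norm_real, norm_inv, norm_norm, inv_mul_cancel₀ (norm_ne_zero_iff.2 hζ)]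
  · rw [map_smul, hfix]

/-- PROOF: unit vectors `ξ₁, ξ₂` fixed by all `f n` (normalise `exists_fix`); `π = π₁ ⊕ π₂` (`exists_dsum`), `ξ = (ξ₁, ξ₂)`, `ξ' = (ξ₁, -ξ₂)` are orthogonal,
fixed; `uniq`: `0 = ⟪ξ', π y ξ⟫ = ⟪ξ₁, π₁ y ξ₁⟫ - ⟪ξ₂, π₂ y ξ₂⟫`; `equiv_of_inner`. -/
theorem all_equiv (D : ND A) {H₁ H₂ : Type} [NormedAddCommGroup H₁] [InnerProductSpace ℂ H₁] [CompleteSpace H₁]
    [NormedAddCommGroup H₂] [InnerProductSpace ℂ H₂] [CompleteSpace H₂]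
    (π₁ : A →⋆ₙₐ[ℂ] (H₁ →L[ℂ] H₁)) (π₂ : A →⋆ₙₐ[ℂ] (H₂ →L[ℂ] H₂))
    (i₁ : Crest.OpAlg.IsIrreducibleRep π₁) (i₂ : Crest.OpAlg.IsIrreducibleRep π₂) :
    Crest.OpAlg.AreUnitarilyEquivalent π₁ π₂ := by
  obtain ⟨ξ₁, n₁, f₁⟩ := R8_unit D π₁ i₁
  obtain ⟨ξ₂, n₂, f₂⟩ := R8_unit D π₂ i₂
  obtain ⟨u₁, -⟩ := unital_of_irr π₁ i₁
  obtain ⟨u₂, -⟩ := unital_of_irr π₂ i₂
  obtain ⟨π, hπ⟩ := exists_dsum π₁ π₂
  have e1 : π 1 = 1 := by
    apply ContinuousLinearMap.ext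
    intro x
    rw [hπ, u₁, u₂]
    rfl
  have hne₁ : ξ₁ ≠ 0 := by
    intro h; rw [h, norm_zero] at n₁; exact zero_ne_one n₁
  have hne₂ : ξ₂ ≠ 0 := by
    intro h; rw [h, norm_zero] at n₂; exact zero_ne_one n₂
  refine equiv_of_inner π₁ π₂ i₁ i₂ ξ₁ ξ₂ hne₁ hne₂ fun y => ?_
  have hξ : ∀ n, π (D.S.f n) (WithLp.toLp 2 (ξ₁, ξ₂)) = WithLp.toLp 2 (ξ₁, ξ₂) := by
    intro n
    rw [hπ]
    change WithLp.toLp 2 (π₁ (D.S.f n) ξ₁, π₂ (D.S.f n) ξ₂) = _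
    rw [f₁, f₂]
  have hξ' : ∀ n, π (D.S.f n) (WithLp.toLp 2 (ξ₁, -ξ₂)) = WithLp.toLp 2 (ξ₁, -ξ₂) := by
    intro n
    rw [hπ]
    change WithLp.toLp 2 (π₁ (D.S.f n) ξ₁, π₂ (D.S.f n) (-ξ₂)) = _
    rw [f₁, map_neg, f₂]
  have horth : ⟪(WithLp.toLp 2 (ξ₁, ξ₂) : WithLp 2 (H₁ × H₂)), WithLp.toLp 2 (ξ₁, -ξ₂)⟫_ℂ = 0 := by
    rw [WithLp.prod_inner_apply]
    change ⟪ξ₁, ξ₁⟫_ℂ + ⟪ξ₂, -ξ₂⟫_ℂ = 0
    rw [inner_neg_right, inner_self_eq_norm_sq_to_K, inner_self_eq_norm_sq_to_K, n₁, n₂]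
    simp
  have key := uniq D π e1 hξ hξ' horth y
  rw [hπ, WithLp.prod_inner_apply] at key
  change ⟪ξ₁, π₁ y ξ₁⟫_ℂ + ⟪-ξ₂, π₂ y ξ₂⟫_ℂ = 0 at key
  rw [inner_neg_left] at key
  exact (sub_eq_zero.1 (by rw [sub_eq_add_neg]; exact key))

end Crest.Agent.NM
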