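import Crest.Agent.NM.F4b
import Crest.Agent.NM.F4c
import Crest.Agent.NM.F4d
import Crest.Agent.NM.R8
import Crest.Agent.NM.M3

/-!
# Row 120, F4: assembly
-/

set_option autoImplicit false

namespace Crest.Agent.NM

open Filter Topology
open scoped InnerProductSpace

variable {H : Type} [NormedAddCommGroup H] [InnerProductSpace ℂ H] [CompleteSpace H]

theorem main :
    ∃ (A : Type) (_ : CStarAlgebra A),
      ¬ FiniteDimensional ℂ A ∧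
      (∀ I : TwoSidedIdeal A, IsClosed (I : Set A) → I = ⊥ ∨ I = ⊤) ∧
      (∃ τ : A →ₗ[ℂ] ℂ, Crest.OpAlg.IsFaithfulTracialState τ) ∧
      ∀ (H₁ : Type) [NormedAddCommGroup H₁] [InnerProductSpace ℂ H₁] [CompleteSpace H₁]
        (H₂ : Type) [NormedAddCommGroup H₂] [InnerProductSpace ℂ H₂] [CompleteSpace H₂]
        (π₁ : A →⋆ₙₐ[ℂ] (H₁ →L[ℂ] H₁)) (π₂ : A →⋆ₙₐ[ℂ] (H₂ →L[ℂ] H₂)),
        Crest.OpAlg.IsIrreducibleRep π₁ → Crest.OpAlg.IsIrreducibleRep π₂ →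
          Crest.OpAlg.AreUnitarilyEquivalent π₁ π₂ := by
  obtain ⟨P⟩ := exists_pauli
  obtain ⟨u⟩ := exists_uhf_of_pauli P
  obtain ⟨I, g, q, U, h1, h2, h3, h4, h5⟩ := exists_data u
  obtain ⟨D, _⟩ := exists_ND u g q U h1 h2 h3 h4 h5
  obtain ⟨τ, hτ, _⟩ := exists_trace u g q U h1 h5
  have hnt : Nontrivial (AA u U) := ⟨1, 0, fun h => by
    have := hτ.1
    rw [h, map_zero] at this
    exact zero_ne_one this⟩
  refine ⟨AA u U, inferInstance, infdim D.S, simple u g q U h1 h5, ⟨τ, hτ⟩, ?_⟩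
  intro H₁ _ _ _ H₂ _ _ _ π₁ π₂ i₁ i₂
  exact all_equiv D π₁ π₂ i₁ i₂

end Crest.Agent.NM
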