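import Crest.Agent.NM.F1

/-!
# Row 120, F4a: data
-/

set_option autoImplicit false

namespace Crest.Agent.NM

open Filter Topology
open scoped InnerProductSpace

variable {H : Type} [NormedAddCommGroup H] [InnerProductSpace ℂ H] [CompleteSpace H]

/-- the algebra generated by the UHF algebra and the gluing unitaries -/
noncomputable def AA (u : UHF H) {I : Type} (U : I → (H →L[ℂ] H)) : StarSubalgebra ℂ (H →L[ℂ] H) :=
  (StarAlgebra.adjoin ℂ ((u.S.C : Set (H →L[ℂ] H)) ∪ Set.range U)).topologicalClosure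

instance AA_closed (u : UHF H) {I : Type} (U : I → (H →L[ℂ] H)) :
    IsClosed ((AA u U : StarSubalgebra ℂ (H →L[ℂ] H)) : Set (H →L[ℂ] H)) :=
  StarSubalgebra.isClosed_topologicalClosure _

/-- the data of the construction: `I` = maximal family, `U` = gluing unitaries -/
theorem exists_data (u : UHF H) :
    ∃ (I : Type) (g q : I → ℕ → (H →L[ℂ] H)) (U : I → (H →L[ℂ] H)),
      (∀ i, Good u.S (g i)) ∧ (∀ i j, i ≠ j → Perp u.S (g i) (g j)) ∧ (∀ i, Perp u.S u.S.f (g i)) ∧
      (∀ g', Good u.S g' → (∀ i, Perp u.S (g i) g') → ¬ Perp u.S u.S.f g') ∧ (∀ i, Glue u (g i) (q i) (U i)) := by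
  obtain ⟨I, h1, h2, h3, h4⟩ := exists_max u.S
  choose q U hG using fun i : I => exists_glue u (h1 i.1 i.2)
  exact ⟨I, fun i => i.1, q, U, fun i => h1 i.1 i.2, fun i j hij => h2 i.1 i.2 j.1 j.2 (fun e => hij (Subtype.ext e)),
    fun i => h3 i.1 i.2, fun g' hg' hp => h4 g' hg' (fun g hg => hp ⟨g, hg⟩), hG⟩

end Crest.Agent.NM
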