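import Crest.Agent.NM.F4a
import Crest.Agent.NM.F3
import Crest.Agent.NM.F3b

/-!
# Row 120, F4b: ND
-/

set_option autoImplicit false

namespace Crest.Agent.NM

open Filter Topology
open scoped InnerProductSpace

variable {H : Type} [NormedAddCommGroup H] [InnerProductSpace ℂ H] [CompleteSpace H]

/-- `ND` for `AA u U` (use `exists_sub`, `sub_*`, `gen_top`) -/
theorem exists_ND (u : UHF H) {I : Type} (g q : I → ℕ → (H →L[ℂ] H)) (U : I → (H →L[ℂ] H))
    (h1 : ∀ i, Good u.S (g i)) (h2 : ∀ i j, i ≠ j → Perp u.S (g i) (g j)) (h3 : ∀ i, Perp u.S u.S.f (g i))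
    (h4 : ∀ g', Good u.S g' → (∀ i, Perp u.S (g i) g') → ¬ Perp u.S u.S.f g')
    (h5 : ∀ i, Glue u (g i) (q i) (U i)) :
    ∃ D : ND (AA u U), ∀ k a, ((D.S.ρ k a : AA u U) : H →L[ℂ] H) = u.S.ρ k a := by
  have hCA : u.S.C ≤ AA u U := fun x hx =>
    StarSubalgebra.le_topologicalClosure _ (StarAlgebra.subset_adjoin ℂ _ (Or.inl hx))
  have hUA : ∀ i, U i ∈ AA u U := fun i =>
    StarSubalgebra.le_topologicalClosure _ (StarAlgebra.subset_adjoin ℂ _ (Or.inr ⟨i, rfl⟩))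
  obtain ⟨S', hS'⟩ := exists_sub u.S (AA u U) hCA
  let g' : I → ℕ → AA u U := fun i n => ⟨g i n, hCA ((h1 i).mem n)⟩
  let q' : I → ℕ → AA u U := fun i n => ⟨q i n, hCA ((h5 i).qmem n)⟩
  let U' : I → AA u U := fun i => ⟨U i, hUA i⟩
  have hf : ∀ n, ((S'.f n : AA u U) : H →L[ℂ] H) = u.S.f n := sub_f u.S (AA u U) S' hS'
  refine ⟨{ S := S', I := I, g := g', q := q', U := U', good := ?_, perp := ?_, perp0 := ?_, max := ?_, qmem := ?_,
            qproj := ?_, q0 := ?_, q1 := ?_, u1 := ?_, u2 := ?_, um := ?_, um' := ?_, inter := ?_, gen := ?_ }, hS'⟩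
  · intro i
    exact (sub_good u.S (AA u U) S' hS' (g' i)).2 (h1 i)
  · intro i j hij
    exact (sub_perp u.S (AA u U) S' hS' (g' i) (g' j)).2 (h2 i j hij)
  · intro i
    rw [sub_perp u.S (AA u U) S' hS', funext hf]
    exact h3 i
  · intro g'' hg'' hp hp0
    rw [sub_good u.S (AA u U) S' hS'] at hg''
    rw [sub_perp u.S (AA u U) S' hS', funext hf] at hp0
    refine h4 _ hg'' (fun i => ?_) hp0
    have := hp i
    rw [sub_perp u.S (AA u U) S' hS'] at this
    exact this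
  · intro i n
    exact (sub_mem_iff u.S (AA u U) S' hS' _).2 ((h5 i).qmem n)
  · intro i n
    exact ⟨Subtype.ext ((h5 i).qproj n).isIdempotentElem, Subtype.ext ((h5 i).qproj n).isSelfAdjoint⟩
  · intro i n
    obtain ⟨N, hN⟩ := (h5 i).q0 n
    refine ⟨N, fun M hM => Subtype.ext ?_⟩
    show (S'.f n : H →L[ℂ] H) * q i M = q i M
    rw [hf]
    exact hN M hM
  · intro i N
    obtain ⟨n, hn⟩ := (h5 i).q1 N
    refine ⟨n, Subtype.ext ?_⟩
    show q i N * (S'.f n : H →L[ℂ] H) = (S'.f n : H →L[ℂ] H)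
    rw [hf]
    exact hn
  · intro i
    exact Subtype.ext (h5 i).u1
  · intro i
    exact Subtype.ext (h5 i).u2
  · intro i N
    exact (sub_mem_iff u.S (AA u U) S' hS' _).2 ((h5 i).um N)
  · intro i N
    exact (sub_mem_iff u.S (AA u U) S' hS' _).2 ((h5 i).um' N)
  · intro i N
    exact Subtype.ext ((h5 i).inter N)
  · have hg : (StarAlgebra.adjoin ℂ {x : AA u U | (x : H →L[ℂ] H) ∈ (u.S.C : Set (H →L[ℂ] H)) ∪ Set.range U}).topologicalClosure
        = ⊤ := gen_top ((u.S.C : Set (H →L[ℂ] H)) ∪ Set.range U)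
    refine eq_top_iff.2 (hg.symm.le.trans (StarSubalgebra.topologicalClosure_mono (StarAlgebra.adjoin_mono ?_)))
    rintro x (hx | ⟨i, hi⟩)
    · exact Or.inl ((sub_mem_iff u.S (AA u U) S' hS' x).2 hx)
    · exact Or.inr ⟨i, Subtype.ext hi⟩

end Crest.Agent.NM
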