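import Crest.Agent.NM.Defs

/-!
# Row 120, M1: weighted permutation operators on `ℓ²(ι)`
-/

set_option autoImplicit false

namespace Crest.Agent.NM

open Filter Topology
open scoped InnerProductSpace ENNReal

/-- `ℓ²(ι)` -/
noncomputable abbrev L2 (ι : Type) := lp (fun _ : ι => ℂ) 2

/-- weighted permutation operator `(T f)(i) = ε i * f (σ i)`, `|ε| = 1`. -/
theorem exists_op {ι : Type} (σ : Equiv.Perm ι) (ε : ι → ℂ) (hε : ∀ i, ‖ε i‖ = 1) :
    ∃ T : L2 ι →L[ℂ] L2 ι, ∀ (f : L2 ι) (i : ι), (T f : ι → ℂ) i = ε i * f (σ i) := by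
  have h2 : (0 : ℝ) < (2 : ℝ≥0∞).toReal := by norm_num
  have hn : ∀ (f : L2 ι) (i : ι), ‖ε i * f (σ i)‖ = ‖f (σ i)‖ := by
    intro f i; rw [norm_mul, hε, one_mul]
  have hmem : ∀ f : L2 ι, Memℓp (fun i => ε i * f (σ i)) 2 := by
    intro f
    apply memℓp_gen
    have hs : Summable fun i => ‖f i‖ ^ (2 : ℝ≥0∞).toReal := (lp.memℓp f).summable h2
    have hs2 := (Equiv.summable_iff σ).mpr hs
    refine hs2.congr fun i => ?_
    rw [hn]; rfl
  let L : L2 ι →ₗ[ℂ] L2 ι :=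
    { toFun := fun f => ⟨fun i => ε i * f (σ i), hmem f⟩
      map_add' := by
        intro f g
        apply Subtype.ext
        funext i
        show ε i * (f + g : L2 ι) (σ i) = ε i * f (σ i) + ε i * g (σ i)
        rw [lp.coeFn_add, Pi.add_apply, mul_add]
      map_smul' := by
        intro c f
        apply Subtype.ext
        funext i
        show ε i * (c • f : L2 ι) (σ i) = c • (ε i * f (σ i))
        rw [lp.coeFn_smul, Pi.smul_apply, smul_eq_mul, smul_eq_mul]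
        ring }
  refine ⟨L.mkContinuous 1 ?_, fun f i => rfl⟩
  intro f
  rw [one_mul]
  have h1 := lp.norm_rpow_eq_tsum h2 f
  have h3 := lp.norm_rpow_eq_tsum h2 (L f)
  have h4 : ∑' i, ‖(L f : ι → ℂ) i‖ ^ (2 : ℝ≥0∞).toReal = ∑' i, ‖(f : ι → ℂ) i‖ ^ (2 : ℝ≥0∞).toReal := by
    rw [← Equiv.tsum_eq σ (fun i => ‖(f : ι → ℂ) i‖ ^ (2 : ℝ≥0∞).toReal)]
    refine tsum_congr fun i => ?_
    show ‖ε i * f (σ i)‖ ^ (2 : ℝ≥0∞).toReal = _
    rw [hn]
  rw [h4, ← h1] at h3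
  have h5 : (2 : ℝ≥0∞).toReal = 2 := by norm_num
  rw [h5, Real.rpow_two, Real.rpow_two] at h3
  nlinarith [norm_nonneg f, norm_nonneg (L f), sq_nonneg (‖L f‖ - ‖f‖)]

/-- if `σ` is an involution and `ε i` real with `ε (σ i) = ε i` then `T` is self-adjoint -/
theorem op_sa {ι : Type} (σ : Equiv.Perm ι) (ε : ι → ℂ) (hσ : ∀ i, σ (σ i) = i) (hr : ∀ i, star (ε i) = ε i)
    (hs : ∀ i, ε (σ i) = ε i) (T : L2 ι →L[ℂ] L2 ι) (hT : ∀ (f : L2 ι) (i : ι), (T f : ι → ℂ) i = ε i * f (σ i)) :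
    IsSelfAdjoint T := by
  rw [ContinuousLinearMap.isSelfAdjoint_iff_isSymmetric]
  intro f g
  show ⟪T f, g⟫_ℂ = ⟪f, T g⟫_ℂ
  rw [lp.inner_eq_tsum, lp.inner_eq_tsum, ← Equiv.tsum_eq σ]
  refine tsum_congr fun i => ?_
  rw [hT, hT, hσ, hs]
  simp only [RCLike.inner_apply, map_mul]
  have h := hr i
  rw [← starRingEnd_apply] at h
  rw [h]; ring

/-- operators are equal if they agree pointwise -/
theorem op_ext {ι : Type} (T T' : L2 ι →L[ℂ] L2 ι) (h : ∀ (f : L2 ι) (i : ι), (T f : ι → ℂ) i = (T' f : ι → ℂ) i) :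
    T = T' := by
  apply ContinuousLinearMap.ext
  intro f
  apply Subtype.ext
  funext i
  exact h f i

end Crest.Agent.NM
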