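import Crest.Agent.NM.M1

/-!
# Row 120, M2: the Pauli system
-/

set_option autoImplicit false

namespace Crest.Agent.NM

open Filter Topology
open scoped InnerProductSpace

/-- Pauli operators `X n, Z n`, auxiliary symmetries `D n, D' n` (fixing `Ω`), and right operators `R` -/
structure Pauli (H : Type) [NormedAddCommGroup H] [InnerProductSpace ℂ H] [CompleteSpace H] where
  X : ℕ → (H →L[ℂ] H)
  Z : ℕ → (H →L[ℂ] H)
  D : ℕ → (H →L[ℂ] H)
  D' : ℕ → (H →L[ℂ] H)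
  X_sa : ∀ n, IsSelfAdjoint (X n)
  Z_sa : ∀ n, IsSelfAdjoint (Z n)
  D_sa : ∀ n, IsSelfAdjoint (D n)
  D'_sa : ∀ n, IsSelfAdjoint (D' n)
  XX : ∀ n, X n * X n = 1
  ZZ : ∀ n, Z n * Z n = 1
  XZ : ∀ n, X n * Z n = -(Z n * X n)
  cXX : ∀ n m, Commute (X n) (X m)
  cZZ : ∀ n m, Commute (Z n) (Z m)
  cXZ : ∀ n m, n ≠ m → Commute (X n) (Z m)
  DZ : ∀ n, D n * Z n = -(Z n * D n)
  cDX : ∀ n m, Commute (D n) (X m)
  cDZ : ∀ n m, n ≠ m → Commute (D n) (Z m)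
  DX' : ∀ n, D' n * X n = -(X n * D' n)
  cDZ' : ∀ n m, Commute (D' n) (Z m)
  cDX' : ∀ n m, n ≠ m → Commute (D' n) (X m)
  Ω : H
  norm_Ω : ‖Ω‖ = 1
  D_Ω : ∀ n, D n Ω = Ω
  D'_Ω : ∀ n, D' n Ω = Ω
  R : Set (H →L[ℂ] H)
  RX : ∀ r ∈ R, ∀ n, Commute r (X n)
  RZ : ∀ r ∈ R, ∀ n, Commute r (Z n)
  dense : (Submodule.span ℂ {ζ : H | ∃ r ∈ R, r Ω = ζ}).topologicalClosure = ⊤

open scoped symmDiff

/-- index set of the model -/
abbrev PI : Type := Finset ℕ × Finset ℕ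

/-- shift by `A` -/
def shE (A : Finset ℕ) : Equiv.Perm (Finset ℕ) :=
  Function.Involutive.toPerm (fun S => S ∆ A) (fun S => symmDiff_symmDiff_cancel_right A S)

/-- shift by `(A,B)` with weight `ε` -/
noncomputable def PO (A B : Finset ℕ) (ε : PI → ℂ) (hε : ∀ i, ‖ε i‖ = 1) : L2 PI →L[ℂ] L2 PI :=
  (exists_op ((shE A).prodCongr (shE B)) ε hε).choose

theorem PO_apply (A B : Finset ℕ) (ε : PI → ℂ) (hε : ∀ i, ‖ε i‖ = 1) (f : L2 PI) (S T : Finset ℕ) :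
    (PO A B ε hε f : PI → ℂ) (S, T) = ε (S, T) * f (S ∆ A, T ∆ B) :=
  (exists_op ((shE A).prodCongr (shE B)) ε hε).choose_spec f (S, T)

theorem PO_sa (A B : Finset ℕ) (ε : PI → ℂ) (hε : ∀ i, ‖ε i‖ = 1) (hr : ∀ i, star (ε i) = ε i)
    (hs : ∀ S T, ε (S ∆ A, T ∆ B) = ε (S, T)) : IsSelfAdjoint (PO A B ε hε) := by
  refine op_sa ((shE A).prodCongr (shE B)) ε ?_ hr ?_ _ (exists_op ((shE A).prodCongr (shE B)) ε hε).choose_spec
  · rintro ⟨S, T⟩
    show ((S ∆ A) ∆ A, (T ∆ B) ∆ B) = (S, T)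
    rw [symmDiff_symmDiff_cancel_right, symmDiff_symmDiff_cancel_right]
  · rintro ⟨S, T⟩
    exact hs S T

theorem PO_comm (A B : Finset ℕ) (ε : PI → ℂ) (hε : ∀ i, ‖ε i‖ = 1) (A' B' : Finset ℕ) (ε' : PI → ℂ)
    (hε' : ∀ i, ‖ε' i‖ = 1) (h : ∀ S T, ε (S, T) * ε' (S ∆ A, T ∆ B) = ε' (S, T) * ε (S ∆ A', T ∆ B')) :
    Commute (PO A B ε hε) (PO A' B' ε' hε') := by
  apply op_ext
  rintro f ⟨S, T⟩
  rw [mul_apply_eq_comp, mul_apply_eq_comp, PO_apply, PO_apply, PO_apply, PO_apply, ← mul_assoc, ← mul_assoc,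
    h S T, symmDiff_right_comm (a := S), symmDiff_right_comm (a := T)]

theorem PO_anti (A B : Finset ℕ) (ε : PI → ℂ) (hε : ∀ i, ‖ε i‖ = 1) (A' B' : Finset ℕ) (ε' : PI → ℂ)
    (hε' : ∀ i, ‖ε' i‖ = 1) (h : ∀ S T, ε (S, T) * ε' (S ∆ A, T ∆ B) = -(ε' (S, T) * ε (S ∆ A', T ∆ B'))) :
    PO A B ε hε * PO A' B' ε' hε' = -(PO A' B' ε' hε' * PO A B ε hε) := by
  apply op_ext
  rintro f ⟨S, T⟩
  rw [neg_apply, lp.coeFn_neg, Pi.neg_apply, mul_apply_eq_comp, mul_apply_eq_comp, PO_apply, PO_apply, PO_apply,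
    PO_apply, ← mul_assoc, ← mul_assoc,
    h S T, symmDiff_right_comm (a := S), symmDiff_right_comm (a := T)]
  ring

theorem PO_sq (A B : Finset ℕ) (ε : PI → ℂ) (hε : ∀ i, ‖ε i‖ = 1)
    (h : ∀ S T, ε (S, T) * ε (S ∆ A, T ∆ B) = 1) :
    PO A B ε hε * PO A B ε hε = 1 := by
  apply op_ext
  rintro f ⟨S, T⟩
  rw [mul_apply_eq_comp, PO_apply, PO_apply, ← mul_assoc, h S T, symmDiff_symmDiff_cancel_right,
    symmDiff_symmDiff_cancel_right, one_mul, one_apply_eq_self]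

/-- sign of a proposition -/
noncomputable def sgp (P : Prop) : ℂ := by classical exact if P then -1 else 1

theorem sgp_pos {P : Prop} (h : P) : sgp P = -1 := by unfold sgp; rw [if_pos h]
theorem sgp_neg {P : Prop} (h : ¬ P) : sgp P = 1 := by unfold sgp; rw [if_neg h]

theorem sgp_norm (P : Prop) : ‖sgp P‖ = 1 := by
  by_cases h : P
  · rw [sgp_pos h]; simp
  · rw [sgp_neg h]; simp

theorem sgp_star (P : Prop) : star (sgp P) = sgp P := by
  by_cases h : P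
  · rw [sgp_pos h]; simp
  · rw [sgp_neg h]; simp

theorem sgp_sq (P : Prop) : sgp P * sgp P = 1 := by
  by_cases h : P
  · rw [sgp_pos h]; simp
  · rw [sgp_neg h]; simp

theorem sgp_not (P : Prop) : sgp (¬ P) = - sgp P := by
  by_cases h : P
  · rw [sgp_pos h, sgp_neg (not_not.mpr h)]; simp
  · rw [sgp_neg h, sgp_pos h]

theorem mem_sd_self (S : Finset ℕ) (n : ℕ) : (n ∈ S ∆ {n}) = ¬ (n ∈ S) := by
  rw [Finset.mem_symmDiff]; simp

theorem mem_sd_ne (S : Finset ℕ) (n m : ℕ) (h : n ≠ m) : (n ∈ S ∆ {m}) = (n ∈ S) := by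
  rw [Finset.mem_symmDiff]; simp [h]

theorem sgp_sd (S A : Finset ℕ) (n : ℕ) : sgp (n ∈ S ∆ A) = sgp (n ∈ S) * sgp (n ∈ A) := by
  have h : (n ∈ S ∆ A) ↔ ¬ ((n ∈ S) ↔ (n ∈ A)) := by
    rw [Finset.mem_symmDiff]; tauto
  by_cases h1 : n ∈ S <;> by_cases h2 : n ∈ A
  · rw [sgp_neg (by rw [h]; tauto), sgp_pos h1, sgp_pos h2]; ring
  · rw [sgp_pos (by rw [h]; tauto), sgp_pos h1, sgp_neg h2]; ring
  · rw [sgp_pos (by rw [h]; tauto), sgp_neg h1, sgp_pos h2]; ring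
  · rw [sgp_neg (by rw [h]; tauto), sgp_neg h1, sgp_neg h2]; ring

theorem pow_sd (T A : Finset ℕ) (n : ℕ) :
    ((-1 : ℂ)) ^ ((T ∆ {n}) ∩ A).card = (-1) ^ (T ∩ A).card * sgp (n ∈ A) := by
  by_cases hA : n ∈ A
  · rw [sgp_pos hA]
    by_cases hT : n ∈ T
    · have h1 : T ∩ A = insert n ((T ∆ {n}) ∩ A) := by
        ext x
        simp only [Finset.mem_inter, Finset.mem_insert, Finset.mem_symmDiff, Finset.mem_singleton]
        by_cases hx : x = n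
        · subst hx; tauto
        · tauto
      have h2 : n ∉ (T ∆ {n}) ∩ A := by
        simp only [Finset.mem_inter, Finset.mem_symmDiff, Finset.mem_singleton]; tauto
      rw [h1, Finset.card_insert_of_notMem h2, pow_succ]
      ring
    · have h1 : (T ∆ {n}) ∩ A = insert n (T ∩ A) := by
        ext x
        simp only [Finset.mem_inter, Finset.mem_insert, Finset.mem_symmDiff, Finset.mem_singleton]
        by_cases hx : x = n
        · subst hx; tauto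
        · tauto
      have h2 : n ∉ T ∩ A := by
        simp only [Finset.mem_inter]; tauto
      rw [h1, Finset.card_insert_of_notMem h2, pow_succ]
  · rw [sgp_neg hA, mul_one]
    congr 2
    ext x
    simp only [Finset.mem_inter, Finset.mem_symmDiff, Finset.mem_singleton]
    by_cases hx : x = n
    · subst hx; tauto
    · tauto

/-- The model on `ℓ²(ι)`, `ι = Finset ℕ × Finset ℕ`:
`(X_n f)(S,T) = f (S Δ {n}, T)`, `(Z_n f)(S,T) = (-1)^{[n∈S]} f (S, T Δ {n})`, `(D_n f)(S,T) = (-1)^{[n∈T]} f (S,T)`,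
`(D'_n f)(S,T) = (-1)^{[n∈S]} f (S,T)`, `Ω = δ_(∅,∅)` (`lp.single`), and for `h = (S₀,T₀)`:
`(R_h f)(S,T) = (-1)^{|T ∩ S₀|} f (S Δ S₀, T Δ T₀)` (`R_h Ω = ± δ_h`; the span of the `δ_h` is dense: `lp.hasSum_single`).
Note `Z_n` is of the form `exists_op` with `ε(S,T) = (-1)^{[n∈S]}`, invariant under the permutation `(S,T) ↦ (S, T Δ {n})`.
Relations by `op_ext` and case distinctions. `R_h` commutes with `Z_n`:
`(-1)^{|T∩S₀| + [n ∈ S Δ S₀]} = (-1)^{[n∈S] + |(T Δ {n}) ∩ S₀|}`. -/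
theorem exists_pauli : Nonempty (Pauli (L2 (Finset ℕ × Finset ℕ))) := by
  have hRn : ∀ (h : PI) (i : PI), ‖((-1 : ℂ)) ^ (i.2 ∩ h.1).card‖ = 1 := by
    intro h i; rw [norm_pow]; simp
  refine ⟨{
    X := fun n => PO {n} ∅ (fun _ => 1) (fun _ => by simp)
    Z := fun n => PO ∅ {n} (fun p => sgp (n ∈ p.1)) (fun _ => sgp_norm _)
    D := fun n => PO ∅ ∅ (fun p => sgp (n ∈ p.2)) (fun _ => sgp_norm _)
    D' := fun n => PO ∅ ∅ (fun p => sgp (n ∈ p.1)) (fun _ => sgp_norm _)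
    X_sa := fun n => PO_sa _ _ _ _ (fun _ => by simp) (fun _ _ => rfl)
    Z_sa := fun n => PO_sa _ _ _ _ (fun _ => sgp_star _) (fun S T => by
      show sgp (n ∈ S ∆ ∅) = sgp (n ∈ S)
      rw [← Finset.bot_eq_empty, symmDiff_bot])
    D_sa := fun n => PO_sa _ _ _ _ (fun _ => sgp_star _) (fun S T => by
      show sgp (n ∈ T ∆ ∅) = sgp (n ∈ T)
      rw [← Finset.bot_eq_empty, symmDiff_bot])
    D'_sa := fun n => PO_sa _ _ _ _ (fun _ => sgp_star _) (fun S T => by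
      show sgp (n ∈ S ∆ ∅) = sgp (n ∈ S)
      rw [← Finset.bot_eq_empty, symmDiff_bot])
    XX := fun n => PO_sq _ _ _ _ (fun S T => by simp)
    ZZ := fun n => PO_sq _ _ _ _ (fun S T => by
      show sgp (n ∈ S) * sgp (n ∈ S ∆ ∅) = 1
      rw [← Finset.bot_eq_empty, symmDiff_bot, sgp_sq])
    XZ := fun n => PO_anti _ _ _ _ _ _ _ _ (fun S T => by
      show 1 * sgp (n ∈ S ∆ {n}) = -(sgp (n ∈ S) * 1)
      rw [mem_sd_self, sgp_not]; ring)
    cXX := fun n m => PO_comm _ _ _ _ _ _ _ _ (fun S T => by simp)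
    cZZ := fun n m => PO_comm _ _ _ _ _ _ _ _ (fun S T => by
      show sgp (n ∈ S) * sgp (m ∈ S ∆ ∅) = sgp (m ∈ S) * sgp (n ∈ S ∆ ∅)
      rw [← Finset.bot_eq_empty, symmDiff_bot, mul_comm])
    cXZ := fun n m hnm => PO_comm _ _ _ _ _ _ _ _ (fun S T => by
      show 1 * sgp (m ∈ S ∆ {n}) = sgp (m ∈ S) * 1
      rw [mem_sd_ne S m n (Ne.symm hnm)]; ring)
    DZ := fun n => PO_anti _ _ _ _ _ _ _ _ (fun S T => by
      show sgp (n ∈ T) * sgp (n ∈ S ∆ ∅) = -(sgp (n ∈ S) * sgp (n ∈ T ∆ {n}))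
      rw [← Finset.bot_eq_empty, symmDiff_bot, mem_sd_self, sgp_not]; ring)
    cDX := fun n m => PO_comm _ _ _ _ _ _ _ _ (fun S T => by
      show sgp (n ∈ T) * 1 = 1 * sgp (n ∈ T ∆ ∅)
      rw [← Finset.bot_eq_empty, symmDiff_bot]; ring)
    cDZ := fun n m hnm => PO_comm _ _ _ _ _ _ _ _ (fun S T => by
      show sgp (n ∈ T) * sgp (m ∈ S ∆ ∅) = sgp (m ∈ S) * sgp (n ∈ T ∆ {m})
      rw [← Finset.bot_eq_empty, symmDiff_bot, mem_sd_ne T n m hnm]; ring)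
    DX' := fun n => PO_anti _ _ _ _ _ _ _ _ (fun S T => by
      show sgp (n ∈ S) * 1 = -(1 * sgp (n ∈ S ∆ {n}))
      rw [mem_sd_self, sgp_not]; ring)
    cDZ' := fun n m => PO_comm _ _ _ _ _ _ _ _ (fun S T => by
      show sgp (n ∈ S) * sgp (m ∈ S ∆ ∅) = sgp (m ∈ S) * sgp (n ∈ S ∆ ∅)
      rw [← Finset.bot_eq_empty, symmDiff_bot, mul_comm])
    cDX' := fun n m hnm => PO_comm _ _ _ _ _ _ _ _ (fun S T => by
      show sgp (n ∈ S) * 1 = 1 * sgp (n ∈ S ∆ {m})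
      rw [mem_sd_ne S n m hnm]; ring)
    Ω := lp.single 2 ((∅, ∅) : PI) (1 : ℂ)
    norm_Ω := by rw [lp.norm_single (by norm_num)]; simp
    D_Ω := ?_
    D'_Ω := ?_
    R := {r | ∃ h : PI, r = PO h.1 h.2 (fun i => (-1 : ℂ) ^ (i.2 ∩ h.1).card) (hRn h)}
    RX := ?_
    RZ := ?_
    dense := ?_ }⟩
  · intro n
    apply Subtype.ext
    funext ⟨S, T⟩
    rw [PO_apply, ← Finset.bot_eq_empty, symmDiff_bot, symmDiff_bot]
    simp only [lp.coeFn_single]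
    by_cases h : ((S, T) : PI) = (⊥, ⊥)
    · obtain ⟨h1, h2⟩ := Prod.ext_iff.mp h
      dsimp only at h1 h2
      subst h1 h2
      rw [sgp_neg (by simp)]; simp
    · rw [Pi.single_eq_of_ne h]; simp
  · intro n
    apply Subtype.ext
    funext ⟨S, T⟩
    rw [PO_apply, ← Finset.bot_eq_empty, symmDiff_bot, symmDiff_bot]
    simp only [lp.coeFn_single]
    by_cases h : ((S, T) : PI) = (⊥, ⊥)
    · obtain ⟨h1, h2⟩ := Prod.ext_iff.mp h
      dsimp only at h1 h2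
      subst h1 h2
      rw [sgp_neg (by simp)]; simp
    · rw [Pi.single_eq_of_ne h]; simp
  · rintro r ⟨h, rfl⟩ n
    refine PO_comm _ _ _ _ _ _ _ _ (fun S T => ?_)
    show (-1 : ℂ) ^ (T ∩ h.1).card * 1 = 1 * (-1 : ℂ) ^ ((T ∆ ∅) ∩ h.1).card
    rw [← Finset.bot_eq_empty, symmDiff_bot]; ring
  · rintro r ⟨h, rfl⟩ n
    refine PO_comm _ _ _ _ _ _ _ _ (fun S T => ?_)
    show (-1 : ℂ) ^ (T ∩ h.1).card * sgp (n ∈ S ∆ h.1) = sgp (n ∈ S) * (-1 : ℂ) ^ ((T ∆ {n}) ∩ h.1).card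
    rw [pow_sd, sgp_sd]; ring
  · rw [eq_top_iff]
    intro f _
    have hsingle : ∀ (h : PI) (c : ℂ), lp.single 2 h c ∈ Submodule.span ℂ {ζ : L2 PI | ∃ r ∈ {r | ∃ h : PI, r = PO h.1 h.2
        (fun i => (-1 : ℂ) ^ (i.2 ∩ h.1).card) (hRn h)}, r (lp.single 2 ((∅, ∅) : PI) (1 : ℂ)) = ζ} := by
      intro h c
      have h1 : PO h.1 h.2 (fun i => (-1 : ℂ) ^ (i.2 ∩ h.1).card) (hRn h) (lp.single 2 ((∅, ∅) : PI) (1 : ℂ)) =
          (-1 : ℂ) ^ (h.2 ∩ h.1).card • lp.single 2 h (1 : ℂ) := by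
        apply Subtype.ext
        funext ⟨S, T⟩
        rw [PO_apply]
        show _ = (-1 : ℂ) ^ (h.2 ∩ h.1).card * (Pi.single h (1 : ℂ) : PI → ℂ) (S, T)
        simp only [lp.coeFn_single]
        by_cases hh : ((S, T) : PI) = h
        · subst hh
          simp only [symmDiff_self, Finset.bot_eq_empty, Pi.single_eq_same]
        · rw [Pi.single_eq_of_ne hh, Pi.single_eq_of_ne]
          · ring
          · intro h3
            apply hh
            obtain ⟨h4, h5⟩ := Prod.ext_iff.mp h3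
            dsimp only at h4 h5
            rw [← Finset.bot_eq_empty, symmDiff_eq_bot] at h4 h5
            rw [h4, h5]
      have h2 : lp.single 2 h c = (c * (-1 : ℂ) ^ (h.2 ∩ h.1).card) •
          PO h.1 h.2 (fun i => (-1 : ℂ) ^ (i.2 ∩ h.1).card) (hRn h) (lp.single 2 ((∅, ∅) : PI) (1 : ℂ)) := by
        rw [h1, smul_smul, mul_assoc, ← mul_pow]
        simp only [mul_neg, mul_one, neg_neg, one_pow]
        rw [← lp.single_smul]; simp
      rw [h2]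
      exact Submodule.smul_mem _ _ (Submodule.subset_span ⟨_, ⟨h, rfl⟩, rfl⟩)
    have hs := lp.hasSum_single (p := 2) (by norm_num) f
    exact (Submodule.isClosed_topologicalClosure _).mem_of_tendsto hs
      (Filter.Eventually.of_forall fun s => Submodule.sum_mem _ fun i _ =>
        Submodule.le_topologicalClosure _ (hsingle i _))

end Crest.Agent.NM
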