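import Crest.Agent.NM.Defs

/-!
# Row 120, MA3: the chain of diagonal projections, the base sequence, elementary facts on systems
-/

set_option autoImplicit false

namespace Crest.Agent.NM

open Filter Topology

theorem E_mul (k m m' : ℕ) : E k m * E k m' = E k (min m m') := by
  rw [E, E, E, Matrix.diagonal_mul_diagonal]
  congr 1
  funext i
  by_cases h1 : i.1 < m <;> by_cases h2 : i.1 < m' <;> simp [h1, h2]

theorem E_proj (k m : ℕ) : IsStarProjection (E k m) := by
  refine ⟨by rw [IsIdempotentElem, E_mul, min_self], ?_⟩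
  rw [IsSelfAdjoint, Matrix.star_eq_conjTranspose, E, Matrix.diagonal_conjTranspose]
  congr 1
  funext i
  rw [Pi.star_apply]
  split_ifs <;> simp

theorem E_trace {k m : ℕ} (h : m ≤ 2 ^ k) : (E k m).trace = m := by
  rw [E, Matrix.trace_diagonal, Finset.sum_boole, Fin.card_filter_val_lt, min_eq_right h]

theorem E_full (k : ℕ) : E k (2 ^ k) = 1 := by
  rw [E, ← Matrix.diagonal_one]
  congr 1
  funext i
  rw [if_pos i.2]

/-- `i < 2m ↔ i/2 < m` -/
theorem dbl_E (k m : ℕ) : dbl (E k m) = E (k + 1) (2 * m) := by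
  ext i j
  simp only [dbl, E, Matrix.diagonal_apply, hf, Fin.mk.injEq]
  by_cases hij : i = j
  · subst hij
    simp only [if_true]
    by_cases h : i.1 / 2 < m
    · rw [if_pos h, if_pos (by omega)]
    · rw [if_neg h, if_neg (by omega)]
  · have : i.1 ≠ j.1 := fun h => hij (Fin.ext h)
    rw [if_neg hij]
    by_cases h1 : i.1 % 2 = j.1 % 2
    · rw [if_pos h1, if_neg (by omega)]
    · rw [if_neg h1]

theorem dbl_one (k : ℕ) : dbl (1 : Mt k) = 1 := by
  rw [← E_full k, dbl_E, ← E_full (k + 1), pow_succ, mul_comm]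

/-- trace of `a ⊗ 1_2` -/
theorem trace_dbl {k : ℕ} (a : Mt k) : (dbl a).trace = 2 * a.trace := by
  have e : (2 ^ k * 2 : ℕ) = 2 ^ (k + 1) := (pow_succ 2 k).symm
  rw [Matrix.trace, Matrix.trace]
  simp only [Matrix.diag_apply, dbl, if_true]
  have h := (Equiv.sum_comp (finProdFinEquiv : Fin (2 ^ k) × Fin 2 ≃ Fin (2 ^ k * 2))
    (fun i : Fin (2 ^ k * 2) => a (hf (k := k) i) (hf (k := k) i)))
  have h2 : ∀ p : Fin (2 ^ k) × Fin 2,
      hf (k := k) (finProdFinEquiv p : Fin (2 ^ k * 2)) = p.1 := by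
    intro p
    refine Fin.ext ?_
    show (finProdFinEquiv p : Fin (2 ^ k * 2)).1 / 2 = p.1.1
    rw [finProdFinEquiv_apply_val]
    have := p.2.2
    omega
  simp only [h2] at h
  rw [Fintype.sum_prod_type] at h
  simp only [Finset.sum_const, Finset.card_univ, Fintype.card_fin, nsmul_eq_mul,
    Nat.cast_ofNat] at h
  rw [← Finset.mul_sum] at h
  exact h.symm

theorem ntr_dbl {k : ℕ} (a : Mt k) : ntr (dbl a) = ntr a := by
  rw [ntr, ntr, trace_dbl, pow_succ, mul_inv, mul_assoc, ← mul_assoc ((2 : ℂ)⁻¹),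
    inv_mul_cancel₀ (two_ne_zero), one_mul]

namespace Sys

variable {A : Type} [CStarAlgebra A] (S : Sys A)

/-- lifting with all data: the lift of `a` to a higher level has trace multiplied by the power of two -/
theorem lift' {k m : ℕ} (h : k ≤ m) (a : Mt k) :
    ∃ b : Mt m, S.ρ m b = S.ρ k a ∧ b.trace = 2 ^ (m - k) * a.trace := by
  induction m, h using Nat.le_induction with
  | base => exact ⟨a, rfl, by simp⟩
  | succ m hm ih =>
    obtain ⟨b, hb, hb'⟩ := ih
    refine ⟨dbl b, by rw [S.compat, hb], ?_⟩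
    rw [trace_dbl, hb', Nat.sub_add_comm hm, pow_succ]
    ring

theorem ρ_E {k m : ℕ} (h : k ≤ m) (j : ℕ) : S.ρ k (E k j) = S.ρ m (E m (2 ^ (m - k) * j)) := by
  induction m, h using Nat.le_induction with
  | base => simp
  | succ m hm ih =>
    rw [ih, ← S.compat, dbl_E]
    have e : 2 * (2 ^ (m - k) * j) = 2 ^ (m + 1 - k) * j := by
      rw [Nat.sub_add_comm hm, pow_succ]; ring
    rw [e]

/-- the matrix algebra is simple: if `ρ a = 0`, `a i j ≠ 0`, then `a i j • e_kk = e_ki a e_jk` gives `ρ e_kk = 0` for all `k`, so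
`1 = 0`. -/
theorem inj [Nontrivial A] (k : ℕ) : Function.Injective (S.ρ k) := by
  have : Nonempty (Fin (2 ^ k)) := ⟨⟨0, by positivity⟩⟩
  exact RingHom.injective ((S.ρ k : Mt k →⋆ₐ[ℂ] A) : Mt k →+* A)

theorem f_mem (n : ℕ) : S.f n ∈ S.C := ⟨n, _, rfl⟩

theorem f_proj (n : ℕ) : IsStarProjection (S.f n) := (E_proj n 1).map (S.ρ n)

theorem f_anti' {n m : ℕ} (h : n ≤ m) : S.f n * S.f m = S.f m := by
  rw [f, f, S.ρ_E h 1, ← map_mul, E_mul, mul_one, min_eq_right Nat.one_le_two_pow]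

/-- `E (n+1) 2 = dbl (E n 1)` -/
theorem f_anti (n : ℕ) : S.f n * S.f (n + 1) = S.f (n + 1) := S.f_anti' (Nat.le_succ n)

private theorem lift00 {k m : ℕ} (h : k ≤ m) (a : Mt k) :
    ∃ b : Mt m, S.ρ m b = S.ρ k a ∧
      b ⟨0, by positivity⟩ ⟨0, by positivity⟩ = a ⟨0, by positivity⟩ ⟨0, by positivity⟩ := by
  induction m, h using Nat.le_induction with
  | base => exact ⟨a, rfl, rfl⟩
  | succ m hm ih =>
    obtain ⟨b, hb, hb'⟩ := ih
    refine ⟨dbl b, by rw [S.compat, hb], ?_⟩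
    rw [← hb']
    simp only [dbl, if_true]
    congr 1 <;> exact Fin.ext (by simp [hf])

private theorem E1_mul (n : ℕ) (b : Mt n) :
    E n 1 * b * E n 1 = b ⟨0, by positivity⟩ ⟨0, by positivity⟩ • E n 1 := by
  ext i j
  rw [E, Matrix.mul_diagonal, Matrix.diagonal_mul, Matrix.smul_apply, Matrix.diagonal_apply,
    smul_eq_mul]
  have hz : ∀ i : Fin (2 ^ n), i.1 < 1 → i = ⟨0, by positivity⟩ := fun i hi =>
    Fin.ext (by simpa using hi)
  by_cases hi : i.1 < 1 <;> by_cases hj : j.1 < 1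
  · rw [hz i hi, hz j hj]; simp
  · have : i ≠ j := by rintro rfl; exact hj hi
    simp [hj, this]
  · have : i ≠ j := by rintro rfl; exact hi hj
    simp [hi, this]
  · simp [hi, hj]

/-- the base state is a product state: `f_n a f_n = a_00 f_n` for `n ≥ k`. PROOF: lift `a` to level `n`: the entry `00` of the lift
`dbl^{n-k} a` is `a_00`; `E n 1` is the matrix unit `e_00`. -/
theorem f_scal {k : ℕ} (a : Mt k) {n : ℕ} (h : k ≤ n) :
    S.f n * S.ρ k a * S.f n = a ⟨0, by positivity⟩ ⟨0, by positivity⟩ • S.f n := by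
  obtain ⟨b, hb, hb'⟩ := S.lift00 h a
  rw [← hb, ← hb', f, ← map_mul, ← map_mul, E1_mul, map_smul]

theorem f_scal' (c : A) (hc : c ∈ S.C) :
    ∃ l : ℂ, Tendsto (fun n => S.f n * c * S.f n - l • S.f n) atTop (𝓝 0) := by
  obtain ⟨k, a, rfl⟩ := hc
  refine ⟨a ⟨0, by positivity⟩ ⟨0, by positivity⟩, tendsto_const_nhds.congr' ?_⟩
  filter_upwards [eventually_ge_atTop k] with n hn
  rw [S.f_scal a hn, sub_self]

end Sys

end Crest.Agent.NM
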