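import Crest.Agent.NM.M2
import Crest.Agent.NM.MA3

/-!
# Row 120, M3a: from the Pauli system to the UHF system
-/

set_option autoImplicit false

namespace Crest.Agent.NM

open Filter Topology
open scoped InnerProductSpace

variable {H : Type} [NormedAddCommGroup H] [InnerProductSpace ℂ H] [CompleteSpace H]

/-- the `2×2` matrix units at site `n`: `E_00 = (1+Z)/2`, `E_11 = (1-Z)/2`, `E_01 = E_00 X`, `E_10 = E_11 X` -/
noncomputable def Pauli.e (P : Pauli H) (n : ℕ) (a b : Fin 2) : H →L[ℂ] H :=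
  ((1 / 2 : ℂ) • (1 + (if a = 0 then (1 : ℂ) else -1) • P.Z n)) * (if a = b then 1 else P.X n)

/-- `(1 + s Z) / 2` -/
private noncomputable def M3a_p (P : Pauli H) (n : ℕ) (s : ℂ) : H →L[ℂ] H :=
  (1 / 2 : ℂ) • (1 + s • P.Z n)

private theorem M3a_pp (P : Pauli H) (n : ℕ) (s t : ℂ) :
    M3a_p P n s * M3a_p P n t = (1 / 4 : ℂ) • ((1 + s * t) • (1 : H →L[ℂ] H) + (s + t) • P.Z n) := by
  unfold M3a_p
  rw [smul_mul_smul_comm, add_mul, mul_add, mul_add, smul_mul_smul_comm, P.ZZ, one_mul, one_mul, mul_one,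
    add_smul, add_smul, one_smul]
  congr 1
  · norm_num
  · abel

private theorem M3a_Xp (P : Pauli H) (n : ℕ) (s : ℂ) :
    P.X n * M3a_p P n s = M3a_p P n (-s) * P.X n := by
  unfold M3a_p
  rw [mul_smul_comm, smul_mul_assoc, mul_add, add_mul, mul_smul_comm, P.XZ, one_mul, mul_one,
    smul_mul_assoc, smul_neg, neg_smul]

private theorem M3a_p1 (P : Pauli H) (n : ℕ) : M3a_p P n 1 * M3a_p P n 1 = M3a_p P n 1 := by
  rw [M3a_pp]; unfold M3a_p
  rw [show (1 + 1 * 1 : ℂ) = 2 by norm_num, show (1 + 1 : ℂ) = 2 by norm_num, ← smul_add, smul_smul,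
    one_smul]
  norm_num

private theorem M3a_p2 (P : Pauli H) (n : ℕ) : M3a_p P n (-1) * M3a_p P n (-1) = M3a_p P n (-1) := by
  rw [M3a_pp]; unfold M3a_p
  rw [show (1 + -1 * -1 : ℂ) = 2 by norm_num, show (-1 + -1 : ℂ) = 2 * (-1) by norm_num, mul_smul,
    ← smul_add, smul_smul]
  norm_num

private theorem M3a_p3 (P : Pauli H) (n : ℕ) : M3a_p P n 1 * M3a_p P n (-1) = 0 := by
  rw [M3a_pp]; simp

private theorem M3a_p4 (P : Pauli H) (n : ℕ) : M3a_p P n (-1) * M3a_p P n 1 = 0 := by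
  rw [M3a_pp]; simp

private theorem M3a_e (P : Pauli H) (n : ℕ) (a b : Fin 2) :
    P.e n a b = M3a_p P n (if a = 0 then 1 else -1) * (if a = b then 1 else P.X n) := rfl

private theorem M3a_e00 (P : Pauli H) (n : ℕ) : P.e n 0 0 = M3a_p P n 1 := by
  rw [M3a_e]; simp

private theorem M3a_e11 (P : Pauli H) (n : ℕ) : P.e n 1 1 = M3a_p P n (-1) := by
  rw [M3a_e]; simp

private theorem M3a_e01 (P : Pauli H) (n : ℕ) : P.e n 0 1 = M3a_p P n 1 * P.X n := by
  rw [M3a_e]; simp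

private theorem M3a_e10 (P : Pauli H) (n : ℕ) : P.e n 1 0 = M3a_p P n (-1) * P.X n := by
  rw [M3a_e]; simp

private theorem M3a_mulX (P : Pauli H) (n : ℕ) (s t : ℂ) :
    (M3a_p P n s * P.X n) * M3a_p P n t = M3a_p P n s * M3a_p P n (-t) * P.X n := by
  rw [mul_assoc, M3a_Xp, mul_assoc]

private theorem M3a_mulXX (P : Pauli H) (n : ℕ) (s t : ℂ) :
    (M3a_p P n s * P.X n) * (M3a_p P n t * P.X n) = M3a_p P n s * M3a_p P n (-t) := by
  rw [← mul_assoc, M3a_mulX, mul_assoc, P.XX, mul_one]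

theorem Pauli.e_mul (P : Pauli H) (n : ℕ) (a b c d : Fin 2) :
    P.e n a b * P.e n c d = if b = c then P.e n a d else 0 := by
  have key : ∀ s t : ℂ, M3a_p P n s * (M3a_p P n t * P.X n) = M3a_p P n s * M3a_p P n t * P.X n :=
    fun s t => (mul_assoc _ _ _).symm
  fin_cases a <;> fin_cases b <;> fin_cases c <;> fin_cases d <;>
    simp only [Fin.zero_eta, Fin.mk_one, Fin.isValue, M3a_e00, M3a_e01, M3a_e10, M3a_e11, M3a_mulX,
      M3a_mulXX, key, neg_neg, M3a_p1, M3a_p2, M3a_p3, M3a_p4, zero_mul, if_true, reduceIte,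
      zero_ne_one, one_ne_zero, if_false]

private theorem M3a_p_star (P : Pauli H) (n : ℕ) (s : ℂ) (hs : star s = s) :
    star (M3a_p P n s) = M3a_p P n s := by
  unfold M3a_p
  rw [star_smul, star_add, star_one, star_smul, hs, (P.Z_sa n).star_eq]
  congr 1
  simp

theorem Pauli.e_star (P : Pauli H) (n : ℕ) (a b : Fin 2) : star (P.e n a b) = P.e n b a := by
  have h1 : star (M3a_p P n 1) = M3a_p P n 1 := M3a_p_star P n 1 (by simp)
  have h2 : star (M3a_p P n (-1)) = M3a_p P n (-1) := M3a_p_star P n (-1) (by simp)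
  have hX : star (P.X n) = P.X n := (P.X_sa n).star_eq
  fin_cases a <;> fin_cases b <;>
    simp only [Fin.zero_eta, Fin.mk_one, Fin.isValue, M3a_e00, M3a_e01, M3a_e10, M3a_e11, star_mul,
      h1, h2, hX, M3a_Xp, neg_neg]

theorem Pauli.e_sum (P : Pauli H) (n : ℕ) : P.e n 0 0 + P.e n 1 1 = 1 := by
  rw [M3a_e00, M3a_e11]
  unfold M3a_p
  rw [← smul_add, one_smul, neg_smul, one_smul]
  have : (1 + P.Z n + (1 + -P.Z n) : H →L[ℂ] H) = (2 : ℂ) • 1 := by
    rw [two_smul]; abel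
  rw [this, smul_smul]
  norm_num

end Crest.Agent.NM
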