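import Crest.Agent.NM.MA3

/-!
# Row 120, M3b: from the Pauli system to the UHF system
-/

set_option autoImplicit false

namespace Crest.Agent.NM

open Filter Topology
open scoped InnerProductSpace

variable {H : Type} [NormedAddCommGroup H] [InnerProductSpace ℂ H] [CompleteSpace H]

/-- blocks of a matrix of size `2^(k+1)`: `(blk a b M)_{ij} = M_{2i+a, 2j+b}` -/
def blk {k : ℕ} (a b : Fin 2) (M : Mt (k + 1)) : Mt k := fun i j =>
  M ⟨2 * i.1 + a.1, by have := i.2; have := a.2; have e : 2 ^ (k + 1) = 2 ^ k * 2 := pow_succ 2 k; omega⟩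
    ⟨2 * j.1 + b.1, by have := j.2; have := b.2; have e : 2 ^ (k + 1) = 2 ^ k * 2 := pow_succ 2 k; omega⟩

/-- reindexing a sum over `Fin (2^(k+1))` by `j = 2 i + c`. -/
private theorem M3b_sum {k : ℕ} (f : Fin (2 ^ (k + 1)) → ℂ) :
    ∑ j, f j = ∑ i : Fin (2 ^ k),
      (f ⟨2 * i.1 + (0 : Fin 2).1, by
          have := i.2; have e : 2 ^ (k + 1) = 2 ^ k * 2 := pow_succ 2 k; simp; omega⟩ +
       f ⟨2 * i.1 + (1 : Fin 2).1, by
          have := i.2; have e : 2 ^ (k + 1) = 2 ^ k * 2 := pow_succ 2 k; simp; omega⟩) := by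
  have e : 2 ^ k * 2 = 2 ^ (k + 1) := (pow_succ 2 k).symm
  rw [← Equiv.sum_comp (finProdFinEquiv.trans (finCongr e)) f, Fintype.sum_prod_type]
  refine Finset.sum_congr rfl fun i _ => ?_
  rw [Fin.sum_univ_two]
  congr 1
  · congr 1
    apply Fin.ext
    simp [finProdFinEquiv, finCongr]
  · congr 1
    apply Fin.ext
    simp [finProdFinEquiv, finCongr]
    omega

/-- `blk a b (M N) = Σ_c blk a c M * blk c b N` (reindex `Fin (2^(k+1))` by `Fin (2^k) × Fin 2`, `j = 2 i + c`). -/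
theorem blk_mul {k : ℕ} (a b : Fin 2) (M N : Mt (k + 1)) :
    blk a b (M * N) = blk a 0 M * blk 0 b N + blk a 1 M * blk 1 b N := by
  ext i j
  simp only [Matrix.add_apply]
  rw [Matrix.mul_apply, Matrix.mul_apply, ← Finset.sum_add_distrib]
  show (M * N) _ _ = _
  rw [Matrix.mul_apply, M3b_sum]
  rfl

theorem blk_dbl {k : ℕ} (a b : Fin 2) (M : Mt k) : blk a b (dbl M) = if a = b then M else 0 := by
  ext i j
  have h1 : ∀ (i : Fin (2 ^ k)) (a : Fin 2) (h : 2 * i.1 + a.1 < 2 ^ (k + 1)),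
      hf (⟨2 * i.1 + a.1, h⟩ : Fin (2 ^ (k + 1))) = i := by
    intro i a h
    apply Fin.ext
    have := a.2
    simp only [hf]
    omega
  have h2 : ((2 * i.1 + a.1) % 2 = (2 * j.1 + b.1) % 2) ↔ a = b := by
    have := a.2
    have := b.2
    constructor
    · intro h
      apply Fin.ext
      omega
    · intro h
      subst h
      omega
  simp only [blk, dbl, h1, h2]
  split_ifs <;> simp

theorem ntr_blk {k : ℕ} (M : Mt (k + 1)) : ntr M = (1 / 2 : ℂ) * (ntr (blk 0 0 M) + ntr (blk 1 1 M)) := by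
  simp only [ntr, Matrix.trace, Matrix.diag]
  rw [M3b_sum, Finset.sum_add_distrib, pow_succ, mul_inv]
  simp only [blk]
  ring

end Crest.Agent.NM
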