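import Crest.Agent.NM.M3a
import Crest.Agent.NM.M3b

/-!
# Row 120, M3c: from the Pauli system to the UHF system
-/

set_option autoImplicit false

namespace Crest.Agent.NM

open Filter Topology
open scoped InnerProductSpace

variable {H : Type} [NormedAddCommGroup H] [InnerProductSpace ℂ H] [CompleteSpace H]

private theorem M3c_commute (P : Pauli H) (k : ℕ) {x : H →L[ℂ] H}
    (hX : Commute x (P.X k)) (hZ : Commute x (P.Z k)) (a b : Fin 2) : Commute x (P.e k a b) := by
  unfold Pauli.e
  apply Commute.mul_right
  · apply Commute.smul_right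
    apply Commute.add_right
    · exact Commute.one_right x
    · exact Commute.smul_right hZ _
  · split_ifs
    · exact Commute.one_right x
    · exact hX

private theorem M3c_blk_add {k : ℕ} (a b : Fin 2) (M N : Mt (k + 1)) :
    blk a b (M + N) = blk a b M + blk a b N := by
  ext i j; rfl

private theorem M3c_blk_zero {k : ℕ} (a b : Fin 2) : blk a b (0 : Mt (k + 1)) = 0 := by
  ext i j; rfl

private theorem M3c_blk_star {k : ℕ} (a b : Fin 2) (M : Mt (k + 1)) :
    blk a b (star M) = star (blk b a M) := by
  ext i j; rfl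

private theorem M3c_blk_alg {k : ℕ} (a b : Fin 2) (c : ℂ) :
    blk a b (algebraMap ℂ (Mt (k + 1)) c) = if a = b then algebraMap ℂ (Mt k) c else 0 := by
  rw [← blk_dbl]
  congr 1
  ext i j
  simp only [Matrix.algebraMap_matrix_apply, dbl, hf]
  by_cases hij : i = j
  · subst hij; simp
  · rw [if_neg hij]
    split_ifs with h1 h2
    · exfalso
      apply hij
      apply Fin.ext
      have := congrArg Fin.val h2
      simp only at this
      omega
    · rfl
    · rfl

/-- one level: from `r : Mt k → B(H)` commuting with `X k, Z k` to `r' : Mt (k+1) → B(H)`, `r' M = Σ_ab r (blk a b M) * e k a b`. -/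
theorem exists_succ (P : Pauli H) (k : ℕ) (r : Mt k →⋆ₐ[ℂ] (H →L[ℂ] H))
    (hX : ∀ a, Commute (r a) (P.X k)) (hZ : ∀ a, Commute (r a) (P.Z k)) :
    ∃ r' : Mt (k + 1) →⋆ₐ[ℂ] (H →L[ℂ] H), ∀ M, r' M = ∑ a, ∑ b, r (blk a b M) * P.e k a b := by
  have hc : ∀ x a b, Commute (r x) (P.e k a b) := fun x a b => M3c_commute P k (hX x) (hZ x) a b
  have hmm : ∀ (x y : Mt k) (a b c d : Fin 2), (r x * P.e k a b) * (r y * P.e k c d) =
      if b = c then r (x * y) * P.e k a d else 0 := by
    intro x y a b c d
    have h1 : (r x * P.e k a b) * (r y * P.e k c d) = r x * r y * (P.e k a b * P.e k c d) := by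
      calc (r x * P.e k a b) * (r y * P.e k c d) = r x * (P.e k a b * r y) * P.e k c d := by
            simp only [mul_assoc]
        _ = r x * (r y * P.e k a b) * P.e k c d := by rw [(hc y a b).eq]
        _ = _ := by simp only [mul_assoc]
    rw [h1, P.e_mul]
    split_ifs
    · rw [map_mul]
    · rw [mul_zero]
  have hs : P.e k 0 0 + P.e k 1 1 = 1 := P.e_sum k
  refine ⟨{ toFun := fun M => ∑ a, ∑ b, r (blk a b M) * P.e k a b
            map_one' := ?_
            map_mul' := ?_
            map_zero' := ?_
            map_add' := ?_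
            commutes' := ?_
            map_star' := ?_ }, fun M => rfl⟩
  · have h1 : ∀ a b, blk a b (1 : Mt (k + 1)) = if a = b then 1 else 0 := by
      intro a b
      have h := M3c_blk_alg (k := k) a b 1
      rwa [map_one, map_one] at h
    simp only [h1, Fin.sum_univ_two]
    simp [hs]
  · intro M N
    simp only [Fin.sum_univ_two, blk_mul, map_add, add_mul, mul_add, hmm]
    simp
    abel
  · simp [M3c_blk_zero]
  · intro M N
    simp only [M3c_blk_add, map_add, add_mul, Finset.sum_add_distrib]
  · intro c
    have hr : r (algebraMap ℂ (Mt k) c) = algebraMap ℂ (H →L[ℂ] H) c := by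
      exact AlgHomClass.commutes r c
    simp only [M3c_blk_alg, Fin.sum_univ_two]
    simp only [if_true, Fin.zero_eq_one_iff, Fin.one_eq_zero_iff]
    simp only [show (2 : ℕ) ≠ 1 from by norm_num, if_false, map_zero, zero_mul, add_zero, zero_add, hr]
    rw [← mul_add, hs, mul_one]
  · intro M
    simp only [Fin.sum_univ_two, M3c_blk_star, map_star, star_add, star_mul, P.e_star]
    have h2 : ∀ a b c d, star (r (blk a b M)) * P.e k c d = P.e k c d * star (r (blk a b M)) := by
      intro a b c d
      rw [← map_star]
      exact (hc _ c d).eq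
    simp only [h2]
    abel

end Crest.Agent.NM
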