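import Crest.Agent.NM.Defs

/-!
# Row 120, MA1: spectral cut of a positive semidefinite matrix
-/

set_option autoImplicit false

namespace Crest.Agent.NM

open scoped ComplexOrder

variable {n : Type} [Fintype n] [DecidableEq n]

/-- Diagonalisation in the form used below. -/
theorem exists_diag (Z : Matrix n n ℂ) (hZ : Z.PosSemidef) :
    ∃ (φ : Matrix n n ℂ →⋆ₐ[ℂ] Matrix n n ℂ) (l : n → ℝ), (∀ i, 0 ≤ l i) ∧
      Z = φ (Matrix.diagonal fun i => (l i : ℂ)) ∧ ∀ X : Matrix n n ℂ, X.PosSemidef → (φ X).PosSemidef := by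
  refine ⟨(Unitary.conjStarAlgAut ℂ _ hZ.1.eigenvectorUnitary : Matrix n n ℂ ≃⋆ₐ[ℂ] Matrix n n ℂ), hZ.1.eigenvalues,
    hZ.eigenvalues_nonneg, ?_, ?_⟩
  · exact hZ.1.spectral_theorem
  · intro X hX
    show (Unitary.conjStarAlgAut ℂ _ hZ.1.eigenvectorUnitary X).PosSemidef
    rw [Unitary.conjStarAlgAut_apply]
    exact hX.mul_mul_conjTranspose_same _

/-- Spectral projection `F = 1_{(δ,∞)}(Z)`. PROOF: `Z = U diag(λ) U*` (`Matrix.IsHermitian.spectral_theorem`),
`F = U diag(1_{λ>δ}) U*`, `W = U diag(1_{λ>δ}/λ) U*`. `Z - δF = U diag(λ - δ 1_{λ>δ}) U*` has nonnegative eigenvalues,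
`δ(1-F) - (1-F)Z(1-F) = U diag((δ-λ) 1_{λ≤δ}) U*` too. -/
theorem cut (Z : Matrix n n ℂ) (hZ : Z.PosSemidef) (δ : ℝ) (hδ : 0 < δ) :
    ∃ F W : Matrix n n ℂ, IsStarProjection F ∧ F = Z * W ∧ (Z - (δ : ℂ) • F).PosSemidef ∧
      ((δ : ℂ) • (1 - F) - (1 - F) * Z * (1 - F)).PosSemidef := by
  obtain ⟨φ, l, hl, hZφ, hφ⟩ := exists_diag Z hZ
  refine ⟨φ (Matrix.diagonal fun i => if δ < l i then 1 else 0),
    φ (Matrix.diagonal fun i => if δ < l i then ((l i)⁻¹ : ℂ) else 0), ⟨?_, ?_⟩, ?_, ?_, ?_⟩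
  · show _ * _ = _
    rw [← map_mul, Matrix.diagonal_mul_diagonal]
    congr 2
    funext i
    split_ifs <;> simp
  · show star _ = _
    rw [← map_star, Matrix.star_eq_conjTranspose, Matrix.diagonal_conjTranspose]
    congr 2
    funext i
    simp only [Pi.star_apply]
    split_ifs <;> simp
  · rw [hZφ, ← map_mul, Matrix.diagonal_mul_diagonal]
    congr 2
    funext i
    split_ifs with h
    · have : (l i : ℂ) ≠ 0 := by exact_mod_cast (hδ.trans h).ne'
      rw [mul_inv_cancel₀ this]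
    · simp
  · rw [hZφ, ← map_smul, ← map_sub]
    apply hφ
    rw [← Matrix.diagonal_smul, Matrix.diagonal_sub]
    apply Matrix.PosSemidef.diagonal
    intro i
    simp only [Pi.zero_apply, Pi.smul_apply, smul_eq_mul]
    split_ifs with h
    · rw [mul_one, ← Complex.ofReal_sub]
      exact_mod_cast (sub_pos.2 h).le
    · rw [mul_zero, sub_zero]
      exact_mod_cast hl i
  · rw [hZφ]
    have e : (1 : Matrix n n ℂ) - φ (Matrix.diagonal fun i => if δ < l i then 1 else 0) =
        φ (Matrix.diagonal fun i => if δ < l i then 0 else 1) := by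
      rw [← map_one φ, ← map_sub, ← Matrix.diagonal_one, Matrix.diagonal_sub]
      congr 2
      funext i
      split_ifs <;> simp
    rw [e, ← map_mul, ← map_mul, ← map_smul, ← map_sub]
    apply hφ
    rw [Matrix.diagonal_mul_diagonal, Matrix.diagonal_mul_diagonal, ← Matrix.diagonal_smul, Matrix.diagonal_sub]
    apply Matrix.PosSemidef.diagonal
    intro i
    simp only [Pi.zero_apply, Pi.smul_apply, smul_eq_mul]
    split_ifs with h
    · simp
    · rw [mul_one, one_mul, mul_one, ← Complex.ofReal_sub]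
      exact_mod_cast sub_nonneg.2 (not_lt.1 h)

/-- The same inside the corner of a projection `G ≥ supp Z`. PROOF: `P = G - F`. `G F = G Z W = F`, so `F G = F` (star) and
`P` is a projection with `P F = 0`, `G P = P`. `Z - δ(G-P) = Z - δF`; `δP - PZP = P (δ(1-F) - (1-F)Z(1-F)) P` as
`P (1-F) = P`: conjugation of a PSD matrix (`Matrix.PosSemidef.conjTranspose_mul_mul_same`). -/
theorem cut' (Z G : Matrix n n ℂ) (hZ : Z.PosSemidef) (hG : IsStarProjection G) (hGZ : G * Z = Z)
    (δ : ℝ) (hδ : 0 < δ) :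
    ∃ P : Matrix n n ℂ, IsStarProjection P ∧ G * P = P ∧ (Z - (δ : ℂ) • (G - P)).PosSemidef ∧
      ((δ : ℂ) • P - P * Z * P).PosSemidef := by
  obtain ⟨F, W, hF, hFW, h1, h2⟩ := cut Z hZ δ hδ
  have hF1 : F * F = F := hF.isIdempotentElem
  have hF2 : star F = F := hF.isSelfAdjoint.star_eq
  have hG1 : G * G = G := hG.isIdempotentElem
  have hG2 : star G = G := hG.isSelfAdjoint.star_eq
  have hGF : G * F = F := by rw [hFW, ← mul_assoc, hGZ]
  have hFG : F * G = F := by
    have := congrArg star hGF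
    rwa [star_mul, hF2, hG2] at this
  refine ⟨G - F, ⟨?_, ?_⟩, ?_, ?_, ?_⟩
  · show _ * _ = _
    rw [sub_mul, mul_sub, mul_sub, hG1, hF1, hGF, hFG]; abel
  · show star _ = _
    rw [star_sub, hG2, hF2]
  · rw [mul_sub, hG1, hGF]
  · have : G - (G - F) = F := by abel
    rwa [this]
  · have h3 := h2.conjTranspose_mul_mul_same (G - F)
    have hP2 : (G - F).conjTranspose = G - F := by
      rw [← Matrix.star_eq_conjTranspose, star_sub, hG2, hF2]
    have hPP : (G - F) * (G - F) = G - F := by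
      rw [sub_mul, mul_sub, mul_sub, hG1, hF1, hGF, hFG]; abel
    have hP1 : (G - F) * (1 - F) = G - F := by
      rw [sub_mul, mul_sub, mul_sub, hGF, hF1]; simp
    have hP1' : (1 - F) * (G - F) = G - F := by
      rw [mul_sub, sub_mul, sub_mul, hFG, hF1]; simp
    have e : (G - F).conjTranspose * ((δ : ℂ) • (1 - F) - (1 - F) * Z * (1 - F)) * (G - F) =
        (δ : ℂ) • (G - F) - (G - F) * Z * (G - F) := by
      rw [hP2]
      calc (G - F) * ((δ : ℂ) • (1 - F) - (1 - F) * Z * (1 - F)) * (G - F)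
          = (δ : ℂ) • (((G - F) * (1 - F)) * (G - F)) - ((G - F) * (1 - F)) * Z * ((1 - F) * (G - F)) := by
            generalize G - F = P
            generalize 1 - F = Q
            simp only [Matrix.mul_sub, Matrix.sub_mul, Matrix.mul_smul, Matrix.smul_mul, mul_assoc]
        _ = _ := by rw [hP1, hP1', hPP]
    rwa [e] at h3

end Crest.Agent.NM
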