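import Crest.Agent.NM.Defs

/-!
# Row 120, MA2: projections in matrix algebras
-/

set_option autoImplicit false

namespace Crest.Agent.NM

variable {n : Type} [Fintype n] [DecidableEq n]

omit [DecidableEq n] in
private theorem isHermitian_of_proj {P : Matrix n n ℂ} (hP : IsStarProjection P) :
    P.IsHermitian := hP.isSelfAdjoint

private theorem eig01 {P : Matrix n n ℂ} (hP : IsStarProjection P) (i : n) :
    (isHermitian_of_proj hP).eigenvalues i = 0 ∨ (isHermitian_of_proj hP).eigenvalues i = 1 := by
  have h := (isHermitian_of_proj hP).mulVec_eigenvectorBasis i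
  set l := (isHermitian_of_proj hP).eigenvalues i with hl
  set v : n → ℂ := ⇑((isHermitian_of_proj hP).eigenvectorBasis i) with hv
  have h2 : P.mulVec (P.mulVec v) = P.mulVec v := by
    rw [Matrix.mulVec_mulVec, hP.isIdempotentElem.eq]
  rw [h, Matrix.mulVec_smul, h, smul_smul] at h2
  have hv0 : v ≠ 0 := by
    intro h0
    have h3 := (isHermitian_of_proj hP).eigenvectorBasis.orthonormal.ne_zero i
    apply h3
    ext j
    exact congrFun h0 j
  have h4 : (l * l - l) • v = 0 := by rw [sub_smul, h2, sub_self]
  rcases smul_eq_zero.1 h4 with h5 | h5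
  · have h6 : l * (l - 1) = 0 := by linarith
    rcases mul_eq_zero.1 h6 with h7 | h7
    · exact Or.inl h7
    · exact Or.inr (by linarith)
  · exact absurd h5 hv0

private noncomputable def ones {P : Matrix n n ℂ} (hP : IsStarProjection P) : Finset n :=
  Finset.univ.filter (fun i => (isHermitian_of_proj hP).eigenvalues i = 1)

private theorem trace_ones {P : Matrix n n ℂ} (hP : IsStarProjection P) :
    P.trace = ((ones hP).card : ℂ) := by
  rw [(isHermitian_of_proj hP).trace_eq_sum_eigenvalues, ones, Finset.card_filter, Nat.cast_sum]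
  refine Finset.sum_congr rfl fun i _ => ?_
  rcases eig01 hP i with h | h
  · rw [h]; simp
  · rw [h]; simp

/-- The trace of a projection is a natural number (its rank). PROOF: spectral theorem: the eigenvalues are `0` or `1`; or
`LinearMap.IsProj.trace` / `LinearMap.IsIdempotentElem` trace = finrank of the range. -/
theorem trace_nat (P : Matrix n n ℂ) (hP : IsStarProjection P) :
    ∃ m : ℕ, P.trace = m ∧ m ≤ Fintype.card n :=
  ⟨(ones hP).card, trace_ones hP, Finset.card_le_univ _⟩

/-- monotone: `P ≤ Q` (i.e. `Q P = P`) implies `tr P ≤ tr Q`: `Q - P` is a projection, use `trace_nat`. -/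
theorem trace_mono (P Q : Matrix n n ℂ) (hP : IsStarProjection P) (hQ : IsStarProjection Q) (h : Q * P = P)
    {m m' : ℕ} (hm : P.trace = m) (hm' : Q.trace = m') : m ≤ m' := by
  have hPs : star P = P := hP.isSelfAdjoint
  have hQs : star Q = Q := hQ.isSelfAdjoint
  have h' : P * Q = P := by
    have h1 := congrArg star h
    rwa [star_mul, hPs, hQs] at h1
  have hD : IsStarProjection (Q - P) := by
    refine ⟨?_, ?_⟩
    · change (Q - P) * (Q - P) = Q - P
      rw [sub_mul, mul_sub, mul_sub, h, h', hP.isIdempotentElem.eq, hQ.isIdempotentElem.eq]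
      simp
    · change star (Q - P) = Q - P
      rw [star_sub, hPs, hQs]
  obtain ⟨k, hk, -⟩ := trace_nat (Q - P) hD
  rw [Matrix.trace_sub, hm, hm'] at hk
  have h1 : (m' : ℂ) = ((k + m : ℕ) : ℂ) := by
    push_cast
    rw [← hk]
    ring
  have h2 : m' = k + m := by exact_mod_cast h1
  omega

private theorem charpoly_proj {P : Matrix n n ℂ} (hP : IsStarProjection P) :
    P.charpoly = (Polynomial.X - Polynomial.C 1) ^ (ones hP).card *
      Polynomial.X ^ (Fintype.card n - (ones hP).card) := by
  classical
  rw [(isHermitian_of_proj hP).charpoly_eq,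
    ← Finset.prod_filter_mul_prod_filter_not Finset.univ
      (fun i => (isHermitian_of_proj hP).eigenvalues i = 1)]
  congr 1
  · rw [ones, ← Finset.prod_const]
    refine Finset.prod_congr rfl fun i hi => ?_
    rw [(Finset.mem_filter.1 hi).2]
    simp
  · have hcard : (Finset.univ.filter
        (fun i => ¬ (isHermitian_of_proj hP).eigenvalues i = 1)).card =
        Fintype.card n - (ones hP).card := by
      have h1 := Finset.card_filter_add_card_filter_not (s := (Finset.univ : Finset n))
        (fun i => (isHermitian_of_proj hP).eigenvalues i = 1)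
      rw [Finset.card_univ] at h1
      rw [ones]
      omega
    rw [← hcard, ← Finset.prod_const]
    refine Finset.prod_congr rfl fun i hi => ?_
    rcases eig01 hP i with h | h
    · rw [h]; simp
    · exact absurd h (Finset.mem_filter.1 hi).2

/-- projections with the same trace are Murray-von Neumann equivalent. PROOF: diagonalise both:
`P = U diag(a) U*`, `Q = V diag(b) V*` with `a, b ∈ {0,1}`; the numbers of ones agree, so there is a permutation `s`
with `b ∘ s = a`; `W = V (permutation matrix) diag(a) U*`. (Or: ranges of `P`, `Q` as submodules of `EuclideanSpace ℂ n` have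
the same dimension, take a linear isometry between them and compose with the orthogonal projection.) -/
theorem exists_partial (P Q : Matrix n n ℂ) (hP : IsStarProjection P) (hQ : IsStarProjection Q)
    (h : P.trace = Q.trace) : ∃ W : Matrix n n ℂ, star W * W = P ∧ W * star W = Q := by
  have hc : (ones hP).card = (ones hQ).card := by
    rw [trace_ones hP, trace_ones hQ] at h
    exact_mod_cast h
  have hcp : P.charpoly = Q.charpoly := by
    rw [charpoly_proj hP, charpoly_proj hQ, hc]
  have hE : (isHermitian_of_proj hP).eigenvalues = (isHermitian_of_proj hQ).eigenvalues :=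
    (Matrix.IsHermitian.eigenvalues_eq_eigenvalues_iff _ _).2 hcp
  have hPs := (isHermitian_of_proj hP).spectral_theorem
  have hQs := (isHermitian_of_proj hQ).spectral_theorem
  rw [Unitary.conjStarAlgAut_apply] at hPs hQs
  rw [← hE] at hQs
  set D : Matrix n n ℂ := Matrix.diagonal (RCLike.ofReal ∘ (isHermitian_of_proj hP).eigenvalues)
    with hD
  set U := (isHermitian_of_proj hP).eigenvectorUnitary
  set V := (isHermitian_of_proj hQ).eigenvectorUnitary
  have hDs : star D = D := by
    rw [hD, Matrix.star_eq_conjTranspose, Matrix.diagonal_conjTranspose]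
    congr 1
    funext i
    simp
  have hDD : D * D = D := by
    rw [hD, Matrix.diagonal_mul_diagonal]
    congr 1
    funext i
    rcases eig01 hP i with h | h <;> simp [h]
  have hU : star (U : Matrix n n ℂ) * (U : Matrix n n ℂ) = 1 := Unitary.coe_star_mul_self U
  have hV : star (V : Matrix n n ℂ) * (V : Matrix n n ℂ) = 1 := Unitary.coe_star_mul_self V
  refine ⟨(V : Matrix n n ℂ) * D * star (U : Matrix n n ℂ), ?_, ?_⟩
  · rw [hPs]
    simp only [star_mul, star_star, hDs]
    calc (U : Matrix n n ℂ) * (D * star (V : Matrix n n ℂ)) * ((V : Matrix n n ℂ) * D * star (U : Matrix n n ℂ))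
        = (U : Matrix n n ℂ) * (D * (star (V : Matrix n n ℂ) * (V : Matrix n n ℂ)) * D) *
            star (U : Matrix n n ℂ) := by simp only [mul_assoc]
      _ = _ := by rw [hV, mul_one, hDD]
  · rw [hQs]
    simp only [star_mul, star_star, hDs]
    calc (V : Matrix n n ℂ) * D * star (U : Matrix n n ℂ) * ((U : Matrix n n ℂ) * (D * star (V : Matrix n n ℂ)))
        = (V : Matrix n n ℂ) * (D * (star (U : Matrix n n ℂ) * (U : Matrix n n ℂ)) * D) *
            star (V : Matrix n n ℂ) := by simp only [mul_assoc]
      _ = _ := by rw [hU, mul_one, hDD]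

end Crest.Agent.NM
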