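import Crest.Agent.NM.Defs

/-!
# Row 120, P1: Schur's lemma for topologically irreducible ⋆-representations
-/

set_option autoImplicit false

namespace Crest.Agent.NM

open Filter Topology
open scoped InnerProductSpace

variable {A : Type} [CStarAlgebra A]
variable {H : Type} [NormedAddCommGroup H] [InnerProductSpace ℂ H] [CompleteSpace H]

private theorem P1_disj (π : A →⋆ₙₐ[ℂ] (H →L[ℂ] H)) (C : StarSubalgebra ℂ A)
    (hirr : Irr π (C : Set A)) (T : H →L[ℂ] H)
    (hT : ∀ c ∈ C, Commute T (π c)) (f g : ℝ → ℝ) (hf : Continuous f) (hg : Continuous g)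
    (hfg : ∀ x, f x * g x = 0) : cfc f T = 0 ∨ cfc g T = 0 := by
  have hmul : cfc f T * cfc g T = 0 := by
    rw [← cfc_mul f g T hf.continuousOn hg.continuousOn]
    simp only [hfg]
    exact cfc_const_zero ℝ T
  have hinv : ∀ a ∈ (C : Set A), ∀ v ∈ LinearMap.ker (cfc f T : H →L[ℂ] H).toLinearMap,
      π a v ∈ LinearMap.ker (cfc f T : H →L[ℂ] H).toLinearMap := by
    intro a ha v hv
    have hc : Commute (cfc f T) (π a) := (hT a ha).cfc_real f
    rw [LinearMap.mem_ker] at hv ⊢
    have h1 : (cfc f T * π a) v = (π a * cfc f T) v := by rw [hc.eq]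
    have h2 : (cfc f T) (π a v) = π a ((cfc f T) v) := h1
    have h3 : (cfc f T) v = 0 := hv
    change (cfc f T) (π a v) = 0
    rw [h2, h3, map_zero]
  have hcl : IsClosed ((LinearMap.ker (cfc f T : H →L[ℂ] H).toLinearMap : Submodule ℂ H) : Set H) :=
    (cfc f T : H →L[ℂ] H).isClosed_ker
  rcases hirr _ hcl hinv with h | h
  · right
    ext v
    have h1 : cfc g T v ∈ LinearMap.ker (cfc f T : H →L[ℂ] H).toLinearMap := by
      rw [LinearMap.mem_ker]
      have h2 : (cfc f T * cfc g T) v = 0 := by rw [hmul]; rfl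
      exact h2
    rw [h, Submodule.mem_bot] at h1
    rw [h1]; rfl
  · left
    ext v
    have h1 : v ∈ LinearMap.ker (cfc f T : H →L[ℂ] H).toLinearMap := by rw [h]; trivial
    rw [LinearMap.mem_ker] at h1
    exact h1

/-- self-adjoint case. PROOF: for real `m` let `P = (T - m)⁺`, `N = (T - m)⁻` (`CFC`), `P N = 0`; both commute with all `π c`
(continuous functional calculus: `Commute.cfc`, `π c` and `π (star c)` commute with `T`). `ker N` is closed and invariant,
so it is `⊥` (then `P = 0`, since `N P = 0` has `range P ⊆ ker N`) or `⊤` (then `N = 0`). So `T ≤ m` or `m ≤ T` for every real `m`. With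
`s = sInf {m | T ≤ m}`: `T ≤ s` and `s ≤ T` (e.g. through `⟪ζ, T ζ⟫`), so `T = s • 1`. -/
theorem schur_sa [Nontrivial H] (π : A →⋆ₙₐ[ℂ] (H →L[ℂ] H)) (C : StarSubalgebra ℂ A)
    (hirr : Irr π (C : Set A)) (T : H →L[ℂ] H) (hsa : IsSelfAdjoint T)
    (hT : ∀ c ∈ C, Commute T (π c)) : ∃ z : ℂ, T = z • (1 : H →L[ℂ] H) := by
  obtain ⟨x, hx⟩ : (spectrum ℝ T).Nonempty := ContinuousFunctionalCalculus.spectrum_nonempty T hsa
  have key : ∀ f : ℝ → ℝ, Continuous f → cfc f T = 0 → ∀ y ∈ spectrum ℝ T, f y = 0 := by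
    intro f hf h y hy
    have h1 := cfc_map_spectrum f T hsa hf.continuousOn
    rw [h, spectrum.zero_eq] at h1
    have h2 : f y ∈ f '' spectrum ℝ T := ⟨y, hy, rfl⟩
    rw [← h1] at h2
    simpa using h2
  have hsub : spectrum ℝ T ⊆ {x} := by
    intro y hy
    by_contra hne
    have hne' : y ≠ x := hne
    set m := (x + y) / 2 with hm
    have h1 := P1_disj π C hirr T hT (fun t => max (t - m) 0) (fun t => max (m - t) 0)
      (by fun_prop) (by fun_prop) (fun t => by
        rcases le_total t m with h | h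
        · rw [max_eq_right (by linarith), zero_mul]
        · rw [max_eq_right (a := m - t) (by linarith), mul_zero])
    rcases h1 with h1 | h1
    · have e1 := key _ (by fun_prop) h1 x hx
      have e2 := key _ (by fun_prop) h1 y hy
      simp only [max_eq_right_iff, sub_nonpos] at e1 e2
      rw [hm] at e1 e2
      apply hne'
      linarith
    · have e1 := key _ (by fun_prop) h1 x hx
      have e2 := key _ (by fun_prop) h1 y hy
      simp only [max_eq_right_iff, sub_nonpos] at e1 e2
      rw [hm] at e1 e2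
      apply hne'
      linarith
  refine ⟨(x : ℂ), ?_⟩
  have h := CFC.eq_algebraMap_of_spectrum_subset_singleton (R := ℝ) T x hsub hsa
  rw [h, Algebra.algebraMap_eq_smul_one]
  ext v
  simp

/-- general case: real and imaginary parts (`T*` commutes with `π c` because `C` is closed under star). -/
theorem schur [Nontrivial H] (π : A →⋆ₙₐ[ℂ] (H →L[ℂ] H)) (C : StarSubalgebra ℂ A)
    (hirr : Irr π (C : Set A)) (T : H →L[ℂ] H)
    (hT : ∀ c ∈ C, Commute T (π c)) : ∃ z : ℂ, T = z • (1 : H →L[ℂ] H) := by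
  have hTs : ∀ c ∈ C, Commute (star T) (π c) := by
    intro c hc
    have h1 := (hT (star c) (star_mem hc)).star_star
    rw [← map_star, star_star] at h1
    exact h1
  have hre : ∀ c ∈ C, Commute (realPart T : H →L[ℂ] H) (π c) := by
    intro c hc
    rw [realPart_apply_coe]
    exact ((hT c hc).add_left (hTs c hc)).smul_left _
  have him : ∀ c ∈ C, Commute (imaginaryPart T : H →L[ℂ] H) (π c) := by
    intro c hc
    rw [imaginaryPart_apply_coe]
    exact (((hT c hc).sub_left (hTs c hc)).smul_left _).smul_left _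
  obtain ⟨z1, h1⟩ := schur_sa π C hirr (realPart T : H →L[ℂ] H) (realPart T).2 hre
  obtain ⟨z2, h2⟩ := schur_sa π C hirr (imaginaryPart T : H →L[ℂ] H) (imaginaryPart T).2 him
  refine ⟨z1 + Complex.I * z2, ?_⟩
  have h3 := realPart_add_I_smul_imaginaryPart T
  rw [← h3, h1, h2, smul_smul, add_smul]

end Crest.Agent.NM
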