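import Crest.Agent.NM.P2a

/-!
# Row 120, P2: approximate transitivity (with control of the adjoint)
-/

set_option autoImplicit false

namespace Crest.Agent.NM

open Filter Topology
open scoped InnerProductSpace

variable {A : Type} [CStarAlgebra A]
variable {H : Type} [NormedAddCommGroup H] [InnerProductSpace ℂ H] [CompleteSpace H]

/-- PROOF: let `L` be the real subspace `{(π b ξ, π (star b) ξ) : b ∈ C}` of `H × H` with the real inner product
`re⟪,⟫ + re⟪,⟫` (`WithLp 2 (H × H)`, `InnerProductSpace.rclikeToReal`). We show `(η, 0) ∈ closure L = Lᗮᗮ`. Let `(α, β) ⊥ L`: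
`re⟪α, π b ξ⟫ + re⟪β, π b* ξ⟫ = 0` for all `b ∈ C`; with `i b` in place of `b`: `-im⟪α, π b ξ⟫ + im⟪β, π b* ξ⟫ = 0`
(`(ib)* = -i b*`). As `⟪β, π b* ξ⟫ = conj ⟪ξ, π b β⟫`, these two say `⟪α, π b ξ⟫ + ⟪ξ, π b β⟫ = 0`. By `mem_span_of_orth` `α = z ξ`, so
`re⟪α, η⟫ = 0`: `(η,0) ⊥ (α,β)`. -/
theorem density [Nontrivial H] (π : A →⋆ₙₐ[ℂ] (H →L[ℂ] H)) (C : StarSubalgebra ℂ A) (h1 : π 1 = 1)
    (hirr : Irr π (C : Set A)) {ξ η : H} (hξ : ξ ≠ 0) (h : ⟪ξ, η⟫_ℂ = 0) {δ : ℝ} (hδ : 0 < δ) :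
    ∃ b ∈ C, ‖π b ξ - η‖ < δ ∧ ‖π (star b) ξ‖ < δ := by
  classical
  let _ : InnerProductSpace ℝ (WithLp 2 (H × H)) := InnerProductSpace.complexToReal
  have hre : ∀ x y : WithLp 2 (H × H), ⟪x, y⟫_ℝ = (⟪x, y⟫_ℂ).re := fun x y => rfl
  let L : Submodule ℝ (WithLp 2 (H × H)) :=
    { carrier := {p | ∃ b ∈ C, p = WithLp.toLp 2 (π b ξ, π (star b) ξ)}
      add_mem' := by
        rintro p q ⟨b, hb, rfl⟩ ⟨c, hc, rfl⟩
        refine ⟨b + c, C.add_mem hb hc, ?_⟩
        rw [← WithLp.toLp_add]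
        congr 1
        ext <;> simp [map_add, star_add]
      zero_mem' := by
        refine ⟨0, C.zero_mem, ?_⟩
        simp only [map_zero, star_zero, ContinuousLinearMap.zero_apply]
        rfl
      smul_mem' := by
        rintro r p ⟨b, hb, rfl⟩
        refine ⟨(r : ℂ) • b, C.smul_mem hb _, ?_⟩
        have : r • (WithLp.toLp 2 (π b ξ, π (star b) ξ) : WithLp 2 (H × H)) =
            (r : ℂ) • (WithLp.toLp 2 (π b ξ, π (star b) ξ) : WithLp 2 (H × H)) := rfl
        rw [this, ← WithLp.toLp_smul]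
        congr 1
        rw [star_smul, map_smul, map_smul]
        ext
        · rfl
        · simp }
  have hmem : WithLp.toLp 2 (η, (0 : H)) ∈ L.topologicalClosure := by
    rw [← Submodule.orthogonal_orthogonal_eq_closure, Submodule.mem_orthogonal]
    intro p hp
    rw [Submodule.mem_orthogonal'] at hp
    have key : ∀ b ∈ C, (⟪p.fst, π b ξ⟫_ℂ).re + (⟪p.snd, π (star b) ξ⟫_ℂ).re = 0 := by
      intro b hb
      have := hp (WithLp.toLp 2 (π b ξ, π (star b) ξ)) ⟨b, hb, rfl⟩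
      rw [hre, WithLp.prod_inner_apply] at this
      simpa using this
    have key2 : ∀ b ∈ C, ⟪p.fst, π b ξ⟫_ℂ + ⟪ξ, π b p.snd⟫_ℂ = 0 := by
      intro b hb
      have e1 := key b hb
      have e2 := key (Complex.I • b) (C.smul_mem hb _)
      have hadj : ⟪p.snd, π (star b) ξ⟫_ℂ = starRingEnd ℂ ⟪ξ, π b p.snd⟫_ℂ := by
        rw [map_star, ContinuousLinearMap.star_eq_adjoint, ContinuousLinearMap.adjoint_inner_right,
          inner_conj_symm]
      rw [star_smul, map_smul, map_smul] at e2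
      simp only [ContinuousLinearMap.smul_apply, inner_smul_right] at e2
      rw [hadj] at e1 e2
      generalize ⟪p.fst, π b ξ⟫_ℂ = u at e1 e2 ⊢
      generalize ⟪ξ, π b p.snd⟫_ℂ = v at e1 e2 ⊢
      apply Complex.ext
      · simpa using e1
      · simp at e2 ⊢
        linarith
    obtain ⟨z, hz⟩ := mem_span_of_orth π C h1 hirr hξ key2
    rw [hre, WithLp.prod_inner_apply]
    simp [hz, inner_smul_left, h]
  obtain ⟨q, ⟨b, hb, rfl⟩, hq⟩ := Metric.mem_closure_iff.1 hmem δ hδ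
  refine ⟨b, hb, ?_, ?_⟩
  · have := (WithLp.dist_fst_le _ _).trans_lt hq
    rwa [dist_comm, dist_eq_norm] at this
  · have := (WithLp.dist_snd_le _ _).trans_lt hq
    rw [dist_comm, dist_eq_norm] at this
    simpa using this

end Crest.Agent.NM
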