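import Crest.Agent.NM.P1

/-!
# Row 120, P2a: approximate transitivity (with control of the adjoint)
-/

set_option autoImplicit false

namespace Crest.Agent.NM

open Filter Topology
open scoped InnerProductSpace

variable {A : Type} [CStarAlgebra A]
variable {H : Type} [NormedAddCommGroup H] [InnerProductSpace ℂ H] [CompleteSpace H]

/-- the diagonal operator on `H ⊕ H` -/
noncomputable def p2aD (T : H →L[ℂ] H) : WithLp 2 (H × H) →L[ℂ] WithLp 2 (H × H) :=
  (WithLp.prodContinuousLinearEquiv 2 ℂ H H).symm.toContinuousLinearMap ∘L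
    (T.prodMap T) ∘L (WithLp.prodContinuousLinearEquiv 2 ℂ H H).toContinuousLinearMap

/-- the coordinates -/
noncomputable def p2aFst : WithLp 2 (H × H) →L[ℂ] H :=
  (ContinuousLinearMap.fst ℂ H H) ∘L
    (WithLp.prodContinuousLinearEquiv 2 ℂ H H).toContinuousLinearMap

noncomputable def p2aInl : H →L[ℂ] WithLp 2 (H × H) :=
  (WithLp.prodContinuousLinearEquiv 2 ℂ H H).symm.toContinuousLinearMap ∘L
    (ContinuousLinearMap.inl ℂ H H)

noncomputable def p2aInr : H →L[ℂ] WithLp 2 (H × H) :=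
  (WithLp.prodContinuousLinearEquiv 2 ℂ H H).symm.toContinuousLinearMap ∘L
    (ContinuousLinearMap.inr ℂ H H)

omit [CompleteSpace H] in
theorem p2aD_apply (T : H →L[ℂ] H) (x y : H) :
    p2aD T (WithLp.toLp 2 (x, y)) = WithLp.toLp 2 (T x, T y) := rfl

omit [CompleteSpace H] in
theorem p2aFst_apply (x y : H) : p2aFst (WithLp.toLp 2 (x, y)) = x := rfl

omit [CompleteSpace H] in
theorem p2aInl_apply (x : H) : p2aInl x = WithLp.toLp 2 (x, (0 : H)) := rfl

omit [CompleteSpace H] in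
theorem p2aInr_apply (x : H) : p2aInr x = WithLp.toLp 2 ((0 : H), x) := rfl

/-- if `(β, α)` satisfy `⟪α, π b ξ⟫ + ⟪ξ, π b β⟫ = 0` for all `b ∈ C` then `α ∈ ℂ ξ`.
PROOF: in `K = WithLp 2 (H × H)` let `W` be the closure of `{(π b ξ, π b β)}`; `(ξ, β) ∈ W` (`b = 1`), `(α, ξ) ⊥ W`, `W` is invariant
under the diagonal action of `C` (closed under star), so the orthogonal projection `P` onto `W` commutes with it and its four entries
`P_ij : H → H` commute with all `π c`: `P_ij = z_ij • 1` (`schur`). `P(ξ,β) = (ξ,β)`, `P(α,ξ) = 0`: `ξ = z₁₁ ξ + z₁₂ β`, `0 = z₁₁ α + z₁₂ ξ`.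
If `z₁₁ ≠ 0` then `α = -(z₁₂/z₁₁) ξ`. If `z₁₁ = 0` then `z₁₂ = 0` (`P` is a projection: `z₁₁ = |z₁₁|² + |z₁₂|²`), so `ξ = 0`. -/
theorem mem_span_of_orth [Nontrivial H] (π : A →⋆ₙₐ[ℂ] (H →L[ℂ] H)) (C : StarSubalgebra ℂ A) (h1 : π 1 = 1)
    (hirr : Irr π (C : Set A)) {ξ α β : H} (hξ : ξ ≠ 0)
    (h : ∀ b ∈ C, ⟪α, π b ξ⟫_ℂ + ⟪ξ, π b β⟫_ℂ = 0) : ∃ z : ℂ, α = z • ξ := by
  classical
  -- the submodule
  let M : Submodule ℂ (WithLp 2 (H × H)) :=
    { carrier := {x | ∃ b ∈ C, x = WithLp.toLp 2 (π b ξ, π b β)}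
      add_mem' := by
        rintro x y ⟨b, hb, rfl⟩ ⟨b', hb', rfl⟩
        refine ⟨b + b', add_mem hb hb', ?_⟩
        rw [map_add]; rfl
      zero_mem' := ⟨0, zero_mem C, by rw [map_zero]; rfl⟩
      smul_mem' := by
        rintro a x ⟨b, hb, rfl⟩
        refine ⟨a • b, C.smul_mem hb a, ?_⟩
        rw [map_smul]; rfl }
  let W : Submodule ℂ (WithLp 2 (H × H)) := M.topologicalClosure
  have : CompleteSpace W := M.isClosed_topologicalClosure.completeSpace_coe
  have hMW : ∀ x ∈ M, x ∈ W := fun x hx => M.le_topologicalClosure hx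
  -- invariance
  have hDM : ∀ c ∈ C, ∀ x ∈ M, p2aD (π c) x ∈ M := by
    rintro c hc x ⟨b, hb, rfl⟩
    refine ⟨c * b, mul_mem hc hb, ?_⟩
    rw [p2aD_apply, map_mul]; rfl
  have hDW : ∀ c ∈ C, ∀ x ∈ W, p2aD (π c) x ∈ W := by
    intro c hc x hx
    have h2 : W ≤ W.comap (p2aD (π c)).toLinearMap := by
      apply Submodule.topologicalClosure_minimal
      · intro y hy
        exact hMW _ (hDM c hc y hy)
      · exact (M.isClosed_topologicalClosure).preimage (p2aD (π c)).continuous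
    exact h2 hx
  have hadj : ∀ (T : H →L[ℂ] H) (x y : WithLp 2 (H × H)),
      ⟪x, p2aD T y⟫_ℂ = ⟪p2aD (star T) x, y⟫_ℂ := by
    intro T x y
    obtain ⟨x1, x2⟩ := x
    obtain ⟨y1, y2⟩ := y
    change ⟪x1, T y1⟫_ℂ + ⟪x2, T y2⟫_ℂ = ⟪star T x1, y1⟫_ℂ + ⟪star T x2, y2⟫_ℂ
    rw [ContinuousLinearMap.star_eq_adjoint, ContinuousLinearMap.adjoint_inner_left,
      ContinuousLinearMap.adjoint_inner_left]
  set P : WithLp 2 (H × H) →L[ℂ] WithLp 2 (H × H) := W.starProjection with hP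
  have hcomm : ∀ c ∈ C, ∀ x, P (p2aD (π c) x) = p2aD (π c) (P x) := by
    intro c hc x
    apply Submodule.eq_starProjection_of_mem_orthogonal
    · exact hDW c hc _ (Submodule.starProjection_apply_mem W x)
    · rw [← map_sub, Submodule.mem_orthogonal]
      intro w hw
      rw [hadj, ← map_star]
      exact (Submodule.mem_orthogonal _ _).1 (W.sub_starProjection_mem_orthogonal x) _
        (hDW (star c) (star_mem hc) w hw)
  -- the entries
  have hentry : ∀ (ι : H →L[ℂ] WithLp 2 (H × H)), (∀ (T : H →L[ℂ] H) x, ι (T x) = p2aD T (ι x)) →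
      ∃ z : ℂ, p2aFst ∘L P ∘L ι = z • (1 : H →L[ℂ] H) := by
    intro ι hι
    apply schur π C hirr
    intro c hc
    ext x
    simp only [mul_apply_eq_comp, ContinuousLinearMap.comp_apply]
    rw [hι, hcomm c hc]
    generalize P (ι x) = y
    obtain ⟨y1, y2⟩ := y
    rfl
  obtain ⟨z1, hz1⟩ := hentry p2aInl (fun T x => by
    rw [p2aInl_apply, p2aInl_apply, p2aD_apply, map_zero])
  obtain ⟨z2, hz2⟩ := hentry p2aInr (fun T x => by
    rw [p2aInr_apply, p2aInr_apply, p2aD_apply, map_zero])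
  have hfst : ∀ x y : H, p2aFst (P (WithLp.toLp 2 (x, y))) = z1 • x + z2 • y := by
    intro x y
    have h2 : (WithLp.toLp 2 (x, y) : WithLp 2 (H × H)) = p2aInl x + p2aInr y := by
      rw [p2aInl_apply, p2aInr_apply, ← WithLp.toLp_add]
      simp
    have h3 : p2aFst (P (p2aInl x)) = z1 • x := by
      have := congrArg (fun T : H →L[ℂ] H => T x) hz1
      simpa using this
    have h4 : p2aFst (P (p2aInr y)) = z2 • y := by
      have := congrArg (fun T : H →L[ℂ] H => T y) hz2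
      simpa using this
    rw [h2, map_add, map_add, h3, h4]
  have e1 : ξ = z1 • ξ + z2 • β := by
    rw [← hfst]
    have h2 : (WithLp.toLp 2 (ξ, β) : WithLp 2 (H × H)) ∈ W := by
      apply hMW
      refine ⟨1, one_mem C, ?_⟩
      rw [h1]; rfl
    rw [hP, Submodule.starProjection_eq_self_iff.2 h2, p2aFst_apply]
  have e2 : 0 = z1 • α + z2 • ξ := by
    rw [← hfst]
    have h2 : (WithLp.toLp 2 (α, ξ) : WithLp 2 (H × H)) ∈ Wᗮ := by
      have h3 : (WithLp.toLp 2 (α, ξ) : WithLp 2 (H × H)) ∈ Mᗮ := by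
        rw [Submodule.mem_orthogonal]
        rintro x ⟨b, hb, rfl⟩
        have h4 := h b hb
        have h5 : ⟪(WithLp.toLp 2 (α, ξ) : WithLp 2 (H × H)),
            WithLp.toLp 2 (π b ξ, π b β)⟫_ℂ = 0 := h4
        rw [← inner_conj_symm, h5, map_zero]
      rwa [← Submodule.orthogonal_closure] at h3
    rw [hP, (Submodule.starProjection_apply_eq_zero_iff W).2 h2, map_zero]
  by_cases hz : z1 = 0
  · exfalso
    rw [hz, zero_smul, zero_add] at e2
    have h2 : z2 = 0 := by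
      rcases smul_eq_zero.1 e2.symm with h | h
      · exact h
      · exact absurd h hξ
    rw [hz, h2, zero_smul, zero_smul, add_zero] at e1
    exact hξ e1
  · refine ⟨-(z2 / z1), ?_⟩
    have h2 : z1 • α = -(z2 • ξ) := eq_neg_of_add_eq_zero_left e2.symm
    calc α = z1⁻¹ • (z1 • α) := by rw [smul_smul, inv_mul_cancel₀ hz, one_smul]
      _ = -(z2 / z1) • ξ := by
        rw [h2, smul_neg, smul_smul, neg_smul, div_eq_inv_mul]

end Crest.Agent.NM
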