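import Crest.Agent.NM.P3a

/-!
# Row 120, P3: the algebraic cut
-/

set_option autoImplicit false

namespace Crest.Agent.NM

open Filter Topology
open scoped ComplexOrder

variable {A : Type} [CStarAlgebra A]

private theorem P3_sq {k : ℕ} (N : Mt k) : (star N * N).PosSemidef := by
  rw [Matrix.star_eq_conjTranspose]
  exact Matrix.posSemidef_conjTranspose_mul_self N

private theorem P3_sq' {k : ℕ} (N : Mt k) : (N * star N).PosSemidef := by
  have := P3_sq (star N)
  rwa [star_star] at this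

private theorem P3_smul {k : ℕ} {M : Mt k} (hM : M.PosSemidef) {a : ℝ} (ha : 0 ≤ a) :
    ((a : ℂ) • M).PosSemidef := hM.smul (by exact_mod_cast ha)

private theorem P3_proj {k : ℕ} {P : Mt k} (hP : IsStarProjection P) : P.PosSemidef := by
  have := P3_sq P
  rwa [hP.isSelfAdjoint.star_eq, hP.isIdempotentElem.eq] at this

open scoped MatrixOrder in
private theorem P3_factor {k : ℕ} {M : Mt k} (hM : M.PosSemidef) : ∃ N : Mt k, M = star N * N := by
  obtain ⟨N, hN⟩ := CStarAlgebra.nonneg_iff_eq_star_mul_self.mp hM.nonneg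
  exact ⟨N, hN⟩

/-- one summand plus `σ Y` -/
private theorem P3_one {k : ℕ} {G Y B : Mt k} (hG : IsStarProjection G)
    (hY : star Y = Y) (gy : G * Y = Y) (gb : G * B = B) (bg : B * G = B) {t : ℝ} (ht : 0 < t)
    (s : ℝ) (hs : s * s = 1) :
    (((t : ℂ)⁻¹ • (B * star B) + (t : ℂ)⁻¹ • ((Y - B - star B) * (Y - B - star B)) +
      (2 * (t : ℂ)) • G) + (s : ℂ) • Y).PosSemidef := by
  have gg : G * G = G := hG.isIdempotentElem.eq
  have gs : star G = G := hG.isSelfAdjoint.star_eq
  have yg : Y * G = Y := by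
    have := congrArg star gy
    rwa [star_mul, hY, gs] at this
  have gbs : G * star B = star B := by
    have := congrArg star bg
    rwa [star_mul, gs] at this
  have bsg : star B * G = star B := by
    have := congrArg star gb
    rwa [star_mul, gs] at this
  set R : Mt k := Y - B - star B with hR
  have Rs : star R = R := by
    rw [hR, star_sub, star_sub, star_star, hY]
    abel
  have gR : G * R = R := by
    rw [hR, mul_sub, mul_sub, gy, gb, gbs]
  have Rg : R * G = R := by
    rw [hR, sub_mul, sub_mul, yg, bg, bsg]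
  have tc : (t : ℂ) ≠ 0 := by exact_mod_cast ht.ne'
  have sc : (s : ℂ) * s = 1 := by exact_mod_cast hs
  have p1 := P3_smul (P3_sq (star B + ((s * t : ℝ) : ℂ) • G)) (inv_pos.2 ht).le
  have p2 := P3_smul (P3_sq (R + ((s * t / 2 : ℝ) : ℂ) • G)) (inv_pos.2 ht).le
  have p3 := P3_smul (P3_proj hG) (show 0 ≤ 3 / 4 * t by positivity)
  have e1 : star (star B + ((s * t : ℝ) : ℂ) • G) * (star B + ((s * t : ℝ) : ℂ) • G) =
      B * star B + ((s : ℂ) * t) • (B + star B) + ((t : ℂ) * t) • G := by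
    rw [star_add, star_star, star_smul, gs]
    simp only [Complex.star_def, Complex.conj_ofReal, add_mul, mul_add, smul_mul_assoc,
      mul_smul_comm, bg, gbs, gg, smul_smul, smul_add]
    have : ((s * t : ℝ) : ℂ) * ((s * t : ℝ) : ℂ) = (t : ℂ) * t := by
      push_cast
      linear_combination (t : ℂ) * t * sc
    rw [this]
    push_cast
    abel
  have e2 : star (R + ((s * t / 2 : ℝ) : ℂ) • G) * (R + ((s * t / 2 : ℝ) : ℂ) • G) =
      R * R + ((s : ℂ) * t) • R + ((t : ℂ) * t / 4) • G := by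
    rw [star_add, Rs, star_smul, gs]
    simp only [Complex.star_def, Complex.conj_ofReal, add_mul, mul_add, smul_mul_assoc,
      mul_smul_comm, Rg, gR, gg, smul_smul, smul_add]
    have h1 : ((s * t / 2 : ℝ) : ℂ) * ((s * t / 2 : ℝ) : ℂ) = (t : ℂ) * t / 4 := by
      push_cast
      linear_combination (t : ℂ) * t / 4 * sc
    have h2 : ((s : ℂ) * t) • R = ((s * t / 2 : ℝ) : ℂ) • R + ((s * t / 2 : ℝ) : ℂ) • R := by
      rw [← add_smul]
      congr 1
      push_cast
      ring
    rw [h1, h2]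
    abel
  have hsum := (p1.add p2).add p3
  rw [e1, e2] at hsum
  convert hsum using 1
  have hYR : Y = R + (B + star B) := by rw [hR]; abel
  have r1 : ((t⁻¹ : ℝ) : ℂ) = (t : ℂ)⁻¹ := by push_cast; rfl
  rw [r1]
  simp only [smul_add, smul_smul]
  have c1 : (t : ℂ)⁻¹ * ((s : ℂ) * t) = s := by field_simp
  have c2 : (t : ℂ)⁻¹ * ((t : ℂ) * t) = t := by field_simp
  have c3 : (t : ℂ)⁻¹ * ((t : ℂ) * t / 4) = t / 4 := by field_simp
  rw [c1, c2, c3]
  have hG2 : (2 * (t : ℂ)) • G = (t : ℂ) • G + ((t : ℂ) / 4) • G + ((3 / 4 * t : ℝ) : ℂ) • G := by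
    rw [← add_smul, ← add_smul]
    congr 1
    push_cast
    ring
  have hsY : (s : ℂ) • Y = (s : ℂ) • R + ((s : ℂ) • B + (s : ℂ) • star B) := by
    conv_lhs => rw [hYR]
    rw [smul_add, smul_add]
  rw [hG2, hsY]
  abel

/-- ALGEBRAIC CUT. -/
theorem cutC (S : Sys A) [Nontrivial A] {p : A} (hp : p ∈ S.C) (hpp : IsStarProjection p) {m : ℕ}
    (y b : Fin m → A) (hy : ∀ l, y l ∈ S.C) (hb : ∀ l, b l ∈ S.C) (ysa : ∀ l, IsSelfAdjoint (y l))
    (py : ∀ l, p * y l = y l) (pb : ∀ l, p * b l = b l) (bp : ∀ l, b l * p = b l)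
    {t δ : ℝ} (ht : 0 < t) (hδ : 0 < δ) :
    ∃ p' ∈ S.C, IsStarProjection p' ∧ p * p' = p' ∧ (∀ l, ‖p' * y l * p'‖ ≤ δ) ∧
      ∃ x : A, (∑ l, ((t⁻¹ : ℂ) • (b l * star (b l)) +
        (t⁻¹ : ℂ) • ((y l - b l - star (b l)) * (y l - b l - star (b l))) + (2 * t : ℂ) • p)) -
          (δ : ℂ) • (p - p') = star x * x := by
  -- common level
  obtain ⟨k1, G1, hG1⟩ := hp
  obtain ⟨k2, hk2, Y2, hY2⟩ := S.common y hy k1
  obtain ⟨K, hK, B, hB⟩ := S.common b hb k2
  obtain ⟨G, hG⟩ := S.lift (hk2.trans hK) G1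
  choose Y hY using fun l => S.lift hK (Y2 l)
  rw [hG1] at hG
  have hY' : ∀ l, S.ρ K (Y l) = y l := fun l => by rw [hY, hY2]
  have inj := S.inj K
  have Gpr : IsStarProjection G := by
    constructor
    · show G * G = G
      apply inj
      rw [map_mul, hG, hpp.isIdempotentElem.eq]
    · show star G = G
      apply inj
      rw [map_star, hG, hpp.isSelfAdjoint.star_eq]
  have Ys : ∀ l, star (Y l) = Y l := fun l => inj (by rw [map_star, hY', (ysa l).star_eq])
  have GY : ∀ l, G * Y l = Y l := fun l => inj (by rw [map_mul, hG, hY', py])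
  have GB : ∀ l, G * B l = B l := fun l => inj (by rw [map_mul, hG, hB, pb])
  have BG : ∀ l, B l * G = B l := fun l => inj (by rw [map_mul, hG, hB, bp])
  have gg : G * G = G := Gpr.isIdempotentElem.eq
  have gs : star G = G := Gpr.isSelfAdjoint.star_eq
  set T : Fin m → Mt K := fun l => (t : ℂ)⁻¹ • (B l * star (B l)) +
    (t : ℂ)⁻¹ • ((Y l - B l - star (B l)) * (Y l - B l - star (B l))) + (2 * (t : ℂ)) • G with hT
  have ti : ((t⁻¹ : ℝ) : ℂ) = (t : ℂ)⁻¹ := by push_cast; rfl
  have hTp : ∀ l, (T l).PosSemidef := by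
    intro l
    have Rs : star (Y l - B l - star (B l)) = Y l - B l - star (B l) := by
      rw [star_sub, star_sub, star_star, Ys]
      abel
    have p1 := P3_smul (P3_sq' (B l)) (inv_pos.2 ht).le
    have p2 := P3_smul (P3_sq (Y l - B l - star (B l))) (inv_pos.2 ht).le
    have p3 := P3_smul (P3_proj Gpr) (show 0 ≤ 2 * t by positivity)
    rw [Rs] at p2
    rw [ti] at p1 p2
    have e3 : ((2 * t : ℝ) : ℂ) = 2 * (t : ℂ) := by push_cast; rfl
    rw [e3] at p3
    exact (p1.add p2).add p3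
  set Z : Mt K := ∑ l, T l with hZ
  have hZp : Z.PosSemidef := Matrix.posSemidef_sum _ fun l _ => hTp l
  have hGZ : G * Z = Z := by
    rw [hZ, Finset.mul_sum]
    refine Finset.sum_congr rfl fun l _ => ?_
    have gbs : G * star (B l) = star (B l) := by
      have := congrArg star (BG l)
      rwa [star_mul, gs] at this
    have gR : G * (Y l - B l - star (B l)) = Y l - B l - star (B l) := by
      rw [mul_sub, mul_sub, GY, GB, gbs]
    simp only [hT, mul_add, mul_smul_comm]
    rw [← mul_assoc, GB, ← mul_assoc, gR, gg]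
  obtain ⟨P, hP, hGP, hP1, hP2⟩ := cut' Z G hZp Gpr hGZ δ hδ
  have Ps : star P = P := hP.isSelfAdjoint.star_eq
  have PP : P * P = P := hP.isIdempotentElem.eq
  -- `Z ± Y_l` is PSD
  have hZY : ∀ l (s : ℝ), s * s = 1 → (Z + (s : ℂ) • Y l).PosSemidef := by
    intro l s hs
    have h1 := P3_one Gpr (Ys l) (GY l) (GB l) (BG l) ht s hs
    have h2 : (∑ l' ∈ Finset.univ.erase l, T l').PosSemidef :=
      Matrix.posSemidef_sum _ fun l' _ => hTp l'
    have h3 : Z = T l + ∑ l' ∈ Finset.univ.erase l, T l' :=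
      (Finset.add_sum_erase _ _ (Finset.mem_univ l)).symm
    rw [h3, add_right_comm]
    exact h1.add h2
  have hPY : ∀ l (s : ℝ), s * s = 1 →
      ((δ : ℂ) • (1 : Mt K) + (s : ℂ) • (P * Y l * P)).PosSemidef := by
    intro l s hs
    have h1 : (star P * (Z + (s : ℂ) • Y l) * P).PosSemidef := by
      rw [Matrix.star_eq_conjTranspose]
      exact (hZY l s hs).conjTranspose_mul_mul_same P
    rw [Ps] at h1
    have h2 : IsStarProjection (1 - P) := hP.one_sub
    have h3 := P3_smul (P3_proj h2) hδ.le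
    convert (h3.add hP2).add h1 using 1
    simp only [mul_add, add_mul, mul_smul_comm, smul_mul_assoc, smul_sub]
    abel
  refine ⟨S.ρ K P, S.ρ_mem K P, ?_, ?_, ?_, ?_⟩
  · constructor
    · show S.ρ K P * S.ρ K P = S.ρ K P
      rw [← map_mul, PP]
    · show star (S.ρ K P) = S.ρ K P
      rw [← map_star, Ps]
  · rw [← hG, ← map_mul, hGP]
  · intro l
    have e1 : S.ρ K P * y l * S.ρ K P = S.ρ K (P * Y l * P) := by
      rw [map_mul, map_mul, hY']
    rw [e1]
    refine norm_le_of_psd S _ hδ.le ?_ ?_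
    · have := hPY l (-1) (by norm_num)
      simpa [sub_eq_add_neg] using this
    · have := hPY l 1 (by norm_num)
      simpa using this
  · obtain ⟨N, hN⟩ := P3_factor hP1
    refine ⟨S.ρ K N, ?_⟩
    rw [← map_star, ← map_mul, ← hN, map_sub, map_smul, map_sub,
      hG, hZ, map_sum]
    congr 1
    refine Finset.sum_congr rfl fun l _ => ?_
    simp only [hT, map_add, map_smul, map_mul, map_sub, map_star, hB, hY', hG]

end Crest.Agent.NM
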