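import Crest.Agent.NM.MA1
import Crest.Agent.NM.MA3

/-!
# Row 120, P3a: norm bound from positivity
-/

set_option autoImplicit false

namespace Crest.Agent.NM

open Filter Topology
open scoped ComplexOrder

variable {A : Type} [CStarAlgebra A]

private theorem psd_factor {n : Type} [Fintype n] [DecidableEq n] (X : Matrix n n ℂ)
    (hX : X.PosSemidef) : ∃ N : Matrix n n ℂ, X = star N * N := by
  obtain ⟨φ, l, hl, hXφ, _⟩ := exists_diag X hX
  refine ⟨φ (Matrix.diagonal fun i => ((Real.sqrt (l i) : ℝ) : ℂ)), ?_⟩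
  rw [← map_star, ← map_mul, Matrix.star_eq_conjTranspose, Matrix.diagonal_conjTranspose,
    Matrix.diagonal_mul_diagonal]
  refine hXφ.trans ?_
  congr 2
  funext i
  rw [Pi.star_apply, RCLike.star_def, Complex.conj_ofReal, ← Complex.ofReal_mul,
    Real.mul_self_sqrt (hl i)]

/-- norm bound from positive semidefiniteness in the matrix algebra: `-δ ≤ M ≤ δ`. PROOF: `⋆`-homomorphisms are monotone:
in `A` with the spectral order (`CStarAlgebra.spectralOrder`, `spectralOrderedRing` as local instances) `-δ ≤ ρ M ≤ δ`, so `‖ρ M‖ ≤ δ`. Or: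
`δ² - M² = (δ-M)(δ+M)` is PSD (commuting), `= N* N`, so `δ² - (ρ M)² ≥ 0`, `‖ρ M‖² ≤ δ²`. -/
theorem norm_le_of_psd (S : Sys A) {k : ℕ} (M : Mt k) {δ : ℝ} (hδ : 0 ≤ δ)
    (h1 : ((δ : ℂ) • (1 : Mt k) - M).PosSemidef) (h2 : ((δ : ℂ) • (1 : Mt k) + M).PosSemidef) :
    ‖S.ρ k M‖ ≤ δ := by
  let _ : PartialOrder A := CStarAlgebra.spectralOrder A
  have _ : StarOrderedRing A := CStarAlgebra.spectralOrderedRing A
  obtain ⟨N1, hN1⟩ := psd_factor _ h1
  obtain ⟨N2, hN2⟩ := psd_factor _ h2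
  set a := S.ρ k M with ha
  have e0 : algebraMap ℝ A δ = S.ρ k ((δ : ℂ) • (1 : Mt k)) := by
    rw [map_smul, map_one, Algebra.algebraMap_eq_smul_one]
    exact (RCLike.real_smul_eq_coe_smul (K := ℂ) δ (1 : A))
  have e1 : 0 ≤ algebraMap ℝ A δ - a := by
    rw [e0, ha, ← map_sub, hN1, map_mul, map_star]
    exact star_mul_self_nonneg _
  have e2 : 0 ≤ algebraMap ℝ A δ + a := by
    rw [e0, ha, ← map_add, hN2, map_mul, map_star]
    exact star_mul_self_nonneg _
  have hsa : IsSelfAdjoint a := by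
    have h3 : IsSelfAdjoint (algebraMap ℝ A δ - a) := .of_nonneg e1
    have h4 : IsSelfAdjoint (algebraMap ℝ A δ) := by
      rw [Algebra.algebraMap_eq_smul_one]
      exact (IsSelfAdjoint.all δ).smul (IsSelfAdjoint.one A)
    have := h4.sub h3
    rwa [sub_sub_cancel] at this
  have e3 : a ≤ algebraMap ℝ A δ := sub_nonneg.1 e1
  have e4 : algebraMap ℝ A (-δ) ≤ a := by
    rw [map_neg, neg_le_iff_add_nonneg, add_comm]
    exact e2
  rcases subsingleton_or_nontrivial A with h | h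
  · rw [Subsingleton.elim a 0, norm_zero]; exact hδ
  · rcases CStarAlgebra.norm_or_neg_norm_mem_spectrum hsa with h5 | h5
    · exact (le_algebraMap_iff_spectrum_le hsa).1 e3 _ h5
    · have := (algebraMap_le_iff_le_spectrum hsa).1 e4 _ h5
      linarith

end Crest.Agent.NM
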