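import Crest.Agent.NM.P4a

/-!
# Row 120, P4: the step of Lemma P
-/

set_option autoImplicit false

namespace Crest.Agent.NM

open Filter Topology
open scoped InnerProductSpace

variable {A : Type} [CStarAlgebra A]
variable {H : Type} [NormedAddCommGroup H] [InnerProductSpace ℂ H] [CompleteSpace H]

/-- STEP for a whole matrix algebra: apply `step_sa` (with `ε/2`) to the `2·4^k` self-adjoint elements `(e_ij + e_ji)/2`,
`(e_ij - e_ji)/(2i)`, of which the `e_ij` are combinations `h + i h'`; then linear combinations. -/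
theorem step [Nontrivial H] (S : Sys A) (π : A →⋆ₙₐ[ℂ] (H →L[ℂ] H)) (h1 : π 1 = 1)
    (hirr : Irr π (S.C : Set A)) {p : A} (hp : p ∈ S.C) (hpp : IsStarProjection p) {ξ : H} (hξ : ‖ξ‖ = 1)
    (hpξ : π p ξ = ξ) (k : ℕ) {ε : ℝ} (hε : 0 < ε) :
    ∃ p' ∈ S.C, IsStarProjection p' ∧ p * p' = p' ∧ (∃ ξ' : H, ‖ξ'‖ = 1 ∧ π p' ξ' = ξ' ∧ ‖ξ' - ξ‖ ≤ ε) ∧
      ∀ a : Mt k, ∃ r : ℂ, ‖p' * S.ρ k a * p' - r • p'‖ ≤ ε * ∑ i, ∑ j, ‖a i j‖ := by
  classical
  let T : Type := (Fin (2 ^ k) × Fin (2 ^ k)) × Bool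
  let u : Fin (2 ^ k) → Fin (2 ^ k) → A := fun i j => S.ρ k (Matrix.single i j 1)
  have hu : ∀ i j, star (u i j) = u j i := by
    intro i j
    change star (S.ρ k (Matrix.single i j 1)) = S.ρ k (Matrix.single j i 1)
    rw [← map_star, Matrix.star_eq_conjTranspose, Matrix.conjTranspose_single, star_one]
  let C : T → A := fun x => if x.2 then (2 : ℂ)⁻¹ • (u x.1.1 x.1.2 + u x.1.2 x.1.1)
    else (-(Complex.I) * (2 : ℂ)⁻¹) • (u x.1.1 x.1.2 - u x.1.2 x.1.1)
  have hCm : ∀ x, C x ∈ S.C := by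
    rintro ⟨⟨i, j⟩, b⟩
    cases b
    · exact S.C.smul_mem (S.C.sub_mem (S.ρ_mem k _) (S.ρ_mem k _)) _
    · exact S.C.smul_mem (S.C.add_mem (S.ρ_mem k _) (S.ρ_mem k _)) _
  have hCs : ∀ x, IsSelfAdjoint (C x) := by
    rintro ⟨⟨i, j⟩, b⟩
    cases b
    · change star ((-(Complex.I) * (2 : ℂ)⁻¹) • (u i j - u j i)) = (-(Complex.I) * (2 : ℂ)⁻¹) • (u i j - u j i)
      rw [star_smul, star_sub, hu, hu]
      have : star (-(Complex.I) * (2 : ℂ)⁻¹) = Complex.I * (2 : ℂ)⁻¹ := by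
        simp
      rw [this, neg_mul, neg_smul, ← smul_neg, neg_sub]
    · change star ((2 : ℂ)⁻¹ • (u i j + u j i)) = (2 : ℂ)⁻¹ • (u i j + u j i)
      rw [star_smul, star_add, hu, hu]
      have : star ((2 : ℂ)⁻¹) = (2 : ℂ)⁻¹ := by simp
      rw [this, add_comm]
  let e := Fintype.equivFin T
  obtain ⟨p', hp', hpp', hm, ⟨ξ', h1', h2', h3'⟩, hs⟩ :=
    step_sa S π h1 hirr hp hpp hξ hpξ (fun l => C (e.symm l)) (fun l => hCm _) (fun l => hCs _)
      (half_pos hε)
  refine ⟨p', hp', hpp', hm, ⟨ξ', h1', h2', h3'.trans (by linarith)⟩, fun a => ?_⟩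
  have hs' : ∀ x : T, ∃ r : ℂ, ‖p' * C x * p' - r • p'‖ ≤ ε / 2 := by
    intro x
    have := hs (e x)
    simpa using this
  choose r hr using hs'
  have hsum : S.ρ k a = ∑ i, ∑ j, a i j • (C ((i, j), true) + Complex.I • C ((i, j), false)) := by
    conv_lhs => rw [Matrix.matrix_eq_sum_single a]
    rw [map_sum]
    refine Finset.sum_congr rfl fun i _ => ?_
    rw [map_sum]
    refine Finset.sum_congr rfl fun j _ => ?_
    have e1 : Matrix.single i j (a i j) = a i j • (Matrix.single i j (1 : ℂ)) := by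
      rw [Matrix.smul_single, smul_eq_mul, mul_one]
    rw [e1, map_smul]
    congr 1
    change u i j = (2 : ℂ)⁻¹ • (u i j + u j i) + Complex.I • ((-(Complex.I) * (2 : ℂ)⁻¹) • (u i j - u j i))
    rw [smul_smul]
    have : Complex.I * (-(Complex.I) * (2 : ℂ)⁻¹) = (2 : ℂ)⁻¹ := by
      rw [← mul_assoc, mul_neg, Complex.I_mul_I]; ring
    rw [this, ← smul_add]
    have e2 : u i j + u j i + (u i j - u j i) = (2 : ℂ) • u i j := by
      rw [two_smul]; abel
    rw [e2, smul_smul]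
    norm_num
  refine ⟨∑ i, ∑ j, a i j * (r ((i, j), true) + Complex.I * r ((i, j), false)), ?_⟩
  have hexp : p' * S.ρ k a * p' -
      (∑ i, ∑ j, a i j * (r ((i, j), true) + Complex.I * r ((i, j), false))) • p' =
      ∑ i, ∑ j, a i j • ((p' * C ((i, j), true) * p' - r ((i, j), true) • p') +
        Complex.I • (p' * C ((i, j), false) * p' - r ((i, j), false) • p')) := by
    rw [hsum]
    simp only [Finset.mul_sum, Finset.sum_mul, Finset.sum_smul]
    rw [← Finset.sum_sub_distrib]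
    refine Finset.sum_congr rfl fun i _ => ?_
    rw [← Finset.sum_sub_distrib]
    refine Finset.sum_congr rfl fun j _ => ?_
    simp only [mul_smul_comm, smul_mul_assoc, mul_add, add_mul, smul_add, smul_sub, add_smul,
      smul_smul, mul_assoc]
    module
  rw [hexp, Finset.mul_sum]
  refine (norm_sum_le _ _).trans (Finset.sum_le_sum fun i _ => ?_)
  rw [Finset.mul_sum]
  refine (norm_sum_le _ _).trans (Finset.sum_le_sum fun j _ => ?_)
  rw [norm_smul, mul_comm ε]
  refine mul_le_mul_of_nonneg_left ?_ (norm_nonneg _)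
  refine (norm_add_le _ _).trans ?_
  rw [norm_smul, Complex.norm_I, one_mul]
  have := hr ((i, j), true)
  have := hr ((i, j), false)
  linarith

end Crest.Agent.NM
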