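import Crest.Agent.NM.P2
import Crest.Agent.NM.P3

/-!
# Row 120, P4a: the step of Lemma P
-/

set_option autoImplicit false

namespace Crest.Agent.NM

open Filter Topology
open scoped InnerProductSpace

variable {A : Type} [CStarAlgebra A]
variable {H : Type} [NormedAddCommGroup H] [InnerProductSpace ℂ H] [CompleteSpace H]

private theorem P4a_adj (π : A →⋆ₙₐ[ℂ] (H →L[ℂ] H)) (a : A) (u v : H) :
    ⟪u, π a v⟫_ℂ = ⟪π (star a) u, v⟫_ℂ := by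
  rw [map_star, ContinuousLinearMap.star_eq_adjoint, ContinuousLinearMap.adjoint_inner_left]

private theorem P4a_mul (π : A →⋆ₙₐ[ℂ] (H →L[ℂ] H)) (a b : A) (v : H) :
    π (a * b) v = π a (π b v) := by
  rw [map_mul]; rfl

private theorem P4a_proj (π : A →⋆ₙₐ[ℂ] (H →L[ℂ] H)) {p : A} (hp : IsStarProjection p) (v : H) :
    ‖π p v‖ ≤ ‖v‖ := by
  have h1 : IsStarProjection (π p) := hp.map π
  have h2 : ‖π p‖ ≤ 1 := h1.norm_le
  calc ‖π p v‖ ≤ ‖π p‖ * ‖v‖ := (π p).le_opNorm v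
    _ ≤ 1 * ‖v‖ := by gcongr
    _ = ‖v‖ := one_mul _

/-- `re⟪ξ, π (x* x) ξ⟫ = ‖π x ξ‖²` -/
private theorem P4a_sq (π : A →⋆ₙₐ[ℂ] (H →L[ℂ] H)) (x : A) (v : H) :
    (⟪v, π (star x * x) v⟫_ℂ).re = ‖π x v‖ ^ 2 := by
  rw [P4a_mul, P4a_adj, star_star]
  have h := inner_self_eq_norm_sq (𝕜 := ℂ) (π x v)
  simpa using h

private theorem P4a_dist (π : A →⋆ₙₐ[ℂ] (H →L[ℂ] H)) {p' : A} (hp' : IsStarProjection p') {ξ : H}
    (hξ : ‖ξ‖ = 1) : ‖ξ - π p' ξ‖ ^ 2 = 1 - (⟪ξ, π p' ξ⟫_ℂ).re := by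
  have h1 : star p' * p' = p' := by
    rw [hp'.isSelfAdjoint.star_eq, hp'.isIdempotentElem.eq]
  have h2 : ‖π p' ξ‖ ^ 2 = (⟪ξ, π p' ξ⟫_ℂ).re := by
    rw [← P4a_sq, h1]
  have h3 := norm_sub_sq (𝕜 := ℂ) ξ (π p' ξ)
  rw [h3, h2, hξ]
  simp only [RCLike.re_to_complex]
  ring

/-- STEP for finitely many self-adjoint elements.
PROOF: `ψ_l = re⟪ξ, π c_l ξ⟫ = ⟪ξ, π c_l ξ⟫`, `y_l = p (c_l - ψ_l) p`: self-adjoint, in the corner, `⟪ξ, π y_l ξ⟫ = 0`. `density` with `η = π y_l ξ` and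
a small `t > 0`: `b'_l ∈ S.C`, `‖π b'_l ξ - π y_l ξ‖ < t`, `‖π b'_l* ξ‖ < t`; `b_l = p b'_l p`: the same bounds (`π p ξ = ξ`, `‖π p‖ ≤ 1`). `r_l ξ` has norm
`≤ 2t`. `cutC` with these and `δ` = small: `⟪ξ, π z ξ⟫ = Σ_l (t⁻¹‖b_l*ξ‖² + t⁻¹‖r_l ξ‖² + 2t) ≤ 7 m t`, so `δ ‖ξ - π p' ξ‖² = δ ⟪ξ, π(p-p')ξ⟫ ≤ 7 m t`. Choose
`δ ≤ ε` first, then `t` with `7 m t / δ ≤ (ε/4)²`, `ε ≤ 1` wlog. `ξ' = π p' ξ/‖π p' ξ‖`: `‖ξ' - ξ‖ ≤ 2 ‖π p' ξ - ξ‖`. `p' c_l p' - ψ_l p' = p' y_l p'` as `p' p = p'`. -/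
theorem step_sa [Nontrivial H] (S : Sys A) (π : A →⋆ₙₐ[ℂ] (H →L[ℂ] H)) (h1 : π 1 = 1)
    (hirr : Irr π (S.C : Set A)) {p : A} (hp : p ∈ S.C) (hpp : IsStarProjection p) {ξ : H} (hξ : ‖ξ‖ = 1)
    (hpξ : π p ξ = ξ) {m : ℕ} (c : Fin m → A) (hc : ∀ l, c l ∈ S.C) (hsa : ∀ l, IsSelfAdjoint (c l))
    {ε : ℝ} (hε : 0 < ε) :
    ∃ p' ∈ S.C, IsStarProjection p' ∧ p * p' = p' ∧ (∃ ξ' : H, ‖ξ'‖ = 1 ∧ π p' ξ' = ξ' ∧ ‖ξ' - ξ‖ ≤ ε) ∧
      ∀ l, ∃ r : ℂ, ‖p' * c l * p' - r • p'‖ ≤ ε := by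
  haveI : Nontrivial A := by
    rcases subsingleton_or_nontrivial A with h | h
    · exfalso
      have h2 : (1 : A) = 0 := Subsingleton.elim _ _
      rw [h2, map_zero] at h1
      have h3 : ξ = 0 := by
        have := congrArg (fun T : H →L[ℂ] H => T ξ) h1
        simpa using this.symm
      rw [h3, norm_zero] at hξ
      exact zero_ne_one hξ
    · exact h
  have hξ0 : ξ ≠ 0 := by
    intro h
    rw [h, norm_zero] at hξ
    exact zero_ne_one hξ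
  have hpsa : star p = p := hpp.isSelfAdjoint.star_eq
  have hpid : p * p = p := hpp.isIdempotentElem.eq
  set e : ℝ := min ε 1 with he
  have he0 : 0 < e := lt_min hε one_pos
  have heε : e ≤ ε := min_le_left _ _
  have he1 : e ≤ 1 := min_le_right _ _
  set t : ℝ := e * e ^ 2 / (112 * (m + 1)) with ht
  have ht0 : 0 < t := by positivity
  have htb : 7 * (m : ℝ) * t ≤ e * (e / 4) ^ 2 := by
    have h2 : (m : ℝ) / (m + 1) ≤ 1 := by
      rw [div_le_one (by positivity)]; linarith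
    have h3 : 7 * (m : ℝ) * t = e * (e / 4) ^ 2 * ((m : ℝ) / (m + 1)) := by
      rw [ht]
      field_simp
      ring
    rw [h3]
    have h4 : 0 ≤ e * (e / 4) ^ 2 := by positivity
    nlinarith
  -- the real numbers ψ
  set ψ : Fin m → ℝ := fun l => (⟪ξ, π (c l) ξ⟫_ℂ).re with hψ
  have hψ' : ∀ l, ⟪ξ, π (c l) ξ⟫_ℂ = (ψ l : ℂ) := by
    intro l
    have h2 : (starRingEnd ℂ) ⟪ξ, π (c l) ξ⟫_ℂ = ⟪ξ, π (c l) ξ⟫_ℂ := by
      rw [inner_conj_symm]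
      rw [P4a_adj π (c l) ξ ξ, (hsa l).star_eq]
    exact (Complex.conj_eq_iff_re.1 h2).symm
  set y : Fin m → A := fun l => p * (c l - (ψ l : ℂ) • (1 : A)) * p with hy
  have hyC : ∀ l, y l ∈ S.C := fun l =>
    mul_mem (mul_mem hp (sub_mem (hc l) (S.C.smul_mem (one_mem _) _))) hp
  have hysa : ∀ l, IsSelfAdjoint (y l) := by
    intro l
    rw [IsSelfAdjoint, hy]
    simp only [star_mul, star_sub, star_smul, hpsa, (hsa l).star_eq, star_one,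
      Complex.star_def, Complex.conj_ofReal, mul_assoc]
  have hpy : ∀ l, p * y l = y l := by
    intro l
    simp only [hy, ← mul_assoc, hpid]
  have hyp : ∀ l, y l * p = y l := by
    intro l
    simp only [hy, mul_assoc, hpid]
  have hortho : ∀ l, ⟪ξ, π (y l) ξ⟫_ℂ = 0 := by
    intro l
    have e1 : π (y l) ξ = π p (π (c l - (ψ l : ℂ) • (1 : A)) ξ) := by
      simp only [hy]
      rw [P4a_mul, hpξ, P4a_mul]
    rw [e1, P4a_adj, hpsa, hpξ, map_sub, map_smul, h1]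
    simp only [ContinuousLinearMap.sub_apply, ContinuousLinearMap.smul_apply,
      ContinuousLinearMap.one_apply, inner_sub_right, inner_smul_right]
    rw [hψ' l, inner_self_eq_norm_sq_to_K, hξ]
    simp
  have hden : ∀ l, ∃ b ∈ S.C, ‖π b ξ - π (y l) ξ‖ < t ∧ ‖π (star b) ξ‖ < t := fun l =>
    density π S.C h1 hirr hξ0 (hortho l) ht0
  choose b' hb'C hb'1 hb'2 using hden
  set b : Fin m → A := fun l => p * b' l * p with hb
  have hbC : ∀ l, b l ∈ S.C := fun l => mul_mem (mul_mem hp (hb'C l)) hp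
  have hpb : ∀ l, p * b l = b l := by
    intro l
    simp only [hb, ← mul_assoc, hpid]
  have hbp : ∀ l, b l * p = b l := by
    intro l
    simp only [hb, mul_assoc, hpid]
  have hb1 : ∀ l, ‖π (b l) ξ - π (y l) ξ‖ ≤ t := by
    intro l
    have e1 : π (b l) ξ - π (y l) ξ = π p (π (b' l) ξ - π (y l) ξ) := by
      rw [map_sub, ← P4a_mul π p (y l), hpy]
      simp only [hb]
      rw [P4a_mul, hpξ, P4a_mul]
    rw [e1]
    exact (P4a_proj π hpp _).trans (hb'1 l).le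
  have hb2 : ∀ l, ‖π (star (b l)) ξ‖ ≤ t := by
    intro l
    have e1 : π (star (b l)) ξ = π p (π (star (b' l)) ξ) := by
      simp only [hb, star_mul, hpsa]
      rw [P4a_mul, P4a_mul, hpξ]
    rw [e1]
    exact (P4a_proj π hpp _).trans (hb'2 l).le
  obtain ⟨p', hp'C, hp'p, hpp', hnorm, x, hx⟩ := cutC S hp hpp y b hyC hbC hysa hpy hpb hbp ht0 he0
  have hp'sa : star p' = p' := hp'p.isSelfAdjoint.star_eq
  have hp'p2 : p' * p = p' := by
    have := congrArg star hpp'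
    rwa [star_mul, hp'sa, hpsa] at this
  -- the vector estimate
  have hr : ∀ l, ‖π (y l - b l - star (b l)) ξ‖ ≤ 2 * t := by
    intro l
    have e1 : π (y l - b l - star (b l)) ξ =
        -(π (b l) ξ - π (y l) ξ) - π (star (b l)) ξ := by
      rw [map_sub, map_sub]
      simp only [ContinuousLinearMap.sub_apply]
      abel
    rw [e1]
    calc ‖-(π (b l) ξ - π (y l) ξ) - π (star (b l)) ξ‖
        ≤ ‖-(π (b l) ξ - π (y l) ξ)‖ + ‖π (star (b l)) ξ‖ := norm_sub_le _ _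
      _ ≤ t + t := by rw [norm_neg]; exact add_le_add (hb1 l) (hb2 l)
      _ = 2 * t := by ring
  have hrsa : ∀ l, star (y l - b l - star (b l)) = y l - b l - star (b l) := by
    intro l
    rw [star_sub, star_sub, star_star, (hysa l).star_eq]
    abel
  have hterm : ∀ l, (⟪ξ, π ((t⁻¹ : ℂ) • (b l * star (b l)) +
        (t⁻¹ : ℂ) • ((y l - b l - star (b l)) * (y l - b l - star (b l))) +
          (2 * t : ℂ) • p) ξ⟫_ℂ).re ≤ 7 * t := by
    intro l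
    have a1 : (⟪ξ, π (b l * star (b l)) ξ⟫_ℂ).re = ‖π (star (b l)) ξ‖ ^ 2 := by
      have := P4a_sq π (star (b l)) ξ
      rwa [star_star] at this
    have a2 : (⟪ξ, π ((y l - b l - star (b l)) * (y l - b l - star (b l))) ξ⟫_ℂ).re =
        ‖π (y l - b l - star (b l)) ξ‖ ^ 2 := by
      have := P4a_sq π (y l - b l - star (b l)) ξ
      rwa [hrsa l] at this
    have a3 : (⟪ξ, π p ξ⟫_ℂ).re = 1 := by
      rw [hpξ]
      have := inner_self_eq_norm_sq (𝕜 := ℂ) ξ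
      rw [hξ] at this
      simpa using this
    rw [map_add, map_add, map_smul, map_smul, map_smul]
    simp only [ContinuousLinearMap.add_apply, ContinuousLinearMap.smul_apply, inner_add_right,
      inner_smul_right, Complex.add_re]
    have c1 : ((t : ℂ)⁻¹ * ⟪ξ, π (b l * star (b l)) ξ⟫_ℂ).re = t⁻¹ * ‖π (star (b l)) ξ‖ ^ 2 := by
      rw [← Complex.ofReal_inv, Complex.re_ofReal_mul, a1]
    have c2 : ((t : ℂ)⁻¹ * ⟪ξ, π ((y l - b l - star (b l)) * (y l - b l - star (b l))) ξ⟫_ℂ).re =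
        t⁻¹ * ‖π (y l - b l - star (b l)) ξ‖ ^ 2 := by
      rw [← Complex.ofReal_inv, Complex.re_ofReal_mul, a2]
    have c3 : ((2 * t : ℂ) * ⟪ξ, π p ξ⟫_ℂ).re = 2 * t := by
      have : (2 * t : ℂ) = ((2 * t : ℝ) : ℂ) := by push_cast; ring
      rw [this, Complex.re_ofReal_mul, a3, mul_one]
    rw [c1, c2, c3]
    have d1 : t⁻¹ * ‖π (star (b l)) ξ‖ ^ 2 ≤ t := by
      have : ‖π (star (b l)) ξ‖ ^ 2 ≤ t ^ 2 := by
        have := hb2 l
        gcongr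
      calc t⁻¹ * ‖π (star (b l)) ξ‖ ^ 2 ≤ t⁻¹ * t ^ 2 := by gcongr
        _ = t := by field_simp
    have d2 : t⁻¹ * ‖π (y l - b l - star (b l)) ξ‖ ^ 2 ≤ 4 * t := by
      have : ‖π (y l - b l - star (b l)) ξ‖ ^ 2 ≤ (2 * t) ^ 2 := by
        have := hr l
        gcongr
      calc t⁻¹ * ‖π (y l - b l - star (b l)) ξ‖ ^ 2 ≤ t⁻¹ * (2 * t) ^ 2 := by gcongr
        _ = 4 * t := by field_simp; ring
    linarith
  have hmain : e * ‖ξ - π p' ξ‖ ^ 2 ≤ 7 * m * t := by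
    have k1 := P4a_sq π x ξ
    rw [← hx, map_sub, map_sum, map_smul, map_sub] at k1
    simp only [ContinuousLinearMap.sub_apply, ContinuousLinearMap.sum_apply,
      ContinuousLinearMap.smul_apply, inner_sub_right, inner_sum, inner_smul_right,
      Complex.sub_re, Complex.re_sum, hpξ] at k1
    have k2 : ((e : ℂ) * (⟪ξ, ξ⟫_ℂ - ⟪ξ, π p' ξ⟫_ℂ)).re = e * ‖ξ - π p' ξ‖ ^ 2 := by
      rw [Complex.re_ofReal_mul, Complex.sub_re, P4a_dist π hp'p hξ]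
      have := inner_self_eq_norm_sq (𝕜 := ℂ) ξ
      rw [hξ] at this
      simp only [RCLike.re_to_complex] at this
      rw [this]
      norm_num
    rw [k2] at k1
    have k3 : ∑ l, (⟪ξ, π ((t⁻¹ : ℂ) • (b l * star (b l)) +
        (t⁻¹ : ℂ) • ((y l - b l - star (b l)) * (y l - b l - star (b l))) +
          (2 * t : ℂ) • p) ξ⟫_ℂ).re ≤ ∑ _l : Fin m, 7 * t :=
      Finset.sum_le_sum fun l _ => hterm l
    rw [Finset.sum_const, Finset.card_univ, Fintype.card_fin, nsmul_eq_mul] at k3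
    have k4 := sq_nonneg ‖π x ξ‖
    linarith
  have hdist : ‖ξ - π p' ξ‖ ≤ e / 4 := by
    have k1 : e * ‖ξ - π p' ξ‖ ^ 2 ≤ e * (e / 4) ^ 2 := hmain.trans htb
    have k2 : ‖ξ - π p' ξ‖ ^ 2 ≤ (e / 4) ^ 2 := le_of_mul_le_mul_left k1 he0
    exact abs_le_of_sq_le_sq' k2 (by positivity) |>.2
  set w : H := π p' ξ with hw
  have hwn : 1 - e / 4 ≤ ‖w‖ := by
    have := norm_sub_norm_le ξ w
    rw [hξ] at this
    linarith
  have hw0 : 0 < ‖w‖ := by linarith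
  have hwle : ‖w‖ ≤ 1 := by
    have := P4a_proj π hp'p ξ
    rwa [hξ] at this
  refine ⟨p', hp'C, hp'p, hpp', ⟨((‖w‖⁻¹ : ℝ) : ℂ) • w, ?_, ?_, ?_⟩, ?_⟩
  · rw [norm_smul, Complex.norm_real, Real.norm_eq_abs, abs_of_pos (inv_pos.2 hw0),
      inv_mul_cancel₀ hw0.ne']
  · rw [map_smul, hw, ← P4a_mul, hp'p.isIdempotentElem.eq]
  · have e1 : ((‖w‖⁻¹ : ℝ) : ℂ) • w - ξ = (((‖w‖⁻¹ : ℝ) : ℂ) • w - w) - (ξ - w) := by abel
    have e2 : ‖((‖w‖⁻¹ : ℝ) : ℂ) • w - w‖ = 1 - ‖w‖ := by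
      have : ((‖w‖⁻¹ : ℝ) : ℂ) • w - w = ((‖w‖⁻¹ - 1 : ℝ) : ℂ) • w := by
        push_cast
        rw [sub_smul, one_smul]
      rw [this, norm_smul, Complex.norm_real, Real.norm_eq_abs, abs_of_nonneg, sub_mul,
        inv_mul_cancel₀ hw0.ne', one_mul]
      rw [sub_nonneg]
      exact (one_le_inv₀ hw0).2 hwle
    rw [e1]
    calc ‖(((‖w‖⁻¹ : ℝ) : ℂ) • w - w) - (ξ - w)‖
        ≤ ‖((‖w‖⁻¹ : ℝ) : ℂ) • w - w‖ + ‖ξ - w‖ := norm_sub_le _ _
      _ ≤ e / 4 + e / 4 := by rw [e2]; linarith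
      _ ≤ ε := by linarith
  · intro l
    refine ⟨(ψ l : ℂ), ?_⟩
    have e1 : p' * c l * p' - (ψ l : ℂ) • p' = p' * y l * p' := by
      simp only [hy]
      have : p' * (p * (c l - (ψ l : ℂ) • (1 : A)) * p) * p' =
          (p' * p) * (c l - (ψ l : ℂ) • (1 : A)) * (p * p') := by
        simp only [mul_assoc]
      rw [this, hp'p2, hpp', mul_sub, sub_mul, mul_smul_comm, mul_one, smul_mul_assoc,
        hp'p.isIdempotentElem.eq]
    rw [e1]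
    exact (hnorm l).trans heε

end Crest.Agent.NM
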