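import Crest.Agent.NM.MA2
import Crest.Agent.NM.MA3

/-!
# Row 120, QW: the projections `q n` in the base chain and the partial isometries `w n`
-/

set_option autoImplicit false

namespace Crest.Agent.NM

open Filter Topology
open scoped ComplexOrder

variable {A : Type} [CStarAlgebra A]

/-- data of a projection `c = ρ K G` at a higher level -/
theorem qw_lift [Nontrivial A] (S : Sys A) {c : A} (hc : IsStarProjection c) {K : ℕ} {G : Mt K} (hG : S.ρ K G = c)
    {m : ℕ} (hm : G.trace = m) {L : ℕ} (hL : K ≤ L) :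
    ∃ G' : Mt L, S.ρ L G' = c ∧ IsStarProjection G' ∧ G'.trace = ((2 ^ (L - K) * m : ℕ) : ℂ) ∧
      S.ρ K (E K m) = S.ρ L (E L (2 ^ (L - K) * m)) := by
  obtain ⟨G', h1, h2⟩ := S.lift' hL G
  refine ⟨G', h1.trans hG, ⟨?_, ?_⟩, ?_, S.ρ_E hL m⟩
  · apply S.inj L
    have : c * c = c := hc.isIdempotentElem
    rw [map_mul, h1, hG, this]
  · apply S.inj L
    rw [map_star, h1, hG, hc.isSelfAdjoint.star_eq]
  · rw [h2, hm]; push_cast; ring

theorem qw_sub {R : Type} [Ring R] [StarRing R] {p r : R} (hp : IsStarProjection p) (hr : IsStarProjection r)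
    (h : p * r = r) : IsStarProjection (p - r) := by
  have h' : r * p = r := by
    have := congrArg star h
    rwa [star_mul, hp.isSelfAdjoint.star_eq, hr.isSelfAdjoint.star_eq] at this
  constructor
  · have hp1 : p * p = p := hp.isIdempotentElem
    have hr1 : r * r = r := hr.isIdempotentElem
    unfold IsIdempotentElem
    rw [sub_mul, mul_sub, mul_sub, hp1, hr1, h, h']; abel
  · exact hp.isSelfAdjoint.sub hr.isSelfAdjoint

/-- PROOF. `A` is nontrivial (`g 0 ≠ 0`), so all `S.ρ k` are injective (`Sys.inj`). For every `n` choose a level `K` and `G : Mt K`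
with `ρ G = g n`; by injectivity `G` is a projection; `m = trace G ∈ ℕ` (`trace_nat`); `q n := ρ K (E K m)`. Well defined: at a higher
level `K'` the lift of `G` has trace `2^(K'-K) m` (`lift'`) and `ρ_E`. For consecutive `n, n+1` pass to a common level `K`
(`Sys.common`): `G' ≤ G` gives `m' ≤ m` (`trace_mono`), so `q n * q (n+1) = q (n+1)` (`E_mul`); `G - G'` and `E K m - E K m'` are
projections with the same trace `m - m'`: `exists_partial` gives `w n`. `q 0 = 1`: `G = 1`, `m = 2^K`.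
`f n` = `ρ_K (E K (2^(K-n)))` for `K ≥ n`; `f n * q M = q M` iff `m_M ≤ 2^(K-n)`, i.e. `ntr G_M = m_M/2^K ≤ 2^{-n}`: `htr` with
`ε = 2^{-n}`. Finally `q N * f n = f n` for `n` = the level `K` of `G_N`: `m_N ≥ 1` because `g N ≠ 0`. -/
theorem exists_qw (S : Sys A) {g : ℕ → A} (hg : Good S g)
    (htr : ∀ ε : ℝ, 0 < ε → ∃ N, ∀ M, N ≤ M → ∀ k (a : Mt k), S.ρ k a = g M → ‖ntr a‖ < ε) :
    ∃ q w : ℕ → A, (∀ n, q n ∈ S.C) ∧ (∀ n, w n ∈ S.C) ∧ (∀ n, IsStarProjection (q n)) ∧
      (∀ n, q n * q (n + 1) = q (n + 1)) ∧ q 0 = 1 ∧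
      (∀ n, ∃ N, ∀ M, N ≤ M → S.f n * q M = q M) ∧ (∀ N, ∃ n, q N * S.f n = S.f n) ∧
      (∀ n, star (w n) * w n = g n - g (n + 1)) ∧ (∀ n, w n * star (w n) = q n - q (n + 1)) := by
  have hnt : Nontrivial A := ⟨⟨g 0, 0, hg.ne 0⟩⟩
  choose K G hG using fun n => (S.mem_C).1 (hg.mem n)
  have hGp : ∀ n, IsStarProjection (G n) := fun n => ⟨by
      apply S.inj (K n)
      have := (hg.proj n).isIdempotentElem
      unfold IsIdempotentElem at this
      rw [map_mul, hG, this], by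
      apply S.inj (K n)
      rw [map_star, hG, (hg.proj n).isSelfAdjoint.star_eq]⟩
  choose m hm hmle using fun n => trace_nat (G n) (hGp n)
  have hm1 : ∀ n, 1 ≤ m n := by
    intro n
    by_contra hcon
    have h0 : m n = 0 := by omega
    have h1 : (G n).trace = 0 := by rw [hm, h0]; simp
    have h2 : (G n).conjTranspose * G n = G n := by
      have e1 : (G n).conjTranspose = G n := (hGp n).isSelfAdjoint.star_eq
      have e2 : G n * G n = G n := (hGp n).isIdempotentElem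
      rw [e1, e2]
    have h3 : G n = 0 := by
      rw [← Matrix.trace_conjTranspose_mul_self_eq_zero_iff, h2]; exact h1
    apply hg.ne n
    rw [← hG n, h3, map_zero]
  have hw : ∀ n, ∃ w ∈ S.C, S.ρ (K n) (E (K n) (m n)) * S.ρ (K (n + 1)) (E (K (n + 1)) (m (n + 1))) =
      S.ρ (K (n + 1)) (E (K (n + 1)) (m (n + 1))) ∧ star w * w = g n - g (n + 1) ∧
      w * star w = S.ρ (K n) (E (K n) (m n)) - S.ρ (K (n + 1)) (E (K (n + 1)) (m (n + 1))) := by
    intro n
    obtain ⟨L, hL1, hL2⟩ : ∃ L, K n ≤ L ∧ K (n + 1) ≤ L := ⟨max (K n) (K (n + 1)), le_max_left _ _, le_max_right _ _⟩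
    obtain ⟨P, hP1, hP2, hP3, hP4⟩ := qw_lift S (hg.proj n) (hG n) (hm n) hL1
    obtain ⟨Q, hQ1, hQ2, hQ3, hQ4⟩ := qw_lift S (hg.proj (n + 1)) (hG (n + 1)) (hm (n + 1)) hL2
    set a := 2 ^ (L - K n) * m n with ha
    set b := 2 ^ (L - K (n + 1)) * m (n + 1) with hb
    have hPQ : P * Q = Q := by
      apply S.inj L
      rw [map_mul, hP1, hQ1, hg.anti]
    have hle : b ≤ a := trace_mono Q P hQ2 hP2 hPQ hQ3 hP3
    have ha2 : a ≤ 2 ^ L := by
      obtain ⟨a', ha', ha''⟩ := trace_nat P hP2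
      have : a = a' := by
        have : (a : ℂ) = a' := by rw [← hP3, ha']
        exact_mod_cast this
      rw [this]; simpa using ha''
    have hE : E L a * E L b = E L b := by rw [E_mul, min_eq_right hle]
    obtain ⟨W, hW1, hW2⟩ := exists_partial (P - Q) (E L a - E L b) (qw_sub hP2 hQ2 hPQ)
      (qw_sub (E_proj L a) (E_proj L b) hE) (by
        rw [Matrix.trace_sub, Matrix.trace_sub, hP3, hQ3, E_trace ha2, E_trace (hle.trans ha2)])
    refine ⟨S.ρ L W, S.ρ_mem _ _, ?_, ?_, ?_⟩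
    · rw [hP4, hQ4, ← map_mul, hE]
    · rw [← map_star, ← map_mul, hW1, map_sub, hP1, hQ1]
    · rw [← map_star, ← map_mul, hW2, map_sub, hP4, hQ4]
  choose w hwC hqq hw1 hw2 using hw
  refine ⟨fun n => S.ρ (K n) (E (K n) (m n)), w, fun n => S.ρ_mem _ _, hwC, ?_, hqq, ?_, ?_, ?_, hw1, hw2⟩
  · intro n
    constructor
    · have : E (K n) (m n) * E (K n) (m n) = E (K n) (m n) := (E_proj (K n) (m n)).isIdempotentElem
      show _ * _ = _
      rw [← map_mul, this]
    · have := (E_proj (K n) (m n)).isSelfAdjoint.star_eq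
      show star _ = _
      rw [← map_star, this]
  · have h1 : G 0 = 1 := by
      apply S.inj (K 0)
      rw [hG, hg.zero, map_one]
    have h2 : m 0 = 2 ^ (K 0) := by
      have := hm 0
      rw [h1, Matrix.trace_one, Fintype.card_fin] at this
      exact_mod_cast this.symm
    show S.ρ (K 0) (E (K 0) (m 0)) = 1
    rw [h2, E_full, map_one]
  · intro n
    obtain ⟨N, hN⟩ := htr ((2 : ℝ) ^ n)⁻¹ (by positivity)
    refine ⟨N, fun M hM => ?_⟩
    obtain ⟨L, hL1, hnL⟩ : ∃ L, K M ≤ L ∧ n ≤ L := ⟨max (K M) n, le_max_left _ _, le_max_right _ _⟩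
    obtain ⟨P, hP1, hP2, hP3, hP4⟩ := qw_lift S (hg.proj M) (hG M) (hm M) hL1
    set a := 2 ^ (L - K M) * m M with ha
    have h1 := hN M hM L P hP1
    have h2 : a ≤ 2 ^ (L - n) * 1 := by
      unfold ntr at h1
      rw [hP3, norm_mul, norm_inv, norm_pow, Complex.norm_ofNat, Complex.norm_natCast] at h1
      have h3 : (a : ℝ) < 2 ^ (L - n) := by
        have e : (2 : ℝ) ^ L = 2 ^ (L - n) * 2 ^ n := by rw [← pow_add, Nat.sub_add_cancel hnL]
        have p1 : (0 : ℝ) < 2 ^ L := by positivity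
        have p2 : (0 : ℝ) < 2 ^ n := by positivity
        rw [inv_mul_lt_iff₀ p1, e, mul_assoc, mul_inv_cancel₀ p2.ne', mul_one] at h1
        exact h1
      have h4 : a < 2 ^ (L - n) := by exact_mod_cast h3
      omega
    show S.ρ n (E n 1) * S.ρ (K M) (E (K M) (m M)) = S.ρ (K M) (E (K M) (m M))
    rw [hP4, S.ρ_E hnL 1, ← map_mul, E_mul, min_eq_right h2]
  · intro N
    refine ⟨K N, ?_⟩
    show S.ρ (K N) (E (K N) (m N)) * S.ρ (K N) (E (K N) 1) = S.ρ (K N) (E (K N) 1)
    rw [← map_mul, E_mul, min_eq_right (hm1 N)]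

end Crest.Agent.NM
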