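import Crest.Agent.NM.MA3

/-!
# Row 120, R1: decreasing projections in representations; limits
-/

set_option autoImplicit false

namespace Crest.Agent.NM

open Filter Topology
open scoped InnerProductSpace

variable {A : Type} [CStarAlgebra A]
variable {H : Type} [NormedAddCommGroup H] [InnerProductSpace ℂ H] [CompleteSpace H]

theorem norm_map_le (π : A →⋆ₙₐ[ℂ] (H →L[ℂ] H)) (a : A) : ‖π a‖ ≤ ‖a‖ :=
  NonUnitalStarAlgHom.norm_apply_le π a

private theorem R1_cont (π : A →⋆ₙₐ[ℂ] (H →L[ℂ] H)) : Continuous π := by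
  refine (AddMonoidHomClass.continuous_of_bound π 1 fun a => ?_)
  rw [one_mul]
  exact norm_map_le π a

private theorem R1_contApp (π : A →⋆ₙₐ[ℂ] (H →L[ℂ] H)) (ζ : H) : Continuous (fun a => π a ζ) :=
  (ContinuousLinearMap.apply ℂ H ζ).continuous.comp (R1_cont π)

private theorem R1_proj (π : A →⋆ₙₐ[ℂ] (H →L[ℂ] H)) {p : A} (hp : IsStarProjection p) :
    IsStarProjection (π p) := hp.map π

private theorem R1_inner {P : H →L[ℂ] H} (hP : IsStarProjection P) (x y : H) :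
    ⟪P x, y⟫_ℂ = ⟪x, P y⟫_ℂ := by
  have h := ContinuousLinearMap.adjoint_inner_left P y x
  have h2 : ContinuousLinearMap.adjoint P = P := hP.isSelfAdjoint
  rw [h2] at h
  exact h

private theorem R1_idem {P : H →L[ℂ] H} (hP : IsStarProjection P) (x : H) : P (P x) = P x := by
  have h : P * P = P := hP.isIdempotentElem
  calc P (P x) = (P * P) x := rfl
    _ = P x := by rw [h]

private theorem R1_mulLe {p : ℕ → A} (hp : ∀ n, IsStarProjection (p n))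
    (ha : ∀ n, p n * p (n + 1) = p (n + 1)) {n m : ℕ} (h : n ≤ m) : p n * p m = p m := by
  induction m, h using Nat.le_induction with
  | base => exact (hp n).isIdempotentElem
  | succ m _ ih =>
    rw [← ha m, ← mul_assoc, ih]

/-- PROOF: `‖p n ζ‖²` is decreasing, `‖p n ζ - p m ζ‖² = ‖p n ζ‖² - ‖p m ζ‖²` for `n ≤ m`: Cauchy; the limit `ζ'` satisfies
`p n ζ' = ζ'` for all `n`. If it is `0` for every `ζ` we are in the second case. -/
theorem fix_or_tendsto (π : A →⋆ₙₐ[ℂ] (H →L[ℂ] H)) {p : ℕ → A} (hp : ∀ n, IsStarProjection (p n))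
    (ha : ∀ n, p n * p (n + 1) = p (n + 1)) :
    (∃ ζ : H, ζ ≠ 0 ∧ ∀ n, π (p n) ζ = ζ) ∨ ∀ ζ : H, Tendsto (fun n => π (p n) ζ) atTop (𝓝 0) := by
  have hmul : ∀ {n m : ℕ}, n ≤ m → ∀ ζ : H, π (p n) (π (p m) ζ) = π (p m) ζ := by
    intro n m h ζ
    have h1 : π (p n) * π (p m) = π (p m) := by rw [← map_mul, R1_mulLe hp ha h]
    calc π (p n) (π (p m) ζ) = (π (p n) * π (p m)) ζ := rfl
      _ = π (p m) ζ := by rw [h1]
  have hmul' : ∀ {n m : ℕ}, n ≤ m → ∀ ζ : H, π (p m) (π (p n) ζ) = π (p m) ζ := by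
    intro n m h ζ
    have h1 : π (p m) * π (p n) = π (p m) := by
      rw [← map_mul]
      congr 1
      have := congrArg star (R1_mulLe hp ha h)
      rwa [star_mul, (hp n).isSelfAdjoint.star_eq, (hp m).isSelfAdjoint.star_eq] at this
    calc π (p m) (π (p n) ζ) = (π (p m) * π (p n)) ζ := rfl
      _ = π (p m) ζ := by rw [h1]
  have hpyth : ∀ {n m : ℕ}, n ≤ m → ∀ ζ : H,
      ‖π (p n) ζ - π (p m) ζ‖ ^ 2 = ‖π (p n) ζ‖ ^ 2 - ‖π (p m) ζ‖ ^ 2 := by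
    intro n m h ζ
    have hnn := R1_inner (R1_proj π (hp n))
    have hmm := R1_inner (R1_proj π (hp m))
    have e1 : ⟪π (p n) ζ, π (p m) ζ⟫_ℂ = ⟪π (p m) ζ, π (p m) ζ⟫_ℂ := by
      rw [← hmm, hmul' h, ← hmm (π (p m) ζ), R1_idem (R1_proj π (hp m))]
    have := norm_sub_sq (𝕜 := ℂ) (π (p n) ζ) (π (p m) ζ)
    rw [e1, inner_self_eq_norm_sq] at this
    rw [this]; ring
  have hanti : ∀ ζ : H, Antitone (fun n => ‖π (p n) ζ‖ ^ 2) := by
    intro ζ n m h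
    have := hpyth h ζ
    have h2 := sq_nonneg ‖π (p n) ζ - π (p m) ζ‖
    show ‖π (p m) ζ‖ ^ 2 ≤ ‖π (p n) ζ‖ ^ 2
    linarith
  have hcauchy : ∀ ζ : H, CauchySeq (fun n => π (p n) ζ) := by
    intro ζ
    have hb : BddBelow (Set.range fun n => ‖π (p n) ζ‖ ^ 2) := ⟨0, by rintro _ ⟨n, rfl⟩; positivity⟩
    have hc := (tendsto_atTop_ciInf (hanti ζ) hb).cauchySeq
    rw [Metric.cauchySeq_iff'] at hc ⊢
    intro ε hε
    obtain ⟨N, hN⟩ := hc (ε ^ 2) (by positivity)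
    refine ⟨N, fun n hn => ?_⟩
    have h1 := hN n hn
    rw [Real.dist_eq, abs_sub_comm] at h1
    have h2 := hpyth hn ζ
    have h3 : ‖π (p N) ζ - π (p n) ζ‖ ^ 2 < ε ^ 2 := by
      rw [h2]; exact (le_abs_self _).trans_lt h1
    rw [dist_eq_norm, norm_sub_rev]
    exact lt_of_pow_lt_pow_left₀ 2 hε.le h3
  by_cases hz : ∀ ζ : H, Tendsto (fun n => π (p n) ζ) atTop (𝓝 0)
  · exact Or.inr hz
  · left
    push Not at hz
    obtain ⟨ζ, hζ⟩ := hz
    obtain ⟨ζ', hζ'⟩ := cauchySeq_tendsto_of_complete (hcauchy ζ)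
    refine ⟨ζ', ?_, fun n => ?_⟩
    · rintro rfl
      exact hζ hζ'
    · have h1 : Tendsto (fun m => π (p n) (π (p m) ζ)) atTop (𝓝 (π (p n) ζ')) :=
        ((π (p n)).continuous.tendsto _).comp hζ'
      have h2 : Tendsto (fun m => π (p n) (π (p m) ζ)) atTop (𝓝 ζ') := by
        refine hζ'.congr' ?_
        filter_upwards [eventually_ge_atTop n] with m hm
        rw [hmul hm]
      exact tendsto_nhds_unique h1 h2

/-- orthogonality in representations. PROOF: `⟪ζ, π c ζ'⟫ = ⟪π(g n) ζ, π c π(g' n) ζ'⟫ = ⟪ζ, π(g n c g' n) ζ'⟫ → 0`. -/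
theorem inner_of_perp (S : Sys A) {g g' : ℕ → A} (hg : ∀ n, IsStarProjection (g n)) (h : Perp S g g')
    (π : A →⋆ₙₐ[ℂ] (H →L[ℂ] H)) {ζ ζ' : H} (h1 : ∀ n, π (g n) ζ = ζ) (h2 : ∀ n, π (g' n) ζ' = ζ')
    {c : A} (hc : c ∈ S.C) : ⟪ζ, π c ζ'⟫_ℂ = 0 := by
  have e : ∀ n, ⟪ζ, π (g n * c * g' n) ζ'⟫_ℂ = ⟪ζ, π c ζ'⟫_ℂ := by
    intro n
    have hh : π (g n * c * g' n) ζ' = π (g n) (π c ζ') := by
      rw [map_mul, map_mul]
      show π (g n) (π c (π (g' n) ζ')) = _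
      rw [h2]
    rw [hh, ← R1_inner (R1_proj π (hg n)), h1]
  have ht : Tendsto (fun n => ⟪ζ, π (g n * c * g' n) ζ'⟫_ℂ) atTop (𝓝 ⟪ζ, π (0 : A) ζ'⟫_ℂ) :=
    (((continuous_const.inner continuous_id).comp (R1_contApp π ζ')).tendsto 0).comp (h c hc)
  rw [map_zero, _root_.zero_apply, inner_zero_right] at ht
  simp only [e] at ht
  exact tendsto_nhds_unique tendsto_const_nhds ht

/-- `π(g n) π(c) ζ' = π(g n c g' n) ζ' → 0` -/
theorem tendsto_of_perp (S : Sys A) {g g' : ℕ → A} (h : Perp S g g')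
    (π : A →⋆ₙₐ[ℂ] (H →L[ℂ] H)) {ζ' : H} (h2 : ∀ n, π (g' n) ζ' = ζ')
    {c : A} (hc : c ∈ S.C) : Tendsto (fun n => π (g n) (π c ζ')) atTop (𝓝 0) := by
  have e : ∀ n, π (g n * c * g' n) ζ' = π (g n) (π c ζ') := by
    intro n
    rw [map_mul, map_mul]
    show π (g n) (π c (π (g' n) ζ')) = _
    rw [h2]
  have ht : Tendsto (fun n => π (g n * c * g' n) ζ') atTop (𝓝 (π (0 : A) ζ')) :=
    ((R1_contApp π ζ').tendsto 0).comp (h c hc)
  rw [map_zero, _root_.zero_apply] at ht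
  simpa only [e] using ht

/-- `π(g n) π(c) ζ = π(g n c g n) ζ → l ζ` -/
theorem tendsto_of_scal {g : ℕ → A} {c : A} {l : ℂ}
    (h : Tendsto (fun n => g n * c * g n - l • g n) atTop (𝓝 0))
    (π : A →⋆ₙₐ[ℂ] (H →L[ℂ] H)) {ζ : H} (h2 : ∀ n, π (g n) ζ = ζ) :
    Tendsto (fun n => π (g n) (π c ζ)) atTop (𝓝 (l • ζ)) := by
  have e : ∀ n, π (g n * c * g n - l • g n) ζ = π (g n) (π c ζ) - l • ζ := by
    intro n
    rw [map_sub, map_mul, map_mul, map_smul]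
    show π (g n) (π c (π (g n) ζ)) - l • π (g n) ζ = _
    rw [h2]
  have ht : Tendsto (fun n => π (g n * c * g n - l • g n) ζ) atTop (𝓝 (π (0 : A) ζ)) :=
    ((R1_contApp π ζ).tendsto 0).comp h
  rw [map_zero, _root_.zero_apply] at ht
  simp only [e] at ht
  have := ht.add_const (l • ζ)
  simpa using this

end Crest.Agent.NM
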