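import Crest.Agent.NM.R2a

/-!
# Row 120, R2c: the base state has a unique extension (orthogonality form)
-/

set_option autoImplicit false

namespace Crest.Agent.NM

open Filter Topology
open scoped InnerProductSpace

variable {A : Type} [CStarAlgebra A]
variable {H : Type} [NormedAddCommGroup H] [InnerProductSpace ℂ H] [CompleteSpace H]

/-- the same for `U_k*`: `U_k* c v = U_k* (1 - q_N) c v + U_k* q_N c v`. `q_N c v → 0` for `v = U_j* ξ`: for given `n`, `q_M = f_n q_M = q_M f_n` for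
`M ≥ N(n)` (`q0`, star), so `‖q_M c v‖ ≤ ‖f_n c v‖ → 0` (`perp0`); for `v = ξ`: `q_M c ξ - l ξ = q_M (f_n c ξ - l ξ)` (`q_M ξ = ξ` by `q1`) and
`f_n c ξ → l ξ` (`f_scal'`); `U_k* ξ` is in `KK` (`c = 1`). -/
theorem U_mem' (D : ND A) (π : A →⋆ₙₐ[ℂ] (H →L[ℂ] H)) (h1 : π 1 = 1) {ξ : H}
    (hξ : ∀ n, π (D.S.f n) ξ = ξ) (k : D.I) {v : H} (hv : v ∈ KK D π ξ) :
    π (star (D.U k)) v ∈ KK D π ξ := by
  have hmul : ∀ a b : A, ∀ x : H, π (a * b) x = π a (π b x) := fun a b x => by rw [map_mul]; rfl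
  have hsplit : ∀ (n : ℕ) (x : H), π (star (D.U k)) x - π (star (D.U k)) (π (D.q k n) x) =
      π (star (D.U k) * (1 - D.q k n)) x := by
    intro n x
    rw [mul_sub, mul_one, map_sub, ContinuousLinearMap.sub_apply, hmul]
  have hlim : ∀ x y : H, Tendsto (fun n => π (D.S.f n) x) atTop (𝓝 y) →
      (∀ n, π (D.q k n) y = y) → Tendsto (fun n => π (D.q k n) x) atTop (𝓝 y) := by
    intro x y h2 h3
    rw [Metric.tendsto_atTop] at h2 ⊢
    intro ε hε
    obtain ⟨n, hn⟩ := h2 ε hε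
    obtain ⟨N, hN⟩ := D.q0 k n
    refine ⟨N, fun M hM => ?_⟩
    have h4 : D.q k M * D.S.f n = D.q k M := by
      have h := congrArg star (hN M hM)
      rw [star_mul, (D.S.f_proj n).isSelfAdjoint.star_eq,
        (D.qproj k M).isSelfAdjoint.star_eq] at h
      exact h
    have h5 : π (D.q k M) x - y = π (D.q k M) (π (D.S.f n) x - y) := by
      rw [map_sub, h3, ← hmul, h4]
    have h6 : ‖D.q k M‖ ≤ 1 := (D.qproj k M).norm_le
    have h7 : ‖π (D.q k M) (π (D.S.f n) x - y)‖ ≤ 1 * ‖π (D.S.f n) x - y‖ :=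
      (ContinuousLinearMap.le_opNorm _ _).trans
        (mul_le_mul_of_nonneg_right ((norm_map_le π _).trans h6) (norm_nonneg _))
    have h8 := hn n le_rfl
    rw [dist_eq_norm] at h8 ⊢
    rw [h5]
    linarith
  refine R2a_map D π ξ (π (star (D.U k))) (KK D π ξ) (R2a_closed D π ξ) ?_ ?_ hv
  · intro c hc
    obtain ⟨l, hl⟩ := D.S.f_scal' c hc
    refine R2a_lim (KK D π ξ) (R2a_closed D π ξ) (π (star (D.U k))) (fun n => π (D.q k n)) ?_
      (hlim _ _ (tendsto_of_scal hl π hξ) ?_) ?_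
    · intro n
      rw [hsplit, ← hmul]
      exact R2a_mem1 D π ξ (D.S.C.mul_mem (D.um' k n) hc)
    · intro n
      rw [map_smul, R2a_fix_q D π hξ]
    · rw [map_smul]
      refine Submodule.smul_mem _ _ ?_
      have := R2a_mem2 D π ξ D.S.C.one_mem k
      rw [h1] at this
      exact this
  · intro c hc j
    refine R2a_lim (KK D π ξ) (R2a_closed D π ξ) (π (star (D.U k))) (fun n => π (D.q k n)) ?_
      (hlim _ _ (tendsto_of_perp D.S (D.perp0 j) π (fix_U D π h1 hξ j) hc) ?_) ?_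
    · intro n
      rw [hsplit, ← hmul]
      exact R2a_mem2 D π ξ (D.S.C.mul_mem (D.um' k n) hc) j
    · intro n
      rw [map_zero]
    · rw [map_zero]; exact Submodule.zero_mem _

end Crest.Agent.NM
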