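import Crest.Agent.NM.R2b
import Crest.Agent.NM.R2c

/-!
# Row 120, R2: the base state has a unique extension (orthogonality form)
-/

set_option autoImplicit false

namespace Crest.Agent.NM

open Filter Topology
open scoped InnerProductSpace

variable {A : Type} [CStarAlgebra A]
variable {H : Type} [NormedAddCommGroup H] [InnerProductSpace ℂ H] [CompleteSpace H]

/-- `KK` is invariant under `A`: the set of `a` with `π a KK ⊆ KK` and `π (star a) KK ⊆ KK` is a closed ⋆-subalgebra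
(`norm_map_le` for closedness) containing `S.C` and all `U k`; use `gen`. -/
theorem KK_inv (D : ND A) (π : A →⋆ₙₐ[ℂ] (H →L[ℂ] H)) (h1 : π 1 = 1) {ξ : H}
    (hξ : ∀ n, π (D.S.f n) ξ = ξ) (a : A) {v : H} (hv : v ∈ KK D π ξ) : π a v ∈ KK D π ξ := by
  have hmul : ∀ a b : A, ∀ x : H, π (a * b) x = π a (π b x) := fun a b x => by rw [map_mul]; rfl
  have hC : ∀ c ∈ D.S.C, ∀ v ∈ KK D π ξ, π c v ∈ KK D π ξ := by
    intro c hc v hv
    refine R2a_map D π ξ (π c) (KK D π ξ) (R2a_closed D π ξ) ?_ ?_ hv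
    · intro c' hc'
      rw [← hmul]
      exact R2a_mem1 D π ξ (D.S.C.mul_mem hc hc')
    · intro c' hc' i
      rw [← hmul]
      exact R2a_mem2 D π ξ (D.S.C.mul_mem hc hc') i
  let B : StarSubalgebra ℂ A :=
    { carrier := {a | (∀ v ∈ KK D π ξ, π a v ∈ KK D π ξ) ∧ ∀ v ∈ KK D π ξ, π (star a) v ∈ KK D π ξ}
      mul_mem' := by
        rintro a b ⟨ha, ha'⟩ ⟨hb, hb'⟩
        refine ⟨fun v hv => ?_, fun v hv => ?_⟩
        · rw [hmul]; exact ha _ (hb _ hv)
        · rw [star_mul, hmul]; exact hb' _ (ha' _ hv)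
      one_mem' := by
        refine ⟨fun v hv => ?_, fun v hv => ?_⟩
        · rw [h1]; exact hv
        · rw [star_one, h1]; exact hv
      add_mem' := by
        rintro a b ⟨ha, ha'⟩ ⟨hb, hb'⟩
        refine ⟨fun v hv => ?_, fun v hv => ?_⟩
        · rw [map_add]; exact Submodule.add_mem _ (ha _ hv) (hb _ hv)
        · rw [star_add, map_add]; exact Submodule.add_mem _ (ha' _ hv) (hb' _ hv)
      zero_mem' := by
        refine ⟨fun v hv => ?_, fun v hv => ?_⟩
        · rw [map_zero]; exact Submodule.zero_mem _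
        · rw [star_zero, map_zero]; exact Submodule.zero_mem _
      algebraMap_mem' := by
        intro r
        refine ⟨fun v hv => ?_, fun v hv => ?_⟩
        · rw [Algebra.algebraMap_eq_smul_one, map_smul, h1]
          exact Submodule.smul_mem _ _ hv
        · rw [Algebra.algebraMap_eq_smul_one, star_smul, star_one, map_smul, h1]
          exact Submodule.smul_mem _ _ hv
      star_mem' := by
        rintro a ⟨ha, ha'⟩
        refine ⟨ha', fun v hv => ?_⟩
        rw [star_star]; exact ha v hv }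
  have hcont : ∀ v : H, Continuous fun a : A => π a v := by
    intro v
    have h2 : Continuous fun a : A => π a := by
      refine AddMonoidHomClass.continuous_of_bound π 1 (fun a => ?_)
      rw [one_mul]; exact norm_map_le π a
    exact h2.clm_apply continuous_const
  have hBc : IsClosed (B : Set A) := by
    have : (B : Set A) = (⋂ v ∈ KK D π ξ, (fun a : A => π a v) ⁻¹' (KK D π ξ : Set H)) ∩
        ⋂ v ∈ KK D π ξ, (fun a : A => π (star a) v) ⁻¹' (KK D π ξ : Set H) := by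
      ext a
      simp only [Set.mem_inter_iff, Set.mem_iInter, Set.mem_preimage]
      rfl
    rw [this]
    refine IsClosed.inter ?_ ?_
    · exact isClosed_biInter fun v _ => (R2a_closed D π ξ).preimage (hcont v)
    · exact isClosed_biInter fun v _ => (R2a_closed D π ξ).preimage ((hcont v).comp continuous_star)
  have hB : StarAlgebra.adjoin ℂ ((D.S.C : Set A) ∪ Set.range D.U) ≤ B := by
    refine StarAlgebra.adjoin_le ?_
    rintro a (ha | ⟨k, rfl⟩)
    · exact ⟨hC a ha, hC _ (D.S.C.star_mem' ha)⟩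
    · exact ⟨fun v hv => U_mem D π h1 hξ k hv, fun v hv => U_mem' D π h1 hξ k hv⟩
  have hB' := StarSubalgebra.topologicalClosure_minimal hB hBc
  rw [D.gen] at hB'
  exact (hB' (StarSubalgebra.mem_top (x := a))).1 v hv

/-- MAIN. `ξ' ⊥ KK`: `⟪ξ', π c ξ⟫ = ⟪π(f n) ξ', ..⟫ = ⟪ξ', π(f n) π c ξ⟫ → l ⟪ξ', ξ⟫ = 0` (`tendsto_of_scal`, `f_scal'`), and
`⟪ξ', π c U_i* ξ⟫ = 0` by `inner_of_perp` (`perp0`, `fix_U`). `π y ξ ∈ KK`. -/
theorem uniq (D : ND A) (π : A →⋆ₙₐ[ℂ] (H →L[ℂ] H)) (h1 : π 1 = 1) {ξ ξ' : H}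
    (hξ : ∀ n, π (D.S.f n) ξ = ξ) (hξ' : ∀ n, π (D.S.f n) ξ' = ξ') (h : ⟪ξ, ξ'⟫_ℂ = 0) (y : A) :
    ⟪ξ', π y ξ⟫_ℂ = 0 := by
  have h0 : ξ ∈ KK D π ξ := by
    have := R2a_mem1 D π ξ D.S.C.one_mem
    rw [h1] at this
    exact this
  have h2 : ∀ v ∈ KK D π ξ, v ∈ (ℂ ∙ ξ')ᗮ := by
    intro v hv
    refine R2a_le D π ξ (ℂ ∙ ξ')ᗮ (Submodule.isClosed_orthogonal _) ?_ ?_ hv
    · intro c hc
      rw [Submodule.mem_orthogonal_singleton_iff_inner_right]
      obtain ⟨l, hl⟩ := D.S.f_scal' c hc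
      have h3 := tendsto_of_scal hl π hξ
      have h4 : Tendsto (fun n => ⟪ξ', π (D.S.f n) (π c ξ)⟫_ℂ) atTop (𝓝 ⟪ξ', l • ξ⟫_ℂ) :=
        tendsto_const_nhds.inner h3
      have h5 : ∀ n, ⟪ξ', π (D.S.f n) (π c ξ)⟫_ℂ = ⟪ξ', π c ξ⟫_ℂ := by
        intro n
        have h6 : π (D.S.f n) = ContinuousLinearMap.adjoint (π (D.S.f n)) := by
          rw [← ContinuousLinearMap.star_eq_adjoint, ← map_star,
            (D.S.f_proj n).isSelfAdjoint.star_eq]
        rw [h6, ContinuousLinearMap.adjoint_inner_right, hξ']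
      simp only [h5] at h4
      have h7 := tendsto_nhds_unique h4 tendsto_const_nhds
      rw [← h7, inner_smul_right, ← inner_conj_symm, h, map_zero, mul_zero]
    · intro c hc i
      rw [Submodule.mem_orthogonal_singleton_iff_inner_right]
      exact inner_of_perp D.S D.S.f_proj (D.perp0 i) π hξ' (fix_U D π h1 hξ i) hc
  have h8 := h2 _ (KK_inv D π h1 hξ y h0)
  rwa [Submodule.mem_orthogonal_singleton_iff_inner_right] at h8

end Crest.Agent.NM
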