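import Crest.Agent.NM.R1
import Crest.Agent.NM.ZO

/-!
# Row 120, R2a
-/

set_option autoImplicit false

namespace Crest.Agent.NM

open Filter Topology
open scoped InnerProductSpace

variable {A : Type} [CStarAlgebra A]
variable {H : Type} [NormedAddCommGroup H] [InnerProductSpace ℂ H] [CompleteSpace H]

/-- the closed subspace generated by `π(c) ξ`, `π(c) U_i* ξ` -/
def KK (D : ND A) (π : A →⋆ₙₐ[ℂ] (H →L[ℂ] H)) (ξ : H) : Submodule ℂ H :=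
  (Submodule.span ℂ ({ζ : H | ∃ c ∈ D.S.C, π c ξ = ζ} ∪
    {ζ : H | ∃ c ∈ D.S.C, ∃ i, π c (π (star (D.U i)) ξ) = ζ})).topologicalClosure

/-- `ξ` is fixed by all `q i n` -/
theorem R2a_fix_q (D : ND A) (π : A →⋆ₙₐ[ℂ] (H →L[ℂ] H)) {ξ : H}
    (hξ : ∀ n, π (D.S.f n) ξ = ξ) (i : D.I) (n : ℕ) : π (D.q i n) ξ = ξ := by
  obtain ⟨m, hm⟩ := D.q1 i n
  have h1 : π (D.q i n) (π (D.S.f m) ξ) = π (D.q i n * D.S.f m) ξ := by
    rw [map_mul]; rfl
  rw [hξ, hm, hξ] at h1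
  exact h1

/-- `U_i* ξ` is fixed by all `g i n`. PROOF: for `ζ = U_i* ξ`: `U_i g_n ζ = q_n U_i ζ = q_n ξ = ξ` because `q_n f_m = f_m` for some
`m` (`q1`) and `f_m ξ = ξ`; so `g_n ζ = U_i* ξ = ζ`. -/
theorem fix_U (D : ND A) (π : A →⋆ₙₐ[ℂ] (H →L[ℂ] H)) (h1 : π 1 = 1) {ξ : H}
    (hξ : ∀ n, π (D.S.f n) ξ = ξ) (i : D.I) (n : ℕ) :
    π (D.g i n) (π (star (D.U i)) ξ) = π (star (D.U i)) ξ := by
  have h2 : D.g i n * star (D.U i) = star (D.U i) * D.q i n := by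
    have h := congrArg star (D.inter i n)
    rw [star_mul, star_mul, ((D.good i).proj n).isSelfAdjoint.star_eq,
      (D.qproj i n).isSelfAdjoint.star_eq] at h
    exact h
  have h3 : π (D.g i n) (π (star (D.U i)) ξ) = π (D.g i n * star (D.U i)) ξ := by
    rw [map_mul]; rfl
  rw [h3, h2, map_mul]
  change π (star (D.U i)) (π (D.q i n) ξ) = _
  rw [R2a_fix_q D π hξ]

/-- generators of the first kind -/
theorem R2a_mem1 (D : ND A) (π : A →⋆ₙₐ[ℂ] (H →L[ℂ] H)) (ξ : H) {c : A} (hc : c ∈ D.S.C) :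
    π c ξ ∈ KK D π ξ :=
  Submodule.le_topologicalClosure _ (Submodule.subset_span (Or.inl ⟨c, hc, rfl⟩))

/-- generators of the second kind -/
theorem R2a_mem2 (D : ND A) (π : A →⋆ₙₐ[ℂ] (H →L[ℂ] H)) (ξ : H) {c : A} (hc : c ∈ D.S.C) (i : D.I) :
    π c (π (star (D.U i)) ξ) ∈ KK D π ξ :=
  Submodule.le_topologicalClosure _ (Submodule.subset_span (Or.inr ⟨c, hc, i, rfl⟩))

theorem R2a_closed (D : ND A) (π : A →⋆ₙₐ[ℂ] (H →L[ℂ] H)) (ξ : H) : IsClosed (KK D π ξ : Set H) :=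
  Submodule.isClosed_topologicalClosure _

/-- `KK` is the smallest closed subspace containing the generators -/
theorem R2a_le (D : ND A) (π : A →⋆ₙₐ[ℂ] (H →L[ℂ] H)) (ξ : H) (V : Submodule ℂ H)
    (hV : IsClosed (V : Set H)) (h1 : ∀ c ∈ D.S.C, π c ξ ∈ V)
    (h2 : ∀ c ∈ D.S.C, ∀ i, π c (π (star (D.U i)) ξ) ∈ V) : KK D π ξ ≤ V := by
  refine Submodule.topologicalClosure_minimal _ (Submodule.span_le.2 ?_) hV
  rintro ζ (⟨c, hc, rfl⟩ | ⟨c, hc, i, rfl⟩)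
  · exact h1 c hc
  · exact h2 c hc i

/-- a bounded operator maps `KK` to a closed subspace if it maps the generators there -/
theorem R2a_map (D : ND A) (π : A →⋆ₙₐ[ℂ] (H →L[ℂ] H)) (ξ : H) (T : H →L[ℂ] H) (V : Submodule ℂ H)
    (hV : IsClosed (V : Set H)) (h1 : ∀ c ∈ D.S.C, T (π c ξ) ∈ V)
    (h2 : ∀ c ∈ D.S.C, ∀ i, T (π c (π (star (D.U i)) ξ)) ∈ V) {v : H} (hv : v ∈ KK D π ξ) :
    T v ∈ V := by
  have h := R2a_le D π ξ (V.comap (T : H →ₗ[ℂ] H)) (hV.preimage T.continuous) h1 h2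
  exact h hv

/-- if `x - T (p n x) ∈ V` ... : limits -/
theorem R2a_lim (V : Submodule ℂ H) (hV : IsClosed (V : Set H)) (T : H →L[ℂ] H) (P : ℕ → H →L[ℂ] H)
    {x w : H} (h1 : ∀ n, T x - T (P n x) ∈ V) (h2 : Tendsto (fun n => P n x) atTop (𝓝 w))
    (h3 : T w ∈ V) : T x ∈ V := by
  have h4 : Tendsto (fun n => T x - T (P n x)) atTop (𝓝 (T x - T w)) :=
    tendsto_const_nhds.sub ((T.continuous.tendsto w).comp h2)
  have h5 : T x - T w ∈ V := hV.mem_of_tendsto h4 (Eventually.of_forall h1)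
  have := V.add_mem h5 h3
  rwa [sub_add_cancel] at this

end Crest.Agent.NM
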