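import Crest.Agent.NM.R2a

/-!
# Row 120, R2b: the base state has a unique extension (orthogonality form)
-/

set_option autoImplicit false

namespace Crest.Agent.NM

open Filter Topology
open scoped InnerProductSpace

variable {A : Type} [CStarAlgebra A]
variable {H : Type} [NormedAddCommGroup H] [InnerProductSpace ℂ H] [CompleteSpace H]

/-- generators `π(c) v`, `v = ξ` or `U_j* ξ`, are mapped into `KK` by `U_k`. PROOF: `U_k π(c) v = U_k (1 - g^k_N) c v + U_k g^k_N c v`; the
first vector is in the span (`um`, `S.C` is an algebra). `g^k_N c v → 0` if `v = ξ` (`perp0`, symmetric form, `tendsto_of_perp`) or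
`v = U_j* ξ`, `j ≠ k` (`perp`, `fix_U`), and `→ l v` if `j = k` (`tendsto_of_scal`, `good.scal`), in which case `U_k g^k_N c v → l U_k U_k* ξ = l ξ`.
So `U_k π(c) v - (0 or l ξ)` is a limit of elements of the span. -/
theorem U_mem (D : ND A) (π : A →⋆ₙₐ[ℂ] (H →L[ℂ] H)) (h1 : π 1 = 1) {ξ : H}
    (hξ : ∀ n, π (D.S.f n) ξ = ξ) (k : D.I) {v : H} (hv : v ∈ KK D π ξ) : π (D.U k) v ∈ KK D π ξ := by
  have hmul : ∀ a b : A, ∀ x : H, π (a * b) x = π a (π b x) := fun a b x => by rw [map_mul]; rfl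
  have hsplit : ∀ (n : ℕ) (x : H), π (D.U k) x - π (D.U k) (π (D.g k n) x) =
      π (D.U k * (1 - D.g k n)) x := by
    intro n x
    rw [mul_sub, mul_one, map_sub, ContinuousLinearMap.sub_apply, hmul]
  refine R2a_map D π ξ (π (D.U k)) (KK D π ξ) (R2a_closed D π ξ) ?_ ?_ hv
  · intro c hc
    refine R2a_lim (KK D π ξ) (R2a_closed D π ξ) (π (D.U k)) (fun n => π (D.g k n)) ?_
      (tendsto_of_perp D.S (perp_symm D.S D.S.f_proj (D.good k).proj (D.perp0 k)) π hξ hc) ?_
    · intro n
      rw [hsplit, ← hmul]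
      exact R2a_mem1 D π ξ (D.S.C.mul_mem (D.um k n) hc)
    · rw [map_zero]; exact Submodule.zero_mem _
  · intro c hc j
    by_cases hj : k = j
    · subst hj
      obtain ⟨l, hl⟩ := (D.good k).scal c hc
      refine R2a_lim (KK D π ξ) (R2a_closed D π ξ) (π (D.U k)) (fun n => π (D.g k n)) ?_
        (tendsto_of_scal hl π (fix_U D π h1 hξ k)) ?_
      · intro n
        rw [hsplit, ← hmul]
        exact R2a_mem2 D π ξ (D.S.C.mul_mem (D.um k n) hc) k
      · rw [map_smul, ← hmul, D.u2]
        refine Submodule.smul_mem _ _ (R2a_mem1 D π ξ D.S.C.one_mem)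
    · refine R2a_lim (KK D π ξ) (R2a_closed D π ξ) (π (D.U k)) (fun n => π (D.g k n)) ?_
        (tendsto_of_perp D.S (D.perp k j hj) π (fix_U D π h1 hξ j) hc) ?_
      · intro n
        rw [hsplit, ← hmul]
        exact R2a_mem2 D π ξ (D.S.C.mul_mem (D.um k n) hc) j
      · rw [map_zero]; exact Submodule.zero_mem _

end Crest.Agent.NM
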