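import Crest.Agent.NM.MA3

/-!
# Row 120, T1: strong convergence in the tracial representation
-/

set_option autoImplicit false

namespace Crest.Agent.NM

open Filter Topology
open scoped InnerProductSpace

variable {H : Type} [NormedAddCommGroup H] [InnerProductSpace ℂ H] [CompleteSpace H]

/-- PROOF: for `ζ = r Ω`, `r ∈ R`: `p n r Ω = r p n Ω → 0`; finite linear combinations; density and `‖p n‖ ≤ B`. -/
theorem strong_of_tr (u : UHF H) (p : ℕ → (H →L[ℂ] H)) (hp : ∀ n, p n ∈ u.S.C) (B : ℝ)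
    (hB : ∀ n, ‖p n‖ ≤ B) (h : Tendsto (fun n => p n u.Ω) atTop (𝓝 0)) (ζ : H) :
    Tendsto (fun n => p n ζ) atTop (𝓝 0) := by
  have hB0 : 0 ≤ B := (norm_nonneg _).trans (hB 0)
  let V : Submodule ℂ H :=
    { carrier := {ζ | Tendsto (fun n => p n ζ) atTop (𝓝 0)}
      add_mem' := by
        intro a b ha hb
        have := Tendsto.add ha hb
        simpa using this
      zero_mem' := by simp
      smul_mem' := by
        intro c a ha
        have := Tendsto.const_smul ha c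
        simpa using this }
  have hV : IsClosed (V : Set H) := by
    refine isClosed_of_closure_subset fun x hx => ?_
    show Tendsto (fun n => p n x) atTop (𝓝 0)
    rw [Metric.tendsto_atTop]
    intro ε hε
    obtain ⟨y, hy, hxy⟩ := Metric.mem_closure_iff.1 hx (ε / (2 * (B + 1))) (by positivity)
    have hy' : Tendsto (fun n => p n y) atTop (𝓝 0) := hy
    obtain ⟨N, hN⟩ := Metric.tendsto_atTop.1 hy' (ε / 2) (by positivity)
    refine ⟨N, fun n hn => ?_⟩
    have h1 := hN n hn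
    rw [dist_zero_right] at h1 ⊢
    have h2 : p n x = p n (x - y) + p n y := by rw [← map_add, sub_add_cancel]
    rw [h2]
    rw [dist_eq_norm] at hxy
    have h3 : ‖p n (x - y)‖ ≤ B * (ε / (2 * (B + 1))) :=
      ((p n).le_opNorm _).trans (mul_le_mul (hB n) hxy.le (norm_nonneg _) hB0)
    have h4 : B * (ε / (2 * (B + 1))) ≤ ε / 2 := by
      rw [← mul_div_assoc, div_le_div_iff₀ (by positivity) (by positivity)]
      nlinarith
    calc ‖p n (x - y) + p n y‖ ≤ ‖p n (x - y)‖ + ‖p n y‖ := norm_add_le _ _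
      _ < ε := by linarith
  have hle : (Submodule.span ℂ {ζ : H | ∃ r ∈ u.R, r u.Ω = ζ}) ≤ V := by
    rw [Submodule.span_le]
    rintro _ ⟨r, hr, rfl⟩
    show Tendsto (fun n => p n (r u.Ω)) atTop (𝓝 0)
    have e : ∀ n, p n (r u.Ω) = r (p n u.Ω) := by
      intro n
      have := u.comm r hr (p n) (hp n)
      have := congrArg (fun T : H →L[ℂ] H => T u.Ω) this.eq
      exact this.symm
    simp only [e]
    have := (r.continuous.tendsto 0).comp h
    rw [map_zero] at this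
    exact this
  have hcl := Submodule.topologicalClosure_minimal _ hle hV
  rw [u.dense] at hcl
  exact hcl (Submodule.mem_top : ζ ∈ ⊤)

/-- an operator commuting with all `r ∈ R` and killing `Ω` is zero (`x r Ω = r x Ω = 0`, density). -/
theorem eq_zero_of_Ω (u : UHF H) (x : H →L[ℂ] H) (hx : ∀ r ∈ u.R, Commute r x) (h : x u.Ω = 0) : x = 0 := by
  have hle : (Submodule.span ℂ {ζ : H | ∃ r ∈ u.R, r u.Ω = ζ}) ≤ LinearMap.ker (x : H →ₗ[ℂ] H) := by
    rw [Submodule.span_le]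
    rintro _ ⟨r, hr, rfl⟩
    show x (r u.Ω) = 0
    have := congrArg (fun T : H →L[ℂ] H => T u.Ω) (hx r hr).eq
    have e : x (r u.Ω) = r (x u.Ω) := this.symm
    rw [e, h, map_zero]
  have hcl := Submodule.topologicalClosure_minimal _ hle
    (ContinuousLinearMap.isClosed_ker x)
  rw [u.dense] at hcl
  ext ζ
  exact hcl (Submodule.mem_top : ζ ∈ ⊤)

/-- `‖Ω‖ = 1` (`ntr 1 = 1`) -/
theorem norm_Ω (u : UHF H) : ‖u.Ω‖ = 1 := by
  have h := u.tr 0 1
  rw [map_one, ntr, Matrix.trace_one] at h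
  have h2 : ⟪u.Ω, u.Ω⟫_ℂ = 1 := by simpa using h
  rw [inner_self_eq_norm_sq_to_K] at h2
  have h3 : ‖u.Ω‖ ^ 2 = 1 := by
    have h4 : (((‖u.Ω‖ ^ 2 : ℝ)) : ℂ) = ((1 : ℝ) : ℂ) := by
      rw [Complex.ofReal_pow, Complex.ofReal_one]
      exact h2
    exact Complex.ofReal_injective h4
  nlinarith [norm_nonneg u.Ω]

/-- the vector functional of `Ω` is tracial on `S.C` (`ntr (ab) = ntr (ba)` at a common level). -/
theorem tr_comm_C (u : UHF H) {x y : H →L[ℂ] H} (hx : x ∈ u.S.C) (hy : y ∈ u.S.C) :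
    ⟪u.Ω, (x * y) u.Ω⟫_ℂ = ⟪u.Ω, (y * x) u.Ω⟫_ℂ := by
  obtain ⟨k, a, rfl⟩ := hx
  obtain ⟨l, b, rfl⟩ := hy
  obtain ⟨a', ha⟩ := u.S.lift (le_max_left k l) a
  obtain ⟨b', hb⟩ := u.S.lift (le_max_right k l) b
  rw [← ha, ← hb, ← map_mul, ← map_mul, u.tr, u.tr, ntr, ntr, Matrix.trace_mul_comm]

end Crest.Agent.NM
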