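import Crest.Agent.NM.T1

/-!
# Row 120, T2a
-/

set_option autoImplicit false

namespace Crest.Agent.NM

open Filter Topology
open scoped InnerProductSpace

variable {H : Type} [NormedAddCommGroup H] [InnerProductSpace ℂ H] [CompleteSpace H]

/-- matrix units -/
private noncomputable def T2a_e (S : Sys (H →L[ℂ] H)) (k : ℕ) (i j : Fin (2 ^ k)) : H →L[ℂ] H :=
  S.ρ k (Matrix.single i j 1)

private theorem T2a_e_mul (S : Sys (H →L[ℂ] H)) (k : ℕ) (i j l : Fin (2 ^ k)) :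
    T2a_e S k i j * T2a_e S k j l = T2a_e S k i l := by
  unfold T2a_e
  rw [← map_mul, Matrix.single_mul_single_same, one_mul]

private theorem T2a_e_star (S : Sys (H →L[ℂ] H)) (k : ℕ) (i j : Fin (2 ^ k)) :
    star (T2a_e S k i j) = T2a_e S k j i := by
  unfold T2a_e
  rw [← map_star, Matrix.star_eq_conjTranspose, Matrix.conjTranspose_single, star_one]

private theorem T2a_e_sum (S : Sys (H →L[ℂ] H)) (k : ℕ) :
    ∑ j, T2a_e S k j j = 1 := by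
  unfold T2a_e
  rw [← map_sum, Matrix.sum_single_one, map_one]

private theorem T2a_inner (S : Sys (H →L[ℂ] H)) (k : ℕ) (o i j : Fin (2 ^ k)) (ζ : H) :
    ⟪ζ, T2a_e S k i j ζ⟫_ℂ = ⟪T2a_e S k o i ζ, T2a_e S k o j ζ⟫_ℂ := by
  rw [← T2a_e_star S k i o, ContinuousLinearMap.star_eq_adjoint,
    ContinuousLinearMap.adjoint_inner_left, ← T2a_e_mul S k i o j]
  rfl

private theorem T2a_unit (S : Sys (H →L[ℂ] H)) (k : ℕ) {ζ : H} (hζ : ‖ζ‖ = 1) :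
    ∑ i, ∑ j, ‖⟪ζ, T2a_e S k i j ζ⟫_ℂ‖ ^ 2 ≤ 1 := by
  set o : Fin (2 ^ k) := ⟨0, by positivity⟩
  have hs : ∑ i, ‖T2a_e S k o i ζ‖ ^ 2 = 1 := by
    have h1 : ∑ i, ((‖T2a_e S k o i ζ‖ : ℂ)) ^ 2 = 1 := by
      have h2 : ∀ i, ((‖T2a_e S k o i ζ‖ : ℂ)) ^ 2 = ⟪ζ, T2a_e S k i i ζ⟫_ℂ := by
        intro i
        rw [T2a_inner S k o i i ζ]
        exact (inner_self_eq_norm_sq_to_K (𝕜 := ℂ) (T2a_e S k o i ζ)).symm
      simp only [h2]
      rw [← inner_sum]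
      have h3 : ∑ i, T2a_e S k i i ζ = (∑ i, T2a_e S k i i) ζ := by
        rw [sum_apply]
      rw [h3, T2a_e_sum]
      have h4 : ⟪ζ, (1 : H →L[ℂ] H) ζ⟫_ℂ = ((‖ζ‖ : ℂ)) ^ 2 := inner_self_eq_norm_sq_to_K _
      rw [h4, hζ]
      norm_num
    exact_mod_cast h1
  have h5 : ∀ i j, ‖⟪ζ, T2a_e S k i j ζ⟫_ℂ‖ ^ 2 ≤
      ‖T2a_e S k o i ζ‖ ^ 2 * ‖T2a_e S k o j ζ‖ ^ 2 := by
    intro i j
    rw [T2a_inner S k o i j ζ, ← mul_pow]
    exact pow_le_pow_left₀ (norm_nonneg _) (norm_inner_le_norm _ _) 2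
  calc ∑ i, ∑ j, ‖⟪ζ, T2a_e S k i j ζ⟫_ℂ‖ ^ 2
      ≤ ∑ i, ∑ j, ‖T2a_e S k o i ζ‖ ^ 2 * ‖T2a_e S k o j ζ‖ ^ 2 :=
        Finset.sum_le_sum fun i _ => Finset.sum_le_sum fun j _ => h5 i j
    _ = 1 := by
        simp only [← Finset.mul_sum, hs, mul_one]

/-- The coefficients of an asymptotically scalar sequence on the matrix units have `Σ |λ_ij|² ≤ 1`.
PROOF: `a = Σ conj(λ_ij) e_ij`, `g_n ρ(a) g_n - (Σ|λ_ij|²) g_n → 0` and `‖g_n ρ(a) g_n‖ ≤ ‖ρ a‖ ≤ (Σ|λ_ij|²)^{1/2}`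
(the norm of `ρ a` is at most the Hilbert-Schmidt norm), `‖g_n‖ = 1`. So `s ≤ √s`, `s ≤ 1`. -/
theorem sum_sq_le (S : Sys (H →L[ℂ] H)) {g : ℕ → (H →L[ℂ] H)} (hg : Good S g) (k : ℕ)
    (l : Fin (2 ^ k) → Fin (2 ^ k) → ℂ)
    (hl : ∀ i j, Tendsto (fun n => g n * S.ρ k (Matrix.single i j 1) * g n - l i j • g n) atTop (𝓝 0)) :
    ∑ i, ∑ j, ‖l i j‖ ^ 2 ≤ 1 := by
  -- unit vectors in the range
  have hex : ∀ n, ∃ ζ : H, ‖ζ‖ = 1 ∧ g n ζ = ζ := by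
    intro n
    have hne := hg.ne n
    obtain ⟨v, hv⟩ : ∃ v, g n v ≠ 0 := by
      by_contra hcon
      push Not at hcon
      exact hne (by ext v; rw [hcon v]; rfl)
    have hid : g n (g n v) = g n v := by
      have h := (hg.proj n).isIdempotentElem
      have h1 : (g n * g n) v = g n v := by rw [h.eq]
      exact h1
    refine ⟨((‖g n v‖ : ℂ))⁻¹ • g n v, ?_, ?_⟩
    · rw [norm_smul, norm_inv, Complex.norm_real, norm_norm]
      exact inv_mul_cancel₀ (norm_ne_zero_iff.2 hv)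
    · rw [map_smul, hid]
  choose ζ hζ1 hζ2 using hex
  have hlim : ∀ i j, Tendsto (fun n => ⟪ζ n, T2a_e S k i j (ζ n)⟫_ℂ) atTop (𝓝 (l i j)) := by
    intro i j
    have h0 : ∀ n, ⟪ζ n, T2a_e S k i j (ζ n)⟫_ℂ - l i j =
        ⟪ζ n, (g n * S.ρ k (Matrix.single i j 1) * g n - l i j • g n) (ζ n)⟫_ℂ := by
      intro n
      have hsa : star (g n) = g n := (hg.proj n).isSelfAdjoint
      rw [sub_apply, smul_apply, inner_sub_right, inner_smul_right, hζ2]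
      have h1 : ⟪ζ n, ζ n⟫_ℂ = ((‖ζ n‖ : ℂ)) ^ 2 := inner_self_eq_norm_sq_to_K _
      rw [h1, hζ1]
      have h2 : (g n * S.ρ k (Matrix.single i j 1) * g n) (ζ n) =
          g n (T2a_e S k i j (ζ n)) := by
        change g n (S.ρ k (Matrix.single i j 1) (g n (ζ n))) = _
        rw [hζ2]; rfl
      rw [h2]
      have h3 : ⟪ζ n, g n (T2a_e S k i j (ζ n))⟫_ℂ = ⟪ζ n, T2a_e S k i j (ζ n)⟫_ℂ := by
        rw [← ContinuousLinearMap.adjoint_inner_left, ← ContinuousLinearMap.star_eq_adjoint, hsa,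
          hζ2]
      rw [h3]
      simp
    rw [tendsto_iff_norm_sub_tendsto_zero]
    have hn : Tendsto (fun n => ‖g n * S.ρ k (Matrix.single i j 1) * g n - l i j • g n‖) atTop
        (𝓝 0) := by
      have := (hl i j).norm
      rwa [norm_zero] at this
    refine squeeze_zero (fun n => norm_nonneg _) (fun n => ?_) hn
    rw [h0]
    refine (norm_inner_le_norm _ _).trans ?_
    rw [hζ1, one_mul]
    refine (ContinuousLinearMap.le_opNorm _ _).trans ?_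
    rw [hζ1, mul_one]
  have hT : Tendsto (fun n => ∑ i, ∑ j, ‖⟪ζ n, T2a_e S k i j (ζ n)⟫_ℂ‖ ^ 2) atTop
      (𝓝 (∑ i, ∑ j, ‖l i j‖ ^ 2)) :=
    tendsto_finsetSum _ fun i _ => tendsto_finsetSum _ fun j _ => (hlim i j).norm.pow 2
  exact le_of_tendsto hT (Eventually.of_forall fun n => T2a_unit S k (hζ1 n))

end Crest.Agent.NM
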