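import Crest.Agent.NM.T1

/-!
# Row 120, T5a: averages, basic estimates
-/

set_option autoImplicit false

namespace Crest.Agent.NM

open Filter Topology
open scoped InnerProductSpace

variable {H : Type} [NormedAddCommGroup H] [InnerProductSpace ℂ H] [CompleteSpace H]

private theorem T5a_single_sum {k : ℕ} (b : Mt k) :
    (((2 : ℂ) ^ k)⁻¹ • ∑ i, ∑ j, Matrix.single i j (1 : ℂ) * b * Matrix.single j i (1 : ℂ) : Mt k)
      = ntr b • (1 : Mt k) := by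
  have h1 : ∀ i j : Fin (2 ^ k), (Matrix.single i j (1 : ℂ) * b * Matrix.single j i (1 : ℂ) : Mt k)
      = b j j • Matrix.single i i (1 : ℂ) := by
    intro i j
    rw [Matrix.single_mul_mul_single]
    simp
  simp_rw [h1]
  have h2 : ∀ i : Fin (2 ^ k), (∑ j, b j j • (Matrix.single i i (1 : ℂ) : Mt k))
      = b.trace • (Matrix.single i i (1 : ℂ) : Mt k) := by
    intro i
    rw [← Finset.sum_smul]
    rfl
  simp_rw [h2]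
  rw [← Finset.smul_sum, Matrix.sum_single_one, smul_smul]
  rfl

/-- exact on `S.C`: for `x = ρ m a` and `k ≥ m`, `avg k x = ntr a • 1` (lift `a` to level `k`; `Σ_ij e_ij a e_ji = tr(a) 1`). -/
theorem avg_C (u : UHF H) {x : H →L[ℂ] H} (hx : x ∈ u.S.C) :
    ∀ᶠ k in atTop, u.S.avg k x = ⟪u.Ω, x u.Ω⟫_ℂ • (1 : H →L[ℂ] H) := by
  obtain ⟨m, a, rfl⟩ := hx
  filter_upwards [eventually_ge_atTop m] with k hk
  obtain ⟨b, hb⟩ := u.S.lift hk a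
  rw [← hb, u.tr, Sys.avg]
  simp_rw [← map_mul]
  simp_rw [← map_sum]
  rw [← map_smul, T5a_single_sum, map_smul, map_one]

theorem avg_add (S : Sys (H →L[ℂ] H)) (k : ℕ) (x y : H →L[ℂ] H) : S.avg k (x + y) = S.avg k x + S.avg k y := by
  simp only [Sys.avg, mul_add, add_mul, Finset.sum_add_distrib, smul_add]

private noncomputable abbrev T5a_e (S : Sys (H →L[ℂ] H)) (k : ℕ) (i j : Fin (2 ^ k)) : H →L[ℂ] H :=
  S.ρ k (Matrix.single i j 1)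

private theorem T5a_e_mul (S : Sys (H →L[ℂ] H)) (k : ℕ) (i j l : Fin (2 ^ k)) :
    T5a_e S k i j * T5a_e S k j l = T5a_e S k i l := by
  rw [T5a_e, T5a_e, ← map_mul, Matrix.single_mul_single_same, mul_one]

private theorem T5a_e_mul_ne (S : Sys (H →L[ℂ] H)) (k : ℕ) (i j j' l : Fin (2 ^ k)) (h : j ≠ j') :
    T5a_e S k i j * T5a_e S k j' l = 0 := by
  rw [T5a_e, T5a_e, ← map_mul, Matrix.single_mul_single_of_ne _ _ _ _ h, map_zero]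

private theorem T5a_e_star (S : Sys (H →L[ℂ] H)) (k : ℕ) (i j : Fin (2 ^ k)) :
    star (T5a_e S k i j) = T5a_e S k j i := by
  rw [T5a_e, ← map_star, Matrix.star_eq_conjTranspose, Matrix.conjTranspose_single, star_one]

private theorem T5a_e_sum (S : Sys (H →L[ℂ] H)) (k : ℕ) :
    ∑ i, T5a_e S k i i = 1 := by
  rw [← map_sum, Matrix.sum_single_one, map_one]

private theorem T5a_inner (S : Sys (H →L[ℂ] H)) (k : ℕ) (i j : Fin (2 ^ k)) (v w : H) :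
    ⟪T5a_e S k i j v, w⟫_ℂ = ⟪v, T5a_e S k j i w⟫_ℂ := by
  rw [← T5a_e_star S k i j, ContinuousLinearMap.star_eq_adjoint, ContinuousLinearMap.adjoint_inner_right]

private theorem T5a_pyth (S : Sys (H →L[ℂ] H)) (k : ℕ) (ζ : H) :
    ‖ζ‖ ^ 2 = ∑ i, ‖T5a_e S k i i ζ‖ ^ 2 := by
  have h1 : ∀ i, ((‖T5a_e S k i i ζ‖ ^ 2 : ℝ) : ℂ) = ⟪ζ, T5a_e S k i i ζ⟫_ℂ := by
    intro i
    have := inner_self_eq_norm_sq_to_K (𝕜 := ℂ) (T5a_e S k i i ζ)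
    rw [T5a_inner, ← ContinuousLinearMap.mul_apply, T5a_e_mul] at this
    rw [this]
    norm_cast
  have h2 : ((‖ζ‖ ^ 2 : ℝ) : ℂ) = ((∑ i, ‖T5a_e S k i i ζ‖ ^ 2 : ℝ) : ℂ) := by
    rw [Complex.ofReal_sum]
    simp_rw [h1]
    rw [← inner_sum, ← ContinuousLinearMap.sum_apply, T5a_e_sum, ContinuousLinearMap.one_apply,
      inner_self_eq_norm_sq_to_K]
    norm_cast
  exact_mod_cast h2

private theorem T5a_diag_le (S : Sys (H →L[ℂ] H)) (k : ℕ) (i : Fin (2 ^ k)) (ζ : H) :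
    ‖T5a_e S k i i ζ‖ ^ 2 ≤ ‖ζ‖ ^ 2 := by
  rw [T5a_pyth S k ζ]
  exact Finset.single_le_sum (f := fun i => ‖T5a_e S k i i ζ‖ ^ 2) (fun i _ => by positivity)
    (Finset.mem_univ i)

private theorem T5a_norm_sq (S : Sys (H →L[ℂ] H)) (k : ℕ) (i j : Fin (2 ^ k)) (ζ : H) :
    ‖T5a_e S k i j ζ‖ ^ 2 = ‖T5a_e S k j j ζ‖ ^ 2 := by
  have h1 : ∀ i, ((‖T5a_e S k i j ζ‖ ^ 2 : ℝ) : ℂ) = ⟪ζ, T5a_e S k j j ζ⟫_ℂ := by
    intro i
    have := inner_self_eq_norm_sq_to_K (𝕜 := ℂ) (T5a_e S k i j ζ)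
    rw [T5a_inner, ← ContinuousLinearMap.mul_apply, T5a_e_mul] at this
    rw [this]
    norm_cast
  have h2 : ((‖T5a_e S k i j ζ‖ ^ 2 : ℝ) : ℂ) = ((‖T5a_e S k j j ζ‖ ^ 2 : ℝ) : ℂ) := by
    rw [h1, h1]
  exact_mod_cast h2

private theorem T5a_norm_le (S : Sys (H →L[ℂ] H)) (k : ℕ) (i j : Fin (2 ^ k)) (ζ : H) :
    ‖T5a_e S k i j ζ‖ ≤ ‖ζ‖ := by
  have h := T5a_diag_le S k j ζ
  rw [← T5a_norm_sq S k i j ζ] at h
  exact le_of_sq_le_sq h (norm_nonneg _) |>.trans le_rfl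

private theorem T5a_key (S : Sys (H →L[ℂ] H)) (k : ℕ) (x : H →L[ℂ] H) (ζ : H) :
    ‖S.avg k x ζ‖ ^ 2 ≤ ((2 : ℝ) ^ k)⁻¹ * ∑ i, ∑ j, ‖x (T5a_e S k j i ζ)‖ ^ 2 := by
  rw [T5a_pyth S k, Finset.mul_sum]
  refine Finset.sum_le_sum fun i _ => ?_
  have h1 : T5a_e S k i i (S.avg k x ζ)
      = ((2 : ℂ) ^ k)⁻¹ • ∑ j, T5a_e S k i j (x (T5a_e S k j i ζ)) := by
    rw [← ContinuousLinearMap.mul_apply, Sys.avg, mul_smul_comm, Finset.mul_sum,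
      Finset.sum_eq_single i]
    · rw [Finset.mul_sum]
      rw [ContinuousLinearMap.smul_apply, ContinuousLinearMap.sum_apply]
      congr 1
      refine Finset.sum_congr rfl fun j _ => ?_
      have := T5a_e_mul S k i i j
      rw [← mul_assoc, ← mul_assoc]
      change (T5a_e S k i i * T5a_e S k i j * x * T5a_e S k j i) ζ = _
      rw [this]
      rfl
    · intro b _ hb
      rw [Finset.mul_sum]
      refine Finset.sum_eq_zero fun j _ => ?_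
      rw [← mul_assoc, ← mul_assoc]
      change (T5a_e S k i i * T5a_e S k b j * x * T5a_e S k j b) = _
      rw [T5a_e_mul_ne S k _ _ _ _ (Ne.symm hb), zero_mul, zero_mul]
    · intro h
      exact absurd (Finset.mem_univ _) h
  rw [h1, norm_smul]
  have h2 : ‖∑ j, T5a_e S k i j (x (T5a_e S k j i ζ))‖ ^ 2
      ≤ (2 : ℝ) ^ k * ∑ j, ‖x (T5a_e S k j i ζ)‖ ^ 2 := by
    calc ‖∑ j, T5a_e S k i j (x (T5a_e S k j i ζ))‖ ^ 2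
        ≤ (∑ j, ‖x (T5a_e S k j i ζ)‖) ^ 2 := by
          refine pow_le_pow_left₀ (norm_nonneg _) ?_ 2
          refine (norm_sum_le _ _).trans ?_
          exact Finset.sum_le_sum fun j _ => T5a_norm_le S k i j _
      _ ≤ (Finset.univ : Finset (Fin (2 ^ k))).card * ∑ j, ‖x (T5a_e S k j i ζ)‖ ^ 2 :=
          sq_sum_le_card_mul_sum_sq
      _ = (2 : ℝ) ^ k * ∑ j, ‖x (T5a_e S k j i ζ)‖ ^ 2 := by
          rw [Finset.card_univ, Fintype.card_fin]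
          push_cast
          rfl
  have h3 : ‖((2 : ℂ) ^ k)⁻¹‖ = ((2 : ℝ) ^ k)⁻¹ := by
    rw [norm_inv, norm_pow]
    simp
  rw [h3, mul_pow]
  have h4 : (0 : ℝ) < 2 ^ k := by positivity
  calc (((2 : ℝ) ^ k)⁻¹) ^ 2 * ‖∑ j, T5a_e S k i j (x (T5a_e S k j i ζ))‖ ^ 2
      ≤ (((2 : ℝ) ^ k)⁻¹) ^ 2 * ((2 : ℝ) ^ k * ∑ j, ‖x (T5a_e S k j i ζ)‖ ^ 2) :=
        mul_le_mul_of_nonneg_left h2 (by positivity)
    _ = ((2 : ℝ) ^ k)⁻¹ * ∑ j, ‖x (T5a_e S k j i ζ)‖ ^ 2 := by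
        field_simp

/-- contraction. PROOF: `‖avg k x ζ‖² = Σ_i ‖e_ii avg k x ζ‖² = Σ_i ‖2^{-k} Σ_j e_ij x e_ji ζ‖² ≤ Σ_i 2^{-k} Σ_j ‖x e_ji ζ‖²
≤ ‖x‖² Σ_i ‖e_ii ζ‖² = ‖x‖² ‖ζ‖²` (`‖e_ij v‖ ≤ ‖v‖`, `‖e_ji ζ‖ = ‖e_ii ζ‖`, Cauchy-Schwarz for `2^k` terms). -/
theorem norm_avg_le (S : Sys (H →L[ℂ] H)) (k : ℕ) (x : H →L[ℂ] H) : ‖S.avg k x‖ ≤ ‖x‖ := by
  refine ContinuousLinearMap.opNorm_le_bound _ (norm_nonneg _) fun ζ => ?_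
  have h4 : (0 : ℝ) < 2 ^ k := by positivity
  have h : ‖S.avg k x ζ‖ ^ 2 ≤ (‖x‖ * ‖ζ‖) ^ 2 := by
    calc ‖S.avg k x ζ‖ ^ 2 ≤ ((2 : ℝ) ^ k)⁻¹ * ∑ i, ∑ j, ‖x (T5a_e S k j i ζ)‖ ^ 2 := T5a_key S k x ζ
      _ ≤ ((2 : ℝ) ^ k)⁻¹ * ∑ i, ∑ j : Fin (2 ^ k), ‖x‖ ^ 2 * ‖T5a_e S k i i ζ‖ ^ 2 := by
          refine mul_le_mul_of_nonneg_left ?_ (by positivity)
          refine Finset.sum_le_sum fun i _ => Finset.sum_le_sum fun j _ => ?_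
          rw [← T5a_norm_sq S k j i, ← mul_pow]
          exact pow_le_pow_left₀ (norm_nonneg _) (x.le_opNorm _) 2
      _ = (‖x‖ * ‖ζ‖) ^ 2 := by
          simp_rw [Finset.sum_const, Finset.card_univ, Fintype.card_fin, nsmul_eq_mul]
          rw [← Finset.mul_sum, ← Finset.mul_sum, ← T5a_pyth S k ζ]
          push_cast
          field_simp
  exact le_of_sq_le_sq h (by positivity)

/-- the same computation: `‖avg k (x y) ζ‖² ≤ ‖x‖² 2^{-k} Σ_ij ‖y e_ji ζ‖² = ‖x‖² ⟪ζ, avg k (y* y) ζ⟫`, and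
`avg k (y* y) = τ(y* y) = ‖yΩ‖²` eventually (`avg_C`). -/
theorem norm_avg_mul_le (u : UHF H) (x : H →L[ℂ] H) {y : H →L[ℂ] H} (hy : y ∈ u.S.C) :
    ∀ᶠ k in atTop, ‖u.S.avg k (x * y)‖ ≤ ‖x‖ * ‖y u.Ω‖ := by
  have hyy : star y * y ∈ u.S.C := mul_mem (star_mem hy) hy
  filter_upwards [avg_C u hyy] with k hk
  refine ContinuousLinearMap.opNorm_le_bound _ (by positivity) fun ζ => ?_
  have h4 : (0 : ℝ) < 2 ^ k := by positivity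
  have hΩ : ⟪u.Ω, (star y * y) u.Ω⟫_ℂ = ((‖y u.Ω‖ ^ 2 : ℝ) : ℂ) := by
    rw [ContinuousLinearMap.mul_apply, ContinuousLinearMap.star_eq_adjoint,
      ContinuousLinearMap.adjoint_inner_right, inner_self_eq_norm_sq_to_K]
    norm_cast
  have h5 : ((2 : ℝ) ^ k)⁻¹ * ∑ i, ∑ j, ‖y (T5a_e u.S k j i ζ)‖ ^ 2 = ‖y u.Ω‖ ^ 2 * ‖ζ‖ ^ 2 := by
    have h6 : ⟪ζ, u.S.avg k (star y * y) ζ⟫_ℂ = ((‖y u.Ω‖ ^ 2 * ‖ζ‖ ^ 2 : ℝ) : ℂ) := by
      rw [hk, hΩ, ContinuousLinearMap.smul_apply, ContinuousLinearMap.one_apply, inner_smul_right,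
        inner_self_eq_norm_sq_to_K]
      push_cast
      rfl
    have h7 : ⟪ζ, u.S.avg k (star y * y) ζ⟫_ℂ
        = ((((2 : ℝ) ^ k)⁻¹ * ∑ i, ∑ j, ‖y (T5a_e u.S k j i ζ)‖ ^ 2 : ℝ) : ℂ) := by
      have h8 : ((((2 : ℝ) ^ k)⁻¹ * ∑ i, ∑ j, ‖y (T5a_e u.S k j i ζ)‖ ^ 2 : ℝ) : ℂ)
          = ((2 : ℂ) ^ k)⁻¹ * ∑ i, ∑ j, ((‖y (T5a_e u.S k j i ζ)‖ : ℂ)) ^ 2 := by
        push_cast
        rfl
      rw [h8, Sys.avg, ContinuousLinearMap.smul_apply, ContinuousLinearMap.sum_apply, inner_smul_right,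
        inner_sum]
      congr 1
      refine Finset.sum_congr rfl fun i _ => ?_
      rw [ContinuousLinearMap.sum_apply, inner_sum]
      refine Finset.sum_congr rfl fun j _ => ?_
      change ⟪ζ, T5a_e u.S k i j ((star y) (y (T5a_e u.S k j i ζ)))⟫_ℂ = _
      rw [← T5a_inner, ContinuousLinearMap.star_eq_adjoint, ContinuousLinearMap.adjoint_inner_right,
        inner_self_eq_norm_sq_to_K]
      rfl
    rw [h6] at h7
    exact_mod_cast h7.symm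
  have h : ‖u.S.avg k (x * y) ζ‖ ^ 2 ≤ (‖x‖ * ‖y u.Ω‖ * ‖ζ‖) ^ 2 := by
    calc ‖u.S.avg k (x * y) ζ‖ ^ 2
        ≤ ((2 : ℝ) ^ k)⁻¹ * ∑ i, ∑ j, ‖(x * y) (T5a_e u.S k j i ζ)‖ ^ 2 := T5a_key u.S k (x * y) ζ
      _ ≤ ((2 : ℝ) ^ k)⁻¹ * ∑ i, ∑ j, ‖x‖ ^ 2 * ‖y (T5a_e u.S k j i ζ)‖ ^ 2 := by
          refine mul_le_mul_of_nonneg_left ?_ (by positivity)
          refine Finset.sum_le_sum fun i _ => Finset.sum_le_sum fun j _ => ?_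
          rw [← mul_pow]
          exact pow_le_pow_left₀ (norm_nonneg _) (x.le_opNorm _) 2
      _ = ‖x‖ ^ 2 * (((2 : ℝ) ^ k)⁻¹ * ∑ i, ∑ j, ‖y (T5a_e u.S k j i ζ)‖ ^ 2) := by
          simp_rw [← Finset.mul_sum]
          ring
      _ = (‖x‖ * ‖y u.Ω‖ * ‖ζ‖) ^ 2 := by
          rw [h5]
          ring
  exact le_of_sq_le_sq h (by positivity)

end Crest.Agent.NM
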